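import Crest.Agent.R330.BC3.D0

/-! # Row 330, BC3/M1: normalising change of variables -/

set_option autoImplicit false
set_option linter.unusedSectionVars false

noncomputable section

open MeasureTheory Filter Topology
open scoped InnerProductSpace ContDiff Matrix
open Crest.MathPhysics.MatrixQM (GammaNine)

namespace Crest.Agent.R330

variable {E Z L H F : Type}
  [NormedAddCommGroup E] [InnerProductSpace ℝ E] [FiniteDimensional ℝ E]
  [NormedAddCommGroup Z] [InnerProductSpace ℝ Z] [FiniteDimensional ℝ Z]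
  [NormedAddCommGroup L] [InnerProductSpace ℝ L] [FiniteDimensional ℝ L]
  [NormedAddCommGroup H] [InnerProductSpace ℝ H] [FiniteDimensional ℝ H]
  [NormedAddCommGroup F] [InnerProductSpace ℂ F] [FiniteDimensional ℂ F]
  [MeasurableSpace E] [BorelSpace E] [MeasurableSpace Z] [BorelSpace Z]
  [MeasurableSpace L] [BorelSpace L] [MeasurableSpace H] [BorelSpace H]
  {P : Type} [Fintype P] {𝔤 : Lie E} (D : Levi 𝔤 Z L H P) (C : Cl (Th E) F) (σ : Spn)

namespace Levi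

theorem c3_pr_sum (a : P → ℝ) (v : X H) (p : P) :
    lift 9 (D.pr p) (∑ q, a q • lift 9 (D.pr q) v) = a p • lift 9 (D.pr p) v := by
  classical
  rw [map_sum, Finset.sum_eq_single p]
  · rw [map_smul, D.c3_pr_pr]
  · intro q _ hq
    rw [map_smul, D.c3_pr_orth (Ne.symm hq), smul_zero]
  · simp

theorem c3_pr_sum_H (a : P → ℝ) (v : H) (p : P) :
    D.pr p (∑ q, a q • D.pr q v) = a p • D.pr p v := by
  classical
  rw [map_sum, Finset.sum_eq_single p]
  · rw [map_smul, D.pr_idem]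
  · intro q _ hq
    rw [map_smul, D.pr_orth _ _ (Ne.symm hq), smul_zero]
  · simp

theorem c3_adZ_pr (a : Z) (p : P) (v : H) : D.adZ a (D.pr p v) = D.pr p (D.adZ a v) := by
  simp only [adZ, LinearMap.sum_apply, LinearMap.smul_apply, LinearMap.comp_apply, map_sum,
    map_smul, ← D.I_pr]
  refine Finset.sum_congr rfl fun q _ => ?_
  by_cases h : q = p
  · rw [h]
  · rw [D.pr_orth _ _ h, D.pr_orth _ _ (Ne.symm h)]

theorem c3_Phi_pr (z : X Z) (p : P) (v : X H) :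
    D.Phi z (lift 9 (D.pr p) v) = D.pr p (D.Phi z v) := by
  simp only [Phi, lift_apply, map_sum, D.c3_adZ_pr]

/-- the normalising map -/
def c3T (z : X Z) : X H →ₗ[ℝ] X H :=
  ∑ p, (√(D.M p z))⁻¹ • (lift 9 (D.pr p) ∘ₗ D.c3A z) +
    ∑ p, (D.M p z)⁻¹ • (lift 9 (D.pr p) ∘ₗ (LinearMap.id - D.c3A z))

theorem c3T_apply (z : X Z) (y : X H) : D.c3T z y =
    ∑ p, (√(D.M p z))⁻¹ • lift 9 (D.pr p) (D.c3A z y) +
      ∑ p, (D.M p z)⁻¹ • lift 9 (D.pr p) (y - D.c3A z y) := by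
  simp [c3T, LinearMap.sum_apply]

variable {z : X Z} (hz : z ∈ D.reg)
include hz

theorem c3T_det : LinearMap.det (D.c3T z) = ∏ p, ((D.M p z) ^ (5 * D.m p))⁻¹ := by
  have hA := D.c3A_idem hz
  have key := bc3_det_sum (ι := P ⊕ P)
    (Sum.elim (fun p => lift 9 (D.pr p) ∘ₗ D.c3A z)
      fun p => lift 9 (D.pr p) ∘ₗ (LinearMap.id - D.c3A z))
    (by rintro (p | p) v <;> simp [D.c3A_pr, hA, D.c3_pr_pr])
    (by
      rintro (p | p) (q | q) h v
      · have : p ≠ q := fun e => h (e ▸ rfl)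
        simp [D.c3A_pr, D.c3_pr_orth this]
      · simp [D.c3A_pr, hA]
      · simp [D.c3A_pr, hA]
      · have : p ≠ q := fun e => h (e ▸ rfl)
        simp [D.c3A_pr, D.c3_pr_orth this])
    (Sum.elim (fun p => 8 * D.m p) fun p => D.m p)
    (by
      rintro (p | p)
      · simpa using D.c3A_trace hz p
      · have h1 := trace_mat_lift (1 : Matrix (Fin 9) (Fin 9) ℝ) (D.pr p)
        rw [mat_one, LinearMap.id_comp, D.trace_pr, Matrix.trace_one] at h1
        simp only [Sum.elim_inr, LinearMap.comp_sub, LinearMap.comp_id, map_sub, h1,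
          D.c3A_trace hz p]
        simp; ring)
    (Sum.elim (fun p => (√(D.M p z))⁻¹) fun p => (D.M p z)⁻¹) Finset.univ
  rw [Fintype.prod_sum_type, ← Finset.prod_mul_distrib] at key
  convert key using 2 with p
  · ext1 y
    have h1 := D.c3_sum_pr (D.c3A z y)
    have h2 := D.c3_sum_pr (y - D.c3A z y)
    simp only [c3T_apply, Fintype.sum_sum_type, Sum.elim_inl, Sum.elim_inr, LinearMap.add_apply,
      LinearMap.id_apply, LinearMap.sum_apply, LinearMap.smul_apply, LinearMap.comp_apply,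
      LinearMap.sub_apply, sub_smul, one_smul, Finset.sum_sub_distrib, h1, h2]
    abel
  · simp only [Sum.elim_inl, Sum.elim_inr]
    rw [show 8 * D.m p = 2 * (4 * D.m p) by ring, pow_mul ((√(D.M p z))⁻¹), inv_pow (√(D.M p z)),
      Real.sq_sqrt (hz p).le, ← pow_add, inv_pow]
    congr 2; ring

theorem c3A_T (y : X H) :
    D.c3A z (D.c3T z y) = ∑ p, (√(D.M p z))⁻¹ • lift 9 (D.pr p) (D.c3A z y) := by
  simp [c3T_apply, D.c3A_pr, D.c3A_idem hz]

theorem c3T_sub (y : X H) : D.c3T z y - D.c3A z (D.c3T z y) =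
    ∑ p, (D.M p z)⁻¹ • lift 9 (D.pr p) (y - D.c3A z y) := by
  rw [D.c3A_T hz, c3T_apply, add_sub_cancel_left]

theorem c3_hq_T (y : X H) : -2 * D.hq z (D.c3T z y) = -‖D.c3A z y‖ ^ 2 := by
  rw [hq, ← D.c3A_apply, D.c3A_T hz, D.c3_norm_sq (D.c3A z y)]
  have : ∀ p, D.M p z * ‖lift 9 (D.pr p) (∑ q, (√(D.M q z))⁻¹ • lift 9 (D.pr q) (D.c3A z y))‖ ^ 2 =
      ‖lift 9 (D.pr p) (D.c3A z y)‖ ^ 2 := fun p => by
    rw [D.c3_pr_sum, norm_smul, mul_pow, Real.norm_eq_abs, sq_abs, inv_pow, Real.sq_sqrt (hz p).le,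
      mul_inv_cancel_left₀ (hz p).ne']
  simp only [this]; ring

theorem c3_sub_A (y : X H) : y - D.c3A z y = D.lam z (D.Phi z y) := by
  rw [c3A_apply, perp, sub_sub_cancel]

theorem c3_Phi_A (y : X H) : D.c3Phi z (D.c3A z y) = 0 := by
  rw [c3A_apply]; exact D.Phi_perp hz y

theorem c3_Phi_T (y : X H) : ‖D.Phi z (D.c3T z y)‖ ^ 2 = ‖y - D.c3A z y‖ ^ 2 := by
  have h1 : D.Phi z (D.c3T z y) = ∑ p, (D.M p z)⁻¹ • D.pr p (D.Phi z y) := by
    have : D.Phi z (D.c3T z y) = D.c3Phi z (D.c3T z y - D.c3A z (D.c3T z y)) := by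
      rw [map_sub, D.c3_Phi_A hz, sub_zero]; rfl
    rw [this, D.c3T_sub hz, map_sum]
    refine Finset.sum_congr rfl fun p _ => ?_
    rw [map_smul]
    congr 1
    have h2 : D.c3Phi z (y - D.c3A z y) = D.Phi z y := by
      rw [map_sub, D.c3_Phi_A hz, sub_zero]; rfl
    rw [← h2]
    exact D.c3_Phi_pr z p _
  rw [h1, D.c3_sub_A hz, D.norm_lam_sq hz, D.c3_norm_sq_H]
  refine Finset.sum_congr rfl fun p _ => ?_
  rw [D.c3_pr_sum_H, norm_smul, mul_pow, Real.norm_eq_abs, sq_abs, inv_pow, div_eq_inv_mul]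

theorem c3_norm_T {κ ρ : ℝ} (hκ : 1 ≤ κ) (hρ : 1 ≤ ρ) (hM : ∀ p, ρ ≤ κ * D.M p z) (y : X H) :
    ‖D.c3T z y‖ ^ 2 ≤ κ ^ 2 / ρ * ‖y‖ ^ 2 := by
  have e1 := (D.cosc_sc1 hz).norm_sq (D.c3T z y)
  have e2 := (D.cosc_sc1 hz).norm_sq y
  change _ = ‖D.c3A z _‖ ^ 2 + ‖_ - D.c3A z _‖ ^ 2 at e1 e2
  rw [e1, e2, D.c3T_sub hz, D.c3A_T hz, D.c3_norm_sum, D.c3_norm_sum, D.c3_norm_sq (D.c3A z y),
    D.c3_norm_sq (y - D.c3A z y), mul_add, Finset.mul_sum, Finset.mul_sum]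
  have hρ0 : 0 < ρ := by linarith
  have h1 : ∀ p, (D.M p z)⁻¹ ≤ κ / ρ := fun p => by
    rw [inv_eq_one_div, div_le_div_iff₀ (hz p) hρ0]; linarith [hM p]
  refine add_le_add (Finset.sum_le_sum fun p _ => ?_) (Finset.sum_le_sum fun p _ => ?_)
  · refine mul_le_mul_of_nonneg_right ?_ (sq_nonneg _)
    rw [inv_pow, Real.sq_sqrt (hz p).le]
    refine (h1 p).trans (div_le_div_of_nonneg_right ?_ hρ0.le)
    nlinarith
  · refine mul_le_mul_of_nonneg_right ?_ (sq_nonneg _)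
    have h2 := inv_pos.2 (hz p)
    calc _ ≤ (κ / ρ) ^ 2 := by gcongr; exact h1 p
      _ = κ ^ 2 / ρ ^ 2 := div_pow _ _ _
      _ ≤ _ := by gcongr; nlinarith

omit hz in
/-- the normalised density -/
def c3G (z : X Z) (y : X H) : ℝ :=
  Real.smoothTransition (2 - 4 * ‖y - D.c3A z y‖ ^ 2) * Real.exp (-‖D.c3A z y‖ ^ 2)

theorem c3_change {f : X H → ℝ} (hf : Continuous f) :
    ∫ y, D.wt z y * Real.exp (-2 * D.hq z y) * f y =
      (∏ p, ((D.M p z) ^ (3 * D.m p))⁻¹) * ∫ y, D.c3G z y * f (D.c3T z y) := by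
  have cw : Continuous (D.wt z) := (D.cosc hz).continuous_w
  have ch : Continuous (D.hq z) := by
    have := (D.cosc hz).continuous_h
    rwa [show (D.cosc hz).h = D.hq z from funext (D.cosc_h hz)] at this
  have hdet : 0 < LinearMap.det (D.c3T z) := by
    rw [D.c3T_det hz]
    exact Finset.prod_pos fun p _ => inv_pos.2 (pow_pos (hz p) _)
  rw [bc3_integral_lin (D.c3T z) hdet (by fun_prop), D.c3T_det hz]
  have e : ∀ y, D.wt z (D.c3T z y) * Real.exp (-2 * D.hq z (D.c3T z y)) * f (D.c3T z y) =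
      D.jac z * (D.c3G z y * f (D.c3T z y)) := fun y => by
    rw [wt, D.c3_Phi_T hz, D.c3_hq_T hz, c3G]; ring
  simp only [e]
  rw [integral_const_mul, ← mul_assoc, jac, ← Finset.prod_mul_distrib]
  congr 1
  refine Finset.prod_congr rfl fun p _ => ?_
  have := (hz p).ne'
  rw [show 5 * D.m p = 3 * D.m p + 2 * D.m p by ring, pow_add]
  field_simp

/-- the isometric embedding onto the gauge-like directions -/
def c3iota : H →ₗᵢ[ℝ] X H where
  toFun t := D.lam z (D.Mop z t)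
  map_add' a b := by ext i; simp [lam, add_comm]
  map_smul' r a := by ext i; simp [lam]
  norm_map' t := by
    refine (sq_eq_sq₀ (norm_nonneg _) (norm_nonneg _)).1 ?_
    show ‖D.lam z (D.Mop z t)‖ ^ 2 = _
    rw [D.norm_lam_sq hz, D.c3_norm_sq_H t]
    refine Finset.sum_congr rfl fun p _ => ?_
    have := (hz p).ne'
    simp only [Mop, LinearMap.sum_apply, LinearMap.smul_apply]
    rw [D.c3_pr_sum_H, norm_smul, mul_pow, Real.norm_eq_abs, sq_abs]
    field_simp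

theorem c3A_iota (t : H) : D.c3A z (D.c3iota hz t) = 0 := by
  show D.c3A z (D.lam z (D.Mop z t)) = 0
  rw [c3A_apply, perp, D.Phi_lam hz, sub_self]

theorem c3_exists_iota (y : X H) : ∃ t, y - D.c3A z y = D.c3iota hz t := by
  refine ⟨∑ p, (D.M p z)⁻¹ • D.pr p (D.Phi z y), ?_⟩
  rw [D.c3_sub_A hz]
  show _ = D.lam z (D.Mop z _)
  congr 1
  simp only [Mop, LinearMap.sum_apply, LinearMap.smul_apply, D.c3_pr_sum_H, smul_smul]
  conv_lhs => rw [← D.pr_sum (D.Phi z y)]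
  exact Finset.sum_congr rfl fun p _ => by rw [mul_inv_cancel₀ (hz p).ne', one_smul]

theorem c3_exists_iso {z' : X Z} (hz' : z' ∈ D.reg) :
    ∃ U : X H ≃ₗᵢ[ℝ] X H, ∀ y, D.c3A z' (U y) = U (D.c3A z y) := by
  let L0 := (D.c3iota hz').comp (D.c3iota hz).equivRange.symm.toLinearIsometry
  let U := L0.extend.toLinearIsometryEquiv rfl
  have hU : ∀ t, U (D.c3iota hz t) = D.c3iota hz' t := fun t => by
    have := L0.extend_apply ((D.c3iota hz).equivRange t)
    refine Eq.trans this ?_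
    simp [L0]
  refine ⟨U, fun y => ?_⟩
  obtain ⟨t, ht⟩ := D.c3_exists_iota hz y
  obtain ⟨s, hs⟩ := D.c3_exists_iota hz' (U (D.c3A z y))
  have h1 : ⟪D.c3iota hz' s, D.c3iota hz' s⟫_ℝ = 0 := by
    conv_lhs => rw [← hs, inner_sub_left, D.c3A_sym, hs, D.c3A_iota hz', inner_zero_right, sub_zero,
      ← hU, U.inner_map_map, D.c3A_sym, D.c3A_iota hz, inner_zero_right]
  have h2 : U (D.c3A z y) = D.c3A z' (U (D.c3A z y)) := by
    rw [← sub_eq_zero, hs]; exact inner_self_eq_zero.1 h1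
  have h3 : y = D.c3A z y + D.c3iota hz t := by rw [← ht]; abel
  conv_lhs => rw [h3, map_add, map_add, hU, D.c3A_iota hz', add_zero, ← h2]

theorem c3G_moment {z' : X Z} (hz' : z' ∈ D.reg) (k : ℕ) :
    ∫ y, D.c3G z' y * ‖y‖ ^ k = ∫ y, D.c3G z y * ‖y‖ ^ k := by
  obtain ⟨U, hU⟩ := D.c3_exists_iso hz hz'
  rw [← U.measurePreserving.integral_comp U.toHomeomorph.measurableEmbedding]
  simp only [c3G, hU, ← map_sub, U.norm_map]

theorem c3G_integrable (k : ℕ) : Integrable fun y => D.c3G z y * ‖y‖ ^ k := by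
  have hA := D.c3A_idem hz
  have hin : ∀ y, ⟪D.c3A z y, y⟫_ℝ = ‖D.c3A z y‖ ^ 2 := fun y => by
    conv_lhs => rw [← hA, D.c3A_sym]
    exact real_inner_self_eq_norm_sq _
  let O : COsc (X H) (X H) :=
    { Pr := LinearMap.toContinuousLinearMap (D.c3A z)
      S := LinearMap.toContinuousLinearMap (D.c3A z)
      Φ := LinearMap.toContinuousLinearMap (LinearMap.id - D.c3A z)
      j := 1
      j_pos := one_pos
      Pr_sym := D.c3A_sym z
      S_sym := D.c3A_sym z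
      S_Pr := hA
      Φ_Pr := fun v => by simp [hA]
      S_nonneg := fun v => by
        show 0 ≤ ⟪D.c3A z v, v⟫_ℝ
        rw [hin]; positivity }
  have hS : O.Sc 1 1 := ⟨one_pos, one_pos, hA, fun y => by
    show 1 * ‖D.c3A z y‖ ^ 2 ≤ 1 * ⟪D.c3A z y, y⟫_ℝ
    rw [hin], fun y => by
    show 1 * ⟪D.c3A z y, y⟫_ℝ ≤ 1 * ‖D.c3A z y‖ ^ 2
    rw [hin], fun y => le_rfl⟩
  refine (hS.integrable two_pos k).congr (Eventually.of_forall fun y => ?_)
  show Real.smoothTransition (2 - 4 * ‖y - D.c3A z y‖ ^ 2) * 1 *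
    Real.exp (-2 * (1 / 2 * ⟪D.c3A z y, y⟫_ℝ)) * ‖y‖ ^ k = D.c3G z y * ‖y‖ ^ k
  rw [hin, c3G, mul_one]
  congr 3; ring

omit hz in
theorem c3G_nonneg (y : X H) : 0 ≤ D.c3G z y :=
  mul_nonneg (Real.smoothTransition.nonneg _) (Real.exp_pos _).le

end Levi

end Crest.Agent.R330

end
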