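import Crest.Agent.R330.BC3.F

/-! # Row 330, BC3/R0: the kernel of the effective wave function -/

set_option autoImplicit false
set_option linter.unusedSectionVars false

noncomputable section

open MeasureTheory Filter Topology
open scoped InnerProductSpace ContDiff Matrix
open Crest.MathPhysics.MatrixQM (GammaNine)

namespace Crest.Agent.R330

variable {E Z L H F : Type}
  [NormedAddCommGroup E] [InnerProductSpace ℝ E] [FiniteDimensional ℝ E]
  [NormedAddCommGroup Z] [InnerProductSpace ℝ Z] [FiniteDimensional ℝ Z]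
  [NormedAddCommGroup L] [InnerProductSpace ℝ L] [FiniteDimensional ℝ L]
  [NormedAddCommGroup H] [InnerProductSpace ℝ H] [FiniteDimensional ℝ H]
  [NormedAddCommGroup F] [InnerProductSpace ℂ F] [FiniteDimensional ℂ F]
  [MeasurableSpace E] [BorelSpace E] [MeasurableSpace Z] [BorelSpace Z]
  [MeasurableSpace L] [BorelSpace L] [MeasurableSpace H] [BorelSpace H]
  {P : Type} [Fintype P] {𝔤 : Lie E} (D : Levi 𝔤 Z L H P) (C : Cl (Th E) F) (σ : Spn)

namespace Levi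

theorem c3_fst {A B W : Type} [NormedAddCommGroup A] [NormedSpace ℝ A] [NormedAddCommGroup B]
    [NormedSpace ℝ B] [NormedAddCommGroup W] [NormedSpace ℝ W] {g : A → W} {g' : A →L[ℝ] W} {a : A}
    (h : HasFDerivAt g g' a) (b : B) : HasFDerivAt (fun q : A × B => g q.1)
      (g'.comp (ContinuousLinearMap.fst ℝ A B)) (a, b) :=
  HasFDerivAt.comp (f := Prod.fst) (a, b) h hasFDerivAt_fst

theorem c3_norm_pr {z : X Z} (hz : z ∈ D.reg) (p : P) (y : X H) :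
    ‖lift 9 (D.pr p) y‖ ^ 2 =
      ‖lift 9 (D.pr p) (D.perp z y)‖ ^ 2 + ‖D.pr p (D.Phi z y)‖ ^ 2 / D.M p z ^ 2 := by
  classical
  rw [D.norm_sq_perp_lam hz, ← D.c3A_apply, D.c3A_pr, D.c3A_apply, D.c3_Phi_pr, D.norm_lam_sq hz,
    Finset.sum_eq_single p, D.pr_idem]
  · intro q _ hq; simp [D.pr_orth _ _ hq]
  · simp

theorem c3_hq_eq {z : X Z} (hz : z ∈ D.reg) (y : X H) : D.hq z y =
    ∑ p, 1 / 2 * (D.M p z * ‖lift 9 (D.pr p) y‖ ^ 2 - ‖D.pr p (D.Phi z y)‖ ^ 2 * (D.M p z)⁻¹) := by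
  rw [hq, Finset.mul_sum]
  refine Finset.sum_congr rfl fun p _ => ?_
  have := (hz p).ne'
  rw [D.c3_norm_pr hz p y]
  field_simp
  ring

theorem c3_hasFDerivAt_M {z : X Z} (hz : z ∈ D.reg) (p : P) :
    HasFDerivAt (D.M p) (fderiv ℝ (D.M p) z) z :=
  (((D.contDiffOn_M p).contDiffAt (D.isOpen_reg.mem_nhds hz)).differentiableAt (by simp)).hasFDerivAt

theorem c3_hasFDerivAt_Phi (z : X Z) (y : X H) : ∃ T : X Z × X H →L[ℝ] H,
    HasFDerivAt (fun q : X Z × X H => D.Phi q.1 q.2) T (z, y) ∧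
      ∀ v w, T (v, w) = D.Phi v y + D.Phi z w := by
  obtain ⟨B, hB⟩ := D.b0b_bil
  simp only [← hB]
  exact ⟨_, B.isBoundedBilinearMap.hasFDerivAt (z, y), fun v w => by simp [add_comm]⟩

theorem c3_fderiv_hq {z : X Z} (hz : z ∈ D.reg) (y : X H) (v : X Z) (w : X H) :
    fderiv ℝ (fun q : X Z × X H => D.hq q.1 q.2) (z, y) (v, w) =
      ∑ p, (1 / 2 * fderiv ℝ (D.M p) z v *
          (‖lift 9 (D.pr p) y‖ ^ 2 + ‖D.pr p (D.Phi z y)‖ ^ 2 / D.M p z ^ 2) +
        D.M p z * ⟪lift 9 (D.pr p) y, w⟫_ℝ -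
        ⟪D.pr p (D.Phi z y), D.Phi v y + D.Phi z w⟫_ℝ / D.M p z) := by
  obtain ⟨T, hT, hT'⟩ := D.c3_hasFDerivAt_Phi z y
  have hM : ∀ p, HasFDerivAt (fun q : X Z × X H => D.M p q.1)
      ((fderiv ℝ (D.M p) z).comp (ContinuousLinearMap.fst ℝ _ _)) (z, y) := fun p =>
    c3_fst (D.c3_hasFDerivAt_M hz p) y
  have h1 := HasFDerivAt.fun_sum (u := Finset.univ) fun p _ =>
    (((hM p).fun_mul ((LinearMap.toContinuousLinearMap (lift 9 (D.pr p))).hasFDerivAt.comp (z, y)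
      hasFDerivAt_snd).norm_sq).fun_sub
      (((LinearMap.toContinuousLinearMap (D.pr p)).hasFDerivAt.comp (z, y) hT).norm_sq.fun_mul
        ((hasDerivAt_inv (hz p).ne').comp_hasFDerivAt (z, y) (hM p)))).const_mul (1 / 2)
  have h2 : (fun q : X Z × X H => D.hq q.1 q.2) =ᶠ[𝓝 (z, y)] _ :=
    eventually_of_mem ((D.isOpen_reg.preimage continuous_fst).mem_nhds hz)
      fun q hq => D.c3_hq_eq hq q.2
  rw [(h1.congr_of_eventuallyEq h2).fderiv, sum_apply]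
  refine Finset.sum_congr rfl fun p _ => ?_
  simp [hT', inner_add_right, ← D.pr_sym, D.pr_idem, ← D.c3_inner_pr, D.c3_pr_pr]
  have := (hz p).ne'
  field_simp
  ring

/-- the scalar factor of the kernel -/
def c3s (q : X Z × X H) : ℝ := (D.nu q.1)⁻¹ * (D.wt q.1 q.2 * Real.exp (-D.hq q.1 q.2))

theorem c3s_contDiffOn : ContDiffOn ℝ ∞ D.c3s (D.reg ×ˢ Set.univ) :=
  ((D.contDiffOn_nu.inv fun _ hz => (D.nu_pos hz).ne').comp contDiffOn_fst fun _ hq => hq.1).mul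
    (D.contDiffOn_wt.mul D.contDiffOn_hq.neg.exp)

theorem c3s_fderiv {z : X Z} (hz : z ∈ D.reg) (y : X H) : ∃ T : X Z × X H →L[ℝ] ℝ,
    HasFDerivAt D.c3s T (z, y) ∧ ∀ v w, ⟪D.Phi z y, D.Phi v y + D.Phi z w⟫_ℝ = 0 →
      T (v, w) = D.c3s (z, y) * ((∑ p, 7 / 2 * D.m p * fderiv ℝ (D.M p) z v / D.M p z) -
        fderiv ℝ (fun q : X Z × X H => D.hq q.1 q.2) (z, y) (v, w)) := by
  obtain ⟨T, hT, hT'⟩ := D.c3_hasFDerivAt_Phi z y
  have hn := D.isOpen_reg.mem_nhds hz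
  have hν := (D.nu_pos hz).ne'
  have h1 := (hasDerivAt_inv hν).comp_hasFDerivAt (z, y)
    (c3_fst ((D.contDiffOn_nu.contDiffAt hn).differentiableAt (by simp)).hasFDerivAt y)
  have h2 := ((Real.smoothTransition.contDiff (n := 1)).differentiable (by simp)
    _).hasDerivAt.comp_hasFDerivAt (z, y) ((hT.norm_sq.const_mul 4).const_sub 2)
  have h3 : HasFDerivAt D.jac (fderiv ℝ D.jac z) z :=
    (((contDiffOn_prod fun p _ => (D.contDiffOn_M p).pow _).contDiffAt hn).differentiableAt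
      (by simp)).hasFDerivAt
  have h4 := ((D.contDiffOn_hq.contDiffAt ((D.isOpen_reg.prod isOpen_univ).mem_nhds
    (show (z, y) ∈ _ from ⟨hz, trivial⟩))).differentiableAt (by simp)).hasFDerivAt
  refine ⟨_, h1.fun_mul ((h2.fun_mul (c3_fst h3 y)).fun_mul h4.neg.exp),
    fun v w h => ?_⟩
  have e : ∑ p, 7 / 2 * D.m p * fderiv ℝ (D.M p) z v / D.M p z =
      ∑ p, 3 / 2 * D.m p * fderiv ℝ (D.M p) z v / D.M p z +
        ∑ p, 2 * D.m p * fderiv ℝ (D.M p) z v / D.M p z := by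
    rw [← Finset.sum_add_distrib]
    exact Finset.sum_congr rfl fun p _ => by ring
  rw [e]
  simp [hT', h, D.fderiv_nu hz, D.fderiv_jac hz, c3s, wt]
  field_simp
  ring

/-- the kernel of `red` -/
def c3K (G : GammaNine) (u : X E → F) (q : (X Z × X L) × X H) : F :=
  D.c3s (q.1.1, q.2) • D.Pi C G q.1.1 (u (D.asm q.1.1 q.1.2 q.2))

theorem c3_red_eq (G : GammaNine) (u : X E → F) (q : X Z × X L) :
    D.red C G u q = ∫ y, D.c3K C G u (q, y) := by
  simp only [red, c3K, c3s, Complex.coe_smul, mul_smul (D.nu _)⁻¹, integral_smul]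

variable {D C σ} {κ θ R : ℝ} {u : X E → F}

theorem Loc.c3empty {𝒱 : Wts} (hu : D.Loc C σ.G 𝒱 κ θ R u) : D.Loc C σ.G ∅ κ θ R u :=
  ⟨hu.1, fun x hx => ⟨(hu.2 x hx).1, (hu.2 x hx).2.1, fun _ h => h.elim⟩⟩

theorem c3K_core (hκ : 1 ≤ κ) (hθ : θ ≤ 1 / 2) (hR : 0 < R) (hu : D.Loc C σ.G ∅ κ θ R u) :
    Core (D.c3K C σ.G u) := by
  obtain ⟨e, he⟩ := D.exists_asm_equiv
  have hK : IsCompact (e ⁻¹' (tsupport u ∩ {x | ‖D.Phi (D.zc x) (D.yc x)‖ ^ 2 ≤ 1 / 2})) :=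
    e.toHomeomorph.isClosedEmbedding.isCompact_preimage (hu.1.2.isCompact.inter_right
      (isClosed_le (D.contDiff_PhiX.continuous.norm.pow 2) continuous_const))
  have h0 : ∀ q, q ∉ e ⁻¹' (tsupport u ∩ {x | ‖D.Phi (D.zc x) (D.yc x)‖ ^ 2 ≤ 1 / 2}) →
      D.c3K C σ.G u q = 0 := fun q hq => by
    by_cases h1 : e q ∈ tsupport u
    · have h2 : D.wt q.1.1 q.2 = 0 := D.wt_eq_zero (le_of_not_ge fun h3 => hq ⟨h1, by
        simpa [he] using h3⟩)
      simp [c3K, c3s, h2]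
    · simp [c3K, ← he, image_eq_zero_of_notMem_tsupport h1]
  refine ⟨contDiff_of_support hK.isClosed (U := {q | q.1.1 ∈ D.reg})
    (D.isOpen_reg.preimage (by fun_prop)) (fun q hq => ?_) h0 ?_, HasCompactSupport.intro hK h0⟩
  · have h1 : ‖D.Phi (D.zc (e q)) (D.yc (e q))‖ < 1 := by
      have := hq.2
      simp only [Set.mem_ofPred_eq] at this
      nlinarith [norm_nonneg (D.Phi (D.zc (e q)) (D.yc (e q)))]
    have h2 := hu.cpt hq.1 h1
    have := D.c3_reg hκ (norm_pos_iff.1 (h2.pos hθ hR)) h2.cone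
    rwa [he, zc_asm] at this
  · refine (D.c3s_contDiffOn.comp (by fun_prop) fun q hq => ⟨hq, trivial⟩).smul ?_
    simp only [← he]
    exact ((ContinuousLinearMap.restrictScalarsL ℂ F F ℝ ℝ).contDiff.comp_contDiffOn
      ((D.contDiffOn_Pi C σ.G).comp (f := fun q : (X Z × X L) × X H => q.1.1) (by fun_prop)
        fun q hq => hq)).clm_apply
      (hu.1.1.comp e.contDiff).contDiffOn

theorem c3K_fderiv (hu : Core u) {z : X Z} (hz : z ∈ D.reg) (l : X L) (y : X H) (v : X Z) (l' : X L)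
    (w : X H) (h : ⟪D.Phi z y, D.Phi v y + D.Phi z w⟫_ℝ = 0) :
    fderiv ℝ (D.c3K C σ.G u) ((z, l), y) ((v, l'), w) = D.c3s (z, y) •
      (D.Pi C σ.G z (fderiv ℝ u (D.asm z l y) (D.asm v l' w)) +
        ((∑ p, 7 / 2 * D.m p * fderiv ℝ (D.M p) z v / D.M p z) -
          fderiv ℝ (fun q : X Z × X H => D.hq q.1 q.2) (z, y) (v, w)) •
            D.Pi C σ.G z (u (D.asm z l y)) +
        fderiv ℝ (D.Pi C σ.G) z v (u (D.asm z l y))) := by
  obtain ⟨e, he⟩ := D.exists_asm_equiv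
  obtain ⟨T, hT, hT'⟩ := D.c3s_fderiv hz y
  have h1 : HasFDerivAt (fun q : (X Z × X L) × X H => q.1.1) _ ((z, l), y) :=
    c3_fst (c3_fst (hasFDerivAt_id z) l) y
  have h2 := c3_fst (c3_fst (((D.contDiffOn_Pi C σ.G).contDiffAt
    (D.isOpen_reg.mem_nhds hz)).differentiableAt (by simp)).hasFDerivAt l) y
  have h3 := (hu.1.differentiable (by simp) _).hasFDerivAt.comp ((z, l), y) e.hasFDerivAt
  have h4 := (HasFDerivAt.comp (f := fun q : (X Z × X L) × X H => (q.1.1, q.2)) ((z, l), y) hT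
    (h1.prodMk hasFDerivAt_snd)).fun_smul
    (((ContinuousLinearMap.restrictScalarsL ℂ F F ℝ ℝ).hasFDerivAt.comp _ h2).clm_apply h3)
  have e1 : D.c3K C σ.G u = fun q => D.c3s (q.1.1, q.2) • D.Pi C σ.G q.1.1 (u (e q)) := by
    funext q; rw [he]; rfl
  rw [e1]
  refine (congrArg (fun A : (X Z × X L) × X H →L[ℝ] F => A ((v, l'), w)) h4.fderiv).trans ?_
  simp [he, hT' v w h, mul_smul]
  abel

theorem c3_fibre_field {Q Y W : Type} [NormedAddCommGroup Q] [NormedSpace ℝ Q] [FiniteDimensional ℝ Q]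
    [NormedAddCommGroup Y] [InnerProductSpace ℝ Y] [FiniteDimensional ℝ Y] [MeasurableSpace Y]
    [BorelSpace Y] [NormedAddCommGroup W] [NormedSpace ℝ W] [FiniteDimensional ℝ W]
    {K : Q × Y → W} (hK : Core K) (q v : Q) (B : Y →ₗ[ℝ] Y) :
    fderiv ℝ (fun q => ∫ y, K (q, y)) q v =
      ∫ y, (fderiv ℝ K (q, y) (v, B y) + LinearMap.trace ℝ _ B • K (q, y)) := by
  have := FiniteDimensional.complete ℝ W
  have hq : IsClosedEmbedding fun y : Y => (q, y) :=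
    (Isometry.of_dist_eq fun a b => by simp).isClosedEmbedding
  have cB := B.continuous_of_finiteDimensional
  have cD := hK.1.continuous_fderiv (by simp)
  have hc : HasCompactSupport fun y => K (q, y) := hK.2.comp_isClosedEmbedding hq
  have hc' : HasCompactSupport fun y => fderiv ℝ K (q, y) :=
    (hK.2.fderiv ℝ).comp_isClosedEmbedding hq
  have hi : ∀ f : Y → Q × Y, Continuous f → Integrable fun y => fderiv ℝ K (q, y) (f y) :=
    fun f hf => Continuous.integrable_of_hasCompactSupport (by fun_prop)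
      (HasCompactSupport.intro hc' fun y hy => by simp [image_eq_zero_of_notMem_tsupport hy])
  have h1 : ContDiff ℝ 1 fun y => K (q, y) := (hK.1.of_le (by simp)).comp (by fun_prop)
  have h2 := integral_fderiv_field h1 hc (V := LinearMap.toContinuousLinearMap B) isOpen_univ
    (Set.subset_univ _) (by fun_prop)
  have h3 : ∀ y w, fderiv ℝ (fun y => K (q, y)) y w = fderiv ℝ K (q, y) (0, w) := fun y w => by
    rw [show (fun y => K (q, y)) = K ∘ fun y => (q, y) from rfl,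
      ((hK.1.differentiable (by simp) (q, y)).hasFDerivAt.comp y
        (hasFDerivAt_prodMk_right q y)).fderiv]
    simp
  simp only [h3, ContinuousLinearMap.fderiv, integral_smul, LinearMap.coe_toContinuousLinearMap] at h2
  simp only [LinearMap.coe_toContinuousLinearMap'] at h2
  have h4 : ∀ y, fderiv ℝ K (q, y) (v, B y) = fderiv ℝ K (q, y) (v, 0) + fderiv ℝ K (q, y) (0, B y) :=
    fun y => by rw [← map_add]; simp
  rw [integral_add (hi _ (by fun_prop))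
    ((h1.continuous.integrable_of_hasCompactSupport hc).fun_smul _), integral_smul]
  simp only [h4]
  rw [integral_add (hi _ (by fun_prop)) (hi _ (by fun_prop)), ← (contDiff_fibre hK).2, h2]
  simp

theorem c3_red_fderiv (hκ : 1 ≤ κ) (hθ : θ ≤ 1 / 2) (hR : 0 < R) (hu : D.Loc C σ.G ∅ κ θ R u)
    (q v : X Z × X L) (B : X H →ₗ[ℝ] X H) :
    fderiv ℝ (D.red C σ.G u) q v = ∫ y, (fderiv ℝ (D.c3K C σ.G u) (q, y) (v, B y) +
      LinearMap.trace ℝ _ B • D.c3K C σ.G u (q, y)) := by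
  rw [funext (D.c3_red_eq C σ.G u)]
  exact c3_fibre_field (c3K_core hκ hθ hR hu) q v B

theorem c3_red_core (hκ : 1 ≤ κ) (hθ : θ ≤ 1 / 2) (hR : 0 < R) (hu : D.Loc C σ.G ∅ κ θ R u) :
    Core (D.red C σ.G u) := by
  rw [funext (D.c3_red_eq C σ.G u)]
  exact (contDiff_fibre (c3K_core hκ hθ hR hu)).1

theorem c3K_integrable (hκ : 1 ≤ κ) (hθ : θ ≤ 1 / 2) (hR : 0 < R) (hu : D.Loc C σ.G ∅ κ θ R u)
    (q : X Z × X L) : Integrable fun y => D.c3K C σ.G u (q, y) :=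
  have hK := c3K_core hκ hθ hR hu
  (hK.1.continuous.comp (Continuous.prodMk_right q)).integrable_of_hasCompactSupport
    (hK.2.comp_isClosedEmbedding (Isometry.of_dist_eq fun a b => by simp).isClosedEmbedding)

theorem c3_red_supp (hθ0 : 0 < θ) (hθ : θ ≤ 1 / 2) (hu : D.Loc C σ.G ∅ κ θ R u) :
    ∀ q ∈ tsupport (D.red C σ.G u),
      R / 2 ≤ ‖q.1‖ ∧ (∀ p, ‖q.1‖ ≤ κ * D.M p q.1) ∧ ‖q.2‖ ≤ 2 * θ * ‖q.1‖ := by
  have hM := D.continuous_M
  refine closure_minimal (fun q hq => ?_) ((isClosed_le continuous_const continuous_fst.norm).inter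
    (IsClosed.inter ?_ (isClosed_le continuous_snd.norm (continuous_const.mul continuous_fst.norm))))
  · by_contra h
    refine hq ?_
    rw [c3_red_eq]
    refine integral_eq_zero_of_ae (Eventually.of_forall fun y => ?_)
    by_contra h1
    have h2 : D.wt q.1 y ≠ 0 := fun e => h1 (by simp [c3K, c3s, e])
    have h3 : D.asm q.1 q.2 y ∈ tsupport u :=
      subset_tsupport _ fun e => h1 (by simp [c3K, e])
    have hp := hu.cpt h3 (by rw [zc_asm, yc_asm]; exact D.c3_Phi_lt h2)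
    have a1 := hp.half hθ
    have a2 := hp.cone
    have a3 := hp.tube.2
    rw [zc_asm] at a1 a2
    rw [lc_asm, yc_asm] at a3
    exact h ⟨by linarith [hp.far], a2, by nlinarith [norm_nonneg y]⟩
  · show IsClosed {q : X Z × X L | ∀ p, ‖q.1‖ ≤ κ * D.M p q.1}
    rw [Set.setOf_forall]
    exact isClosed_iInter fun p => isClosed_le (by fun_prop) (by fun_prop)

theorem c3_red_reg (hκ : 1 ≤ κ) (hθ0 : 0 < θ) (hθ : θ ≤ 1 / 2) (hR : 0 < R)
    (hu : D.Loc C σ.G ∅ κ θ R u) {q : X Z × X L} (hq : q ∈ tsupport (D.red C σ.G u)) :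
    q.1 ≠ 0 ∧ q.1 ∈ D.reg := by
  obtain ⟨h1, h2, -⟩ := c3_red_supp hθ0 hθ hu q hq
  have : q.1 ≠ 0 := norm_pos_iff.1 (by linarith)
  exact ⟨this, D.c3_reg hκ this h2⟩

theorem c3_Pi_red (hκ : 1 ≤ κ) (hθ0 : 0 < θ) (hθ : θ ≤ 1 / 2) (hR : 0 < R)
    (hu : D.Loc C σ.G ∅ κ θ R u) (q : X Z × X L) :
    D.Pi C σ.G q.1 (D.red C σ.G u q) = D.red C σ.G u q := by
  by_cases hq : q ∈ tsupport (D.red C σ.G u)
  · have hz := (c3_red_reg hκ hθ0 hθ hR hu hq).2
    rw [c3_red_eq, ← ContinuousLinearMap.integral_comp_comm _ (c3K_integrable hκ hθ hR hu q)]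
    congr 1
    ext y
    rw [c3K, ContinuousLinearMap.map_smul_of_tower]
    congr 1
    exact DFunLike.congr_fun ((D.CH C).vac_idem (D.isCx_J σ.G hz)) _
  · simp [image_eq_zero_of_notMem_tsupport hq]

theorem c3_red_sym (hκ : 1 ≤ κ) (hθ0 : 0 < θ) (hθ : θ ≤ 1 / 2) (hR : 0 < R)
    (hu : D.Loc C σ.G ∅ κ θ R u) (z : X Z) (l : X L) (v : X Z) (l' : X L) {B : X H →ₗ[ℝ] X H}
    (hB : IsSkew B) (T : F →L[ℂ] F) (h2 : z ∈ D.reg → ∀ p, fderiv ℝ (D.M p) z v = 0)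
    (h3 : ∀ p y, B (lift 9 (D.pr p) y) = lift 9 (D.pr p) (B y))
    (h4 : ∀ p y, ⟪D.pr p (D.Phi z y), D.Phi v y + D.Phi z (B y)⟫_ℝ = 0)
    (h5 : z ∈ D.reg → ∀ y, ‖D.Phi z y‖ < 1 →
      D.Pi C σ.G z (fderiv ℝ u (D.asm z l y) (D.asm v l' (B y))) +
        fderiv ℝ (D.Pi C σ.G) z v (u (D.asm z l y)) = T (D.Pi C σ.G z (u (D.asm z l y)))) :
    fderiv ℝ (D.red C σ.G u) (z, l) (v, l') = T (D.red C σ.G u (z, l)) := by
  by_cases hq : (z, l) ∈ tsupport (D.red C σ.G u)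
  swap
  · simp [image_eq_zero_of_notMem_tsupport hq, fderiv_of_notMem_tsupport ℝ hq]
  have hz : z ∈ D.reg := (c3_red_reg hκ hθ0 hθ hR hu hq).2
  rw [c3_red_fderiv hκ hθ hR hu _ _ B, c3_red_eq,
    ← ContinuousLinearMap.integral_comp_comm _ (c3K_integrable hκ hθ hR hu _)]
  congr 1
  ext y
  have e1 : ⟪D.Phi z y, D.Phi v y + D.Phi z (B y)⟫_ℝ = 0 := by
    conv_lhs => rw [← D.pr_sum (D.Phi z y), sum_inner]
    exact Finset.sum_eq_zero fun p _ => h4 p y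
  have e2 : ∀ p, ⟪lift 9 (D.pr p) y, B y⟫_ℝ = 0 := fun p => by
    rw [← D.c3_pr_pr, D.c3_inner_pr, ← h3, real_inner_comm]
    exact Cl.a1c_skew_self hB _
  rw [c3K_fderiv hu.1 hz l y v l' _ e1, b0a_trace_skew hB, D.c3_fderiv_hq hz, c3K,
    ContinuousLinearMap.map_smul_of_tower]
  simp only [h2 hz, e2, h4, mul_zero, zero_mul, zero_div, add_zero, sub_zero, zero_smul,
    Finset.sum_const_zero]
  by_cases h : D.wt z y = 0
  · simp [c3s, h]
  · rw [h5 hz y (D.c3_Phi_lt h)]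

end Levi

end Crest.Agent.R330

end
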