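import Crest.Agent.R330.IG

/-! # Row 330, BC3/A: an abstract degenerate oscillator; the ground state identity. -/

set_option autoImplicit false
set_option linter.unusedSectionVars false

noncomputable section

open MeasureTheory Filter Topology
open scoped InnerProductSpace ContDiff Matrix

namespace Crest.Agent.R330

/-- Data of a fibre: projection `Pr` onto the transverse space, mass operator `S`, gauge
condition `Φ`, constant factor `j`. -/
structure COsc (Y W : Type) [NormedAddCommGroup Y] [InnerProductSpace ℝ Y]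
    [NormedAddCommGroup W] [InnerProductSpace ℝ W] where
  Pr : Y →L[ℝ] Y
  S : Y →L[ℝ] Y
  Φ : Y →L[ℝ] W
  j : ℝ
  j_pos : 0 < j
  Pr_sym : ∀ u v, ⟪Pr u, v⟫_ℝ = ⟪u, Pr v⟫_ℝ
  S_sym : ∀ u v, ⟪S u, v⟫_ℝ = ⟪u, S v⟫_ℝ
  S_Pr : ∀ v, S (Pr v) = S v
  Φ_Pr : ∀ v, Φ (Pr v) = 0
  S_nonneg : ∀ v, 0 ≤ ⟪S v, v⟫_ℝ

variable {Y W F : Type} [NormedAddCommGroup Y] [InnerProductSpace ℝ Y] [FiniteDimensional ℝ Y]
  [MeasurableSpace Y] [BorelSpace Y] [NormedAddCommGroup W] [InnerProductSpace ℝ W]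
  [NormedAddCommGroup F] [InnerProductSpace ℂ F] [FiniteDimensional ℂ F]

namespace COsc

variable (O : COsc Y W)

/-- the weight -/
def w (y : Y) : ℝ := Real.smoothTransition (2 - 4 * ‖O.Φ y‖ ^ 2) * O.j
/-- the exponent -/
def h (y : Y) : ℝ := 1 / 2 * ⟪O.S y, y⟫_ℝ
/-- transverse gradient -/
def gp (U : Y → F) (y : Y) : ℝ := ∑ i, ‖fderiv ℝ U y (O.Pr (stdOrthonormalBasis ℝ Y i))‖ ^ 2
/-- gradient after the ground state transform -/
def gd (U : Y → F) (y : Y) : ℝ := ∑ i, ‖fderiv ℝ U y (O.Pr (stdOrthonormalBasis ℝ Y i)) +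
  ⟪O.S y, stdOrthonormalBasis ℝ Y i⟫_ℝ • U y‖ ^ 2
/-- trace of the mass operator -/
def tr : ℝ := LinearMap.trace ℝ Y O.S.toLinearMap

theorem Pr_S (v : Y) : O.Pr (O.S v) = O.S v :=
  ext_inner_right ℝ fun u => by rw [O.Pr_sym, O.S_sym, O.S_Pr, O.S_sym]

theorem contDiff_w : ContDiff ℝ 1 O.w := by
  unfold w
  exact ((Real.smoothTransition.contDiff (n := 1)).comp (contDiff_const.sub
    (contDiff_const.mul (O.Φ.contDiff.norm_sq ℝ)))).mul contDiff_const

theorem continuous_w : Continuous O.w := O.contDiff_w.continuous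

theorem w_nonneg (y : Y) : 0 ≤ O.w y := mul_nonneg (Real.smoothTransition.nonneg _) O.j_pos.le

theorem w_le (y : Y) : O.w y ≤ O.j :=
  mul_le_of_le_one_left O.j_pos.le (Real.smoothTransition.le_one _)

theorem w_eq {y : Y} (hy : ‖O.Φ y‖ ≤ 1 / 2) : O.w y = O.j := by
  rw [w, Real.smoothTransition.one_of_one_le, one_mul]
  nlinarith [norm_nonneg (O.Φ y)]

theorem w_zero {y : Y} (hy : 1 ≤ ‖O.Φ y‖) : O.w y = 0 := by
  rw [w, Real.smoothTransition.zero_of_nonpos, zero_mul]
  nlinarith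

theorem w_mono {x y : Y} (hxy : ‖O.Φ x‖ ≤ ‖O.Φ y‖) : O.w y ≤ O.w x := by
  refine mul_le_mul_of_nonneg_right (Real.smoothTransition.monotone ?_) O.j_pos.le
  nlinarith [norm_nonneg (O.Φ x)]

theorem w_qc (x y : Y) {s : ℝ} (hs : s ∈ Set.Icc (0 : ℝ) 1) :
    min (O.w x) (O.w y) ≤ O.w (s • x + (1 - s) • y) := by
  have h1 : ‖O.Φ (s • x + (1 - s) • y)‖ ≤ s * ‖O.Φ x‖ + (1 - s) * ‖O.Φ y‖ := by
    rw [map_add, map_smul, map_smul]
    refine (norm_add_le _ _).trans (le_of_eq ?_)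
    rw [norm_smul, norm_smul, Real.norm_of_nonneg hs.1, Real.norm_of_nonneg (by linarith [hs.2])]
  rcases le_total ‖O.Φ x‖ ‖O.Φ y‖ with h | h
  · exact (min_le_right _ _).trans (O.w_mono (by nlinarith [hs.1, hs.2]))
  · exact (min_le_left _ _).trans (O.w_mono (by nlinarith [hs.1, hs.2]))

theorem fderiv_w_Pr (y v : Y) : fderiv ℝ O.w y (O.Pr v) = 0 := by
  have hd : DifferentiableAt ℝ O.w y := (O.contDiff_w.differentiable one_ne_zero) y
  have h1 : HasDerivAt (fun t : ℝ => O.w (y + t • O.Pr v)) (fderiv ℝ O.w y (O.Pr v)) 0 := by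
    have := hd.hasFDerivAt.hasLineDerivAt (O.Pr v)
    exact this
  have h2 : (fun t : ℝ => O.w (y + t • O.Pr v)) = fun _ => O.w y := by
    funext t; simp [w, O.Φ_Pr]
  rw [h2] at h1
  exact h1.unique (hasDerivAt_const _ _)

theorem h_nonneg (y : Y) : 0 ≤ O.h y := mul_nonneg (by norm_num) (O.S_nonneg y)

theorem contDiff_h : ContDiff ℝ 1 O.h :=
  contDiff_const.mul (O.S.contDiff.inner ℝ contDiff_id)

theorem continuous_h : Continuous O.h := O.contDiff_h.continuous

theorem hasFDerivAt_h (y : Y) : HasFDerivAt O.h (innerSL ℝ (O.S y)) y := by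
  have := ((O.S.hasFDerivAt (x := y)).inner ℝ (hasFDerivAt_id y)).const_mul (1 / 2 : ℝ)
  refine this.congr_fderiv ?_
  ext v
  simp only [smul_apply, ContinuousLinearMap.comp_apply,
    ContinuousLinearMap.prod_apply, fderivInnerCLM_apply, id, ContinuousLinearMap.id_apply,
    smul_eq_mul, innerSL_apply_apply]
  rw [O.S_sym v y, real_inner_comm (O.S y) v]; ring

theorem h_smul (r : ℝ) (y : Y) : O.h (r • y) = r ^ 2 * O.h y := by
  simp only [h, map_smul, inner_smul_left, inner_smul_right, RCLike.conj_to_real]; ring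

theorem h_convex (x y : Y) {a b : ℝ} (ha : 0 ≤ a) (hb : 0 ≤ b) (hab : a + b = 1) :
    O.h (a • x + b • y) ≤ a * O.h x + b * O.h y := by
  have h0 := O.S_nonneg (x - y)
  obtain rfl : b = 1 - a := by linarith
  simp only [h, map_add, map_smul, map_sub, inner_add_left, inner_add_right, inner_smul_left,
    inner_smul_right, inner_sub_left, inner_sub_right, RCLike.conj_to_real] at h0 ⊢
  nlinarith [mul_nonneg ha hb]

end COsc

theorem bc3_fderiv_norm_sq {U : Y → F} {y : Y} (hU : DifferentiableAt ℝ U y) (v : Y) :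
    fderiv ℝ (fun y => ‖U y‖ ^ 2) y v = 2 * (⟪U y, fderiv ℝ U y v⟫_ℂ).re := by
  have h1 := (Complex.reCLM.hasFDerivAt.comp y (hU.hasFDerivAt.inner ℂ hU.hasFDerivAt))
  have h2 : (fun y => ‖U y‖ ^ 2) = Complex.reCLM ∘ fun y => ⟪U y, U y⟫_ℂ := by
    funext y
    simp only [Function.comp, Complex.reCLM_apply]
    exact (inner_self_eq_norm_sq (𝕜 := ℂ) (U y)).symm
  rw [h2, h1.fderiv]
  simp only [ContinuousLinearMap.comp_apply, ContinuousLinearMap.prod_apply, fderivInnerCLM_apply,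
    Complex.reCLM_apply, Complex.add_re]
  have := inner_re_symm (𝕜 := ℂ) (U y) (fderiv ℝ U y v)
  simp only [RCLike.re_to_complex] at this
  rw [← this]; ring

theorem bc3_norm_add_smul_sq (a u : F) (r : ℝ) :
    ‖a + r • u‖ ^ 2 = ‖a‖ ^ 2 + 2 * r * (⟪u, a⟫_ℂ).re + r ^ 2 * ‖u‖ ^ 2 := by
  rw [norm_add_sq (𝕜 := ℂ), norm_smul, mul_pow, Real.norm_eq_abs, sq_abs,
    RCLike.real_smul_eq_coe_smul (K := ℂ), inner_smul_right]
  have := inner_re_symm (𝕜 := ℂ) a u
  simp only [RCLike.re_to_complex] at this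
  simp [this]; ring

theorem bc3_continuous_fderiv_apply {U : Y → F} (hU : ContDiff ℝ 1 U) (v : Y) :
    Continuous fun y => fderiv ℝ U y v :=
  (hU.continuous_fderiv one_ne_zero).clm_apply continuous_const

theorem bc3_continuous_gsq {U : Y → F} (hU : ContDiff ℝ 1 U) : Continuous (gsq U) :=
  continuous_finsetSum _ fun _ _ => (bc3_continuous_fderiv_apply hU _).norm.pow 2

theorem bc3_gsq_nonneg (U : Y → F) (y : Y) : 0 ≤ gsq U y :=
  Finset.sum_nonneg fun _ _ => sq_nonneg _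

theorem bc3_gsq_eq_zero {U : Y → F} {y : Y} (hy : y ∉ tsupport U) : gsq U y = 0 := by
  simp [gsq, fderiv_of_notMem_tsupport ℝ hy]

/-- continuous functions vanishing off the support of `U` are integrable -/
theorem bc3_integrable {G : Type} [NormedAddCommGroup G] {U : Y → F} (hc : HasCompactSupport U)
    {f : Y → G} (hf : Continuous f) (h0 : ∀ y, y ∉ tsupport U → f y = 0) : Integrable f :=
  hf.integrable_of_hasCompactSupport (HasCompactSupport.intro hc h0)

namespace COsc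

variable (O : COsc Y W)

theorem gd_eq (U : Y → F) (y : Y) : O.gd U y = O.gp U y +
    2 * (⟪U y, fderiv ℝ U y (O.S y)⟫_ℂ).re + ‖O.S y‖ ^ 2 * ‖U y‖ ^ 2 := by
  set b := stdOrthonormalBasis ℝ Y
  have h1 : fderiv ℝ U y (O.S y) = ∑ i, ⟪O.S y, b i⟫_ℝ • fderiv ℝ U y (O.Pr (b i)) := by
    conv_lhs => rw [← O.Pr_S y, ← b.sum_repr' (O.S y)]
    simp only [map_sum, map_smul, real_inner_comm]
  have h2 : ‖O.S y‖ ^ 2 = ∑ i, ⟪O.S y, b i⟫_ℝ ^ 2 := by
    rw [← b.sum_sq_inner_left]
  rw [h1, h2, inner_sum, Complex.re_sum]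
  simp only [gd, gp, bc3_norm_add_smul_sq, Finset.sum_add_distrib, Finset.mul_sum, Finset.sum_mul]
  congr 2
  refine Finset.sum_congr rfl fun i _ => ?_
  rw [RCLike.real_smul_eq_coe_smul (K := ℂ), inner_smul_right]
  simp; ring

theorem continuous_gp {U : Y → F} (hU : ContDiff ℝ 1 U) : Continuous (O.gp U) :=
  continuous_finsetSum _ fun _ _ => (bc3_continuous_fderiv_apply hU _).norm.pow 2

theorem continuous_gd {U : Y → F} (hU : ContDiff ℝ 1 U) : Continuous (O.gd U) :=
  continuous_finsetSum _ fun i _ => ((bc3_continuous_fderiv_apply hU _).add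
    ((O.S.continuous.inner (𝕜 := ℝ) (continuous_const (y := stdOrthonormalBasis ℝ Y i))).smul
      hU.continuous)).norm.pow 2

theorem gp_eq_zero {U : Y → F} {y : Y} (hy : y ∉ tsupport U) : O.gp U y = 0 := by
  simp [gp, fderiv_of_notMem_tsupport ℝ hy]

theorem gd_eq_zero {U : Y → F} {y : Y} (hy : y ∉ tsupport U) : O.gd U y = 0 := by
  simp [gd, fderiv_of_notMem_tsupport ℝ hy, image_eq_zero_of_notMem_tsupport hy]

theorem gd_nonneg (U : Y → F) (y : Y) : 0 ≤ O.gd U y := Finset.sum_nonneg fun _ _ => sq_nonneg _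

theorem integrable_gd {U : Y → F} (hU : ContDiff ℝ 1 U) (hc : HasCompactSupport U) :
    Integrable fun y => O.w y * O.gd U y :=
  bc3_integrable hc (O.continuous_w.mul (O.continuous_gd hU)) fun y hy => by
    rw [O.gd_eq_zero hy, mul_zero]

theorem integrable_gp {U : Y → F} (hU : ContDiff ℝ 1 U) (hc : HasCompactSupport U) :
    Integrable fun y => O.w y * O.gp U y :=
  bc3_integrable hc (O.continuous_w.mul (O.continuous_gp hU)) fun y hy => by
    rw [O.gp_eq_zero hy, mul_zero]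

theorem integrable_gsq {U : Y → F} (hU : ContDiff ℝ 1 U) (hc : HasCompactSupport U) :
    Integrable fun y => O.w y * gsq U y :=
  bc3_integrable hc (O.continuous_w.mul (bc3_continuous_gsq hU)) fun y hy => by
    rw [bc3_gsq_eq_zero hy, mul_zero]

theorem integrable_mul {U : Y → F} (hU : ContDiff ℝ 1 U) (hc : HasCompactSupport U) {f : Y → ℝ}
    (hf : Continuous f) : Integrable fun y => O.w y * (f y * ‖U y‖ ^ 2) :=
  bc3_integrable hc (O.continuous_w.mul (hf.mul (hU.continuous.norm.pow 2))) fun y hy => by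
    simp [image_eq_zero_of_notMem_tsupport hy]

theorem integrable_sq {U : Y → F} (hU : ContDiff ℝ 1 U) (hc : HasCompactSupport U) :
    Integrable fun y => O.w y * ‖U y‖ ^ 2 := by
  simpa using O.integrable_mul hU hc (f := fun _ => 1) continuous_const

/-- the ground state identity -/
theorem ground {U : Y → F} (hU : ContDiff ℝ 1 U) (hc : HasCompactSupport U) :
    ∫ y, O.w y * O.gd U y = (∫ y, O.w y * O.gp U y) + (∫ y, O.w y * (‖O.S y‖ ^ 2 * ‖U y‖ ^ 2)) -
      O.tr * ∫ y, O.w y * ‖U y‖ ^ 2 := by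
  have hd := hU.differentiable one_ne_zero
  have hn : ContDiff ℝ 1 fun y => ‖U y‖ ^ 2 := hU.norm_sq ℂ
  have hf : ContDiff ℝ 1 fun y => O.w y * ‖U y‖ ^ 2 := O.contDiff_w.mul hn
  have hfc : HasCompactSupport fun y => O.w y * ‖U y‖ ^ 2 :=
    HasCompactSupport.intro hc fun y hy => by simp [image_eq_zero_of_notMem_tsupport hy]
  have key := integral_fderiv_field hf hfc (V := fun y => O.S y) isOpen_univ (Set.subset_univ _)
    O.S.contDiff.contDiffOn
  have e1 : ∀ y, fderiv ℝ (fun y => O.w y * ‖U y‖ ^ 2) y (O.S y) =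
      O.w y * (2 * (⟪U y, fderiv ℝ U y (O.S y)⟫_ℂ).re) := by
    intro y
    rw [fderiv_fun_mul ((O.contDiff_w.differentiable one_ne_zero) y)
      ((hn.differentiable one_ne_zero) y)]
    simp only [add_apply, smul_apply, smul_eq_mul]
    rw [bc3_fderiv_norm_sq (hd y)]
    have := O.fderiv_w_Pr y (O.S y)
    rw [O.Pr_S] at this
    rw [this]; ring
  have e2 : ∀ y, fderiv ℝ (fun y => O.S y) y = O.S := fun y => O.S.fderiv
  simp only [e1, e2, smul_eq_mul] at key
  rw [integral_const_mul] at key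
  have i1 := O.integrable_gp hU hc
  have i2 := O.integrable_mul hU hc (f := fun y => ‖O.S y‖ ^ 2) (O.S.continuous.norm.pow 2)
  have i3 : Integrable fun y => O.w y * (2 * (⟪U y, fderiv ℝ U y (O.S y)⟫_ℂ).re) := by
    refine bc3_integrable hc (O.continuous_w.mul (continuous_const.mul
      (Complex.continuous_re.comp (hU.continuous.inner
        ((hU.continuous_fderiv one_ne_zero).clm_apply O.S.continuous))))) fun y hy => ?_
    simp [image_eq_zero_of_notMem_tsupport hy]
  simp only [O.gd_eq, mul_add]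
  rw [integral_add (i1.fun_add i3) i2, integral_add i1 i3, key, tr]; ring

end COsc

end Crest.Agent.R330

end
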