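import Crest.Agent.R330.BC3.A

/-! # Row 330, BC3/B: Poincaré inequality and variance bound for the abstract oscillator. -/

set_option autoImplicit false
set_option linter.unusedSectionVars false

noncomputable section

open MeasureTheory Filter Topology
open scoped InnerProductSpace ContDiff Matrix Pointwise

namespace Crest.Agent.R330

variable {Y W F : Type} [NormedAddCommGroup Y] [InnerProductSpace ℝ Y] [FiniteDimensional ℝ Y]
  [MeasurableSpace Y] [BorelSpace Y] [NormedAddCommGroup W] [InnerProductSpace ℝ W]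
  [NormedAddCommGroup F] [InnerProductSpace ℂ F] [FiniteDimensional ℂ F]

namespace COsc

variable (O : COsc Y W)

/-- scale conditions -/
structure Sc (κ ρ : ℝ) : Prop where
  κ_pos : 0 < κ
  ρ_pos : 0 < ρ
  idem : ∀ v, O.Pr (O.Pr v) = O.Pr v
  h1 : ∀ y, ρ * ‖O.Pr y‖ ^ 2 ≤ κ * ⟪O.S y, y⟫_ℝ
  h2 : ∀ y, ρ * ⟪O.S y, y⟫_ℝ ≤ κ * ‖O.S y‖ ^ 2
  h3 : ∀ y, ρ * ‖y - O.Pr y‖ ≤ κ * ‖O.Φ y‖

/-- the convex core -/
def K (H₀ : ℝ) : Set Y := {y | O.h y ≤ H₀ ∧ ‖O.Φ y‖ ≤ 1}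

theorem convex_K (H₀ : ℝ) : Convex ℝ (O.K H₀) := by
  intro x hx y hy a b ha hb hab
  refine ⟨(O.h_convex x y ha hb hab).trans ?_, ?_⟩
  · calc a * O.h x + b * O.h y ≤ a * H₀ + b * H₀ := by gcongr; exacts [hx.1, hy.1]
      _ = H₀ := by rw [← add_mul, hab, one_mul]
  · rw [map_add, map_smul, map_smul]
    refine (norm_add_le _ _).trans ?_
    rw [norm_smul, norm_smul, Real.norm_of_nonneg ha, Real.norm_of_nonneg hb]
    nlinarith [hx.2, hy.2]

theorem isClosed_K (H₀ : ℝ) : IsClosed (O.K H₀) :=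
  (isClosed_le O.continuous_h continuous_const).inter
    (isClosed_le O.Φ.continuous.norm continuous_const)

variable {O} {κ ρ : ℝ}

theorem Sc.gauge (hS : O.Sc κ ρ) {H₀ : ℝ} (_hH : 0 ≤ H₀) {y : Y} (hy : y ∈ O.K H₀) :
    ‖√ρ • O.Pr y + ρ • (y - O.Pr y)‖ ≤ √(2 * κ * H₀) + κ := by
  refine (norm_add_le _ _).trans (add_le_add ?_ ?_)
  · apply Real.le_sqrt_of_sq_le
    rw [norm_smul, mul_pow, Real.norm_eq_abs, sq_abs, Real.sq_sqrt hS.ρ_pos.le]
    have := hS.h1 y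
    have h2 := hy.1
    rw [h] at h2
    nlinarith [hS.κ_pos]
  · rw [norm_smul, Real.norm_of_nonneg hS.ρ_pos.le]
    nlinarith [hS.h3 y, hy.2, hS.κ_pos]

theorem Sc.exists_equiv (hS : O.Sc κ ρ) : ∃ A : Y ≃L[ℝ] Y,
    (∀ y, A y = √ρ • O.Pr y + ρ • (y - O.Pr y)) ∧
    ∀ y, A.symm y = (√ρ)⁻¹ • O.Pr y + ρ⁻¹ • (y - O.Pr y) := by
  have h1 : √ρ ≠ 0 := (Real.sqrt_pos.2 hS.ρ_pos).ne'
  have h2 : ρ ≠ 0 := hS.ρ_pos.ne'
  refine ⟨ContinuousLinearEquiv.equivOfInverse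
    (√ρ • O.Pr + ρ • (ContinuousLinearMap.id ℝ Y - O.Pr))
    ((√ρ)⁻¹ • O.Pr + ρ⁻¹ • (ContinuousLinearMap.id ℝ Y - O.Pr)) (fun y => ?_) (fun y => ?_),
    fun y => rfl, fun y => rfl⟩
  · simp [hS.idem, smul_smul, h1, h2]
  · simp [hS.idem, smul_smul, h1, h2]

theorem Sc.isCompact_K (hS : O.Sc κ ρ) {H₀ : ℝ} (hH : 0 ≤ H₀) : IsCompact (O.K H₀) := by
  obtain ⟨A, hA, -⟩ := hS.exists_equiv
  refine (A.toHomeomorph.isCompact_preimage.2
    (isCompact_closedBall (0 : Y) (√(2 * κ * H₀) + κ))).of_isClosed_subset (O.isClosed_K H₀) ?_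
  intro y hy
  simpa [hA] using hS.gauge hH hy

theorem Sc.vol (hS : O.Sc κ ρ) {H₀ : ℝ} (hH : 0 < H₀) :
    0 < ∫ y in O.K H₀, O.w y ∧ O.j * (volume (O.K H₀ ∩ {x | O.w x ≠ 0})).toReal ≤
      2 ^ Module.finrank ℝ Y * ∫ y in O.K H₀, O.w y := by
  have hK := hS.isCompact_K hH.le
  have hfin : volume (O.K H₀) ≠ ⊤ := hK.measure_lt_top.ne
  have hpos : 0 < (volume (O.K H₀)).toReal := by
    refine ENNReal.toReal_pos (ne_of_gt ?_) hfin
    have ho : IsOpen {y | O.h y < H₀ ∧ ‖O.Φ y‖ < 1} :=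
      (isOpen_lt O.continuous_h continuous_const).inter
        (isOpen_lt O.Φ.continuous.norm continuous_const)
    refine (ho.measure_pos volume ⟨0, by simpa [h] using hH, by simp⟩).trans_le
      (measure_mono fun y hy => ⟨hy.1.le, hy.2.le⟩)
  have hsub : ∀ y ∈ (1 / 2 : ℝ) • O.K H₀, y ∈ O.K H₀ ∧ O.w y = O.j := by
    rintro _ ⟨y, hy, rfl⟩
    have h1 : ‖O.Φ ((1 / 2 : ℝ) • y)‖ ≤ 1 / 2 := by
      rw [map_smul, norm_smul, Real.norm_of_nonneg (by norm_num)]; linarith [hy.2]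
    refine ⟨⟨?_, h1.trans (by norm_num)⟩, O.w_eq h1⟩
    show O.h ((1 / 2 : ℝ) • y) ≤ H₀
    rw [O.h_smul]; nlinarith [hy.1, O.h_nonneg y]
  have hK' : IsCompact ((1 / 2 : ℝ) • O.K H₀) := hK.smul _
  have h1 : O.j * ((1 / 2) ^ Module.finrank ℝ Y * (volume (O.K H₀)).toReal) ≤
      ∫ y in O.K H₀, O.w y := by
    calc _ = ∫ y in (1 / 2 : ℝ) • O.K H₀, O.w y := by
          rw [setIntegral_congr_fun hK'.measurableSet fun y hy => (hsub y hy).2, setIntegral_const,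
            Measure.real, Measure.addHaar_smul, ENNReal.toReal_mul,
            ENNReal.toReal_ofReal (abs_nonneg _), abs_of_nonneg (by positivity), smul_eq_mul]
          ring
      _ ≤ _ := setIntegral_mono_set (O.continuous_w.continuousOn.integrableOn_compact hK)
          (Eventually.of_forall O.w_nonneg) (Eventually.of_forall fun y hy => (hsub y hy).1)
  have hj := O.j_pos
  refine ⟨lt_of_lt_of_le (by positivity) h1, ?_⟩
  have h2 : (volume (O.K H₀ ∩ {x | O.w x ≠ 0})).toReal ≤ (volume (O.K H₀)).toReal :=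
    ENNReal.toReal_mono hfin (measure_mono Set.inter_subset_left)
  calc _ ≤ O.j * (volume (O.K H₀)).toReal := by gcongr
    _ = 2 ^ Module.finrank ℝ Y *
        (O.j * ((1 / 2) ^ Module.finrank ℝ Y * (volume (O.K H₀)).toReal)) := by
          rw [one_div, inv_pow]; field_simp
    _ ≤ _ := by gcongr

theorem Sc.grad_le (hS : O.Sc κ ρ) {U : Y → F} (hU : ContDiff ℝ 1 U) (y : Y) :
    ∑ i, ‖fderiv ℝ (fun y => Real.exp (O.h y) • U y) y ((√ρ)⁻¹ • O.Pr (stdOrthonormalBasis ℝ Y i) +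
      ρ⁻¹ • (stdOrthonormalBasis ℝ Y i - O.Pr (stdOrthonormalBasis ℝ Y i)))‖ ^ 2 ≤
      Real.exp (O.h y) ^ 2 * (2 / ρ * O.gd U y + 2 / ρ ^ 2 * gsq U y) := by
  set b := stdOrthonormalBasis ℝ Y
  have hd := (hU.differentiable one_ne_zero y).hasFDerivAt
  have h1 := (O.hasFDerivAt_h y).exp.smul hd
  have hρ := hS.ρ_pos
  have e : ∀ e : Y, fderiv ℝ (fun y => Real.exp (O.h y) • U y) y ((√ρ)⁻¹ • O.Pr e +
      ρ⁻¹ • (e - O.Pr e)) = Real.exp (O.h y) • ((√ρ)⁻¹ • (fderiv ℝ U y (O.Pr e) +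
        ⟪O.S y, e⟫_ℝ • U y) + ρ⁻¹ • fderiv ℝ U y (e - O.Pr e)) := by
    intro e
    have hP : ⟪O.S y, O.Pr e⟫_ℝ = ⟪O.S y, e⟫_ℝ := by rw [← O.Pr_sym, O.Pr_S]
    have := h1.fderiv
    rw [show (fun y => Real.exp (O.h y) • U y) = (fun y => Real.exp (O.h y)) • U from rfl, this]
    simp only [add_apply, smul_apply, ContinuousLinearMap.smulRight_apply, innerSL_apply_apply,
      map_add, map_smul, inner_sub_right, hP, smul_eq_mul]
    module
  have hc : ∑ i, ‖fderiv ℝ U y (b i - O.Pr (b i))‖ ^ 2 ≤ gsq U y := by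
    have := sum_fderiv_map_sq_le U y (LinearMap.id - O.Pr.toLinearMap) 1 fun v => by
      have h1 : ⟪O.Pr v, v - O.Pr v⟫_ℝ = 0 := by
        rw [O.Pr_sym, map_sub, hS.idem, sub_self, inner_zero_right]
      have h2 : ‖v‖ ^ 2 = ‖O.Pr v‖ ^ 2 + ‖v - O.Pr v‖ ^ 2 := by
        have := norm_add_sq_real (O.Pr v) (v - O.Pr v)
        rw [h1, add_sub_cancel] at this; linarith
      rw [one_mul]
      exact abs_le_of_sq_le_sq' (by
        show ‖v - O.Pr v‖ ^ 2 ≤ _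
        nlinarith [sq_nonneg ‖O.Pr v‖]) (norm_nonneg _) |>.2
    simpa using this
  simp only [e, norm_smul, mul_pow, Real.norm_eq_abs, sq_abs, ← Finset.mul_sum]
  refine mul_le_mul_of_nonneg_left ?_ (sq_nonneg _)
  calc _ ≤ ∑ i, (2 / ρ * ‖fderiv ℝ U y (O.Pr (b i)) + ⟪O.S y, b i⟫_ℝ • U y‖ ^ 2 +
        2 / ρ ^ 2 * ‖fderiv ℝ U y (b i - O.Pr (b i))‖ ^ 2) := by
        refine Finset.sum_le_sum fun i _ => ?_
        set p := fderiv ℝ U y (O.Pr (b i)) + ⟪O.S y, b i⟫_ℝ • U y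
        set q := fderiv ℝ U y (b i - O.Pr (b i))
        have h1 := norm_add_le ((√ρ)⁻¹ • p) (ρ⁻¹ • q)
        have h2 : ‖(√ρ)⁻¹ • p‖ ^ 2 = 1 / ρ * ‖p‖ ^ 2 := by
          rw [norm_smul, mul_pow, Real.norm_eq_abs, sq_abs, inv_pow, Real.sq_sqrt hρ.le, one_div]
        have h3 : ‖ρ⁻¹ • q‖ ^ 2 = 1 / ρ ^ 2 * ‖q‖ ^ 2 := by
          rw [norm_smul, mul_pow, Real.norm_eq_abs, sq_abs, inv_pow, one_div]
        have h4 : ‖(√ρ)⁻¹ • p + ρ⁻¹ • q‖ ^ 2 ≤ (‖(√ρ)⁻¹ • p‖ + ‖ρ⁻¹ • q‖) ^ 2 := by gcongr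
        have h5 : 2 / ρ * ‖p‖ ^ 2 = 2 * (1 / ρ * ‖p‖ ^ 2) := by ring
        have h6 : 2 / ρ ^ 2 * ‖q‖ ^ 2 = 2 * (1 / ρ ^ 2 * ‖q‖ ^ 2) := by ring
        rw [h5, h6, ← h2, ← h3]
        nlinarith [sq_nonneg (‖(√ρ)⁻¹ • p‖ - ‖ρ⁻¹ • q‖)]
    _ ≤ _ := by
        rw [Finset.sum_add_distrib, ← Finset.mul_sum, ← Finset.mul_sum]
        exact add_le_add le_rfl (mul_le_mul_of_nonneg_left hc (by positivity))

/-- the constant of the Poincaré inequality -/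
def cP (n : ℕ) (κ H₀ : ℝ) : ℝ :=
  2 ^ (n + 1) * 2 ^ n * (2 * (√(2 * κ * H₀) + κ)) ^ 2 * Real.exp H₀ ^ 2 * 2

theorem Sc.poincare (hS : O.Sc κ ρ) {H₀ : ℝ} (hH : 0 < H₀) {U : Y → F} (hU : ContDiff ℝ 1 U)
    (hc : HasCompactSupport U) : ∃ c : F,
      ∫ y in O.K H₀, O.w y * ‖Real.exp (O.h y) • U y - c‖ ^ 2 ≤
        cP (Module.finrank ℝ Y) κ H₀ *
          (1 / ρ * (∫ y, O.w y * O.gd U y) + 1 / ρ ^ 2 * ∫ y, O.w y * gsq U y) := by
  set v : Y → F := fun y => Real.exp (O.h y) • U y with hv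
  have hvC : ContDiff ℝ 1 v := O.contDiff_h.exp.smul hU
  have hK := hS.isCompact_K hH.le
  have hρ := hS.ρ_pos
  obtain ⟨A, hA, hA'⟩ := hS.exists_equiv
  have key := poincare_qc (O.convex_K H₀) hK O.continuous_w O.w_nonneg O.j O.w_le
    (fun x _ y _ s hs => O.w_qc x y hs) A (2 * (√(2 * κ * H₀) + κ)) (fun x hx y hy _ _ => by
      rw [map_sub]
      refine (norm_sub_le _ _).trans ?_
      rw [hA, hA]; linarith [hS.gauge hH.le hx, hS.gauge hH.le hy]) hvC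
  have hφ : Continuous fun x => ∫ y in O.K H₀, O.w y * ‖v x - v y‖ ^ 2 := by
    refine continuous_parametric_integral_of_continuous ?_ hK
    have h1 := O.continuous_w
    have h2 := hvC.continuous
    show Continuous fun p : Y × Y => O.w p.2 * ‖v p.1 - v p.2‖ ^ 2
    fun_prop
  obtain ⟨x₀, -, hx₀⟩ := hK.exists_isMinOn ⟨0, by simpa [h] using hH.le, by simp⟩ hφ.continuousOn
  obtain ⟨hW, hvol⟩ := hS.vol hH
  refine ⟨v x₀, ?_⟩
  have h1 : (∫ y in O.K H₀, O.w y) * ∫ y in O.K H₀, O.w y * ‖v y - v x₀‖ ^ 2 ≤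
      ∫ x in O.K H₀, ∫ y in O.K H₀, O.w x * O.w y * ‖v x - v y‖ ^ 2 := by
    rw [← integral_mul_const]
    simp only [mul_assoc, integral_const_mul]
    refine setIntegral_mono_on ((O.continuous_w.mul continuous_const).continuousOn.integrableOn_compact
      hK) ((O.continuous_w.mul hφ).continuousOn.integrableOn_compact hK) hK.measurableSet
      fun x hx => mul_le_mul_of_nonneg_left ?_ (O.w_nonneg x)
    simp only [norm_sub_rev (v _) (v x₀)]
    exact hx₀ hx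
  have i1 := O.integrable_gd hU hc
  have i2 := O.integrable_gsq hU hc
  set G := ∫ y, O.w y * O.gd U y
  set N := ∫ y, O.w y * gsq U y
  have hG : 0 ≤ G := integral_nonneg fun y => mul_nonneg (O.w_nonneg y) (O.gd_nonneg U y)
  have hN : 0 ≤ N := integral_nonneg fun y => mul_nonneg (O.w_nonneg y) (bc3_gsq_nonneg U y)
  have h2 : ∫ x in O.K H₀, O.w x * ∑ i, ‖fderiv ℝ v x (A.symm (stdOrthonormalBasis ℝ Y i))‖ ^ 2 ≤
      Real.exp H₀ ^ 2 * 2 * (1 / ρ * G + 1 / ρ ^ 2 * N) := by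
    have i3 : Integrable fun y => Real.exp H₀ ^ 2 * 2 *
        (1 / ρ * (O.w y * O.gd U y) + 1 / ρ ^ 2 * (O.w y * gsq U y)) :=
      ((i1.const_mul _).fun_add (i2.const_mul _)).const_mul _
    have hn : ∀ y, 0 ≤ Real.exp H₀ ^ 2 * 2 *
        (1 / ρ * (O.w y * O.gd U y) + 1 / ρ ^ 2 * (O.w y * gsq U y)) := fun y => by
      have := O.w_nonneg y; have := O.gd_nonneg U y; have := bc3_gsq_nonneg U y
      positivity
    calc _ ≤ ∫ y in O.K H₀, Real.exp H₀ ^ 2 * 2 *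
          (1 / ρ * (O.w y * O.gd U y) + 1 / ρ ^ 2 * (O.w y * gsq U y)) := by
          refine setIntegral_mono_on ((O.continuous_w.mul (continuous_finsetSum _ fun i _ =>
            (bc3_continuous_fderiv_apply hvC _).norm.pow 2)).continuousOn.integrableOn_compact hK)
            i3.integrableOn hK.measurableSet fun y hy => ?_
          simp only [hA']
          have a1 := hS.grad_le hU y
          have a2 : Real.exp (O.h y) ^ 2 ≤ Real.exp H₀ ^ 2 := by gcongr; exact hy.1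
          have a3 : 0 ≤ 2 / ρ * O.gd U y + 2 / ρ ^ 2 * gsq U y := by
            have := O.gd_nonneg U y; have := bc3_gsq_nonneg U y
            positivity
          calc _ ≤ O.w y * (Real.exp H₀ ^ 2 * (2 / ρ * O.gd U y + 2 / ρ ^ 2 * gsq U y)) :=
                mul_le_mul_of_nonneg_left (a1.trans (mul_le_mul_of_nonneg_right a2 a3))
                  (O.w_nonneg y)
            _ = _ := by ring
      _ ≤ _ := setIntegral_le_integral i3 (Eventually.of_forall hn)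
      _ = _ := by
          rw [integral_const_mul, integral_add (i1.const_mul _) (i2.const_mul _),
            integral_const_mul, integral_const_mul]
  refine le_of_mul_le_mul_left ?_ hW
  refine h1.trans (key.trans ?_)
  have hj := O.j_pos
  set Wt := ∫ y in O.K H₀, O.w y
  set vol := (volume (O.K H₀ ∩ {x | O.w x ≠ 0})).toReal
  have hvol0 : 0 ≤ vol := ENNReal.toReal_nonneg
  calc _ ≤ 2 ^ (Module.finrank ℝ Y + 1) * O.j * (2 * (√(2 * κ * H₀) + κ)) ^ 2 * vol *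
        (Real.exp H₀ ^ 2 * 2 * (1 / ρ * G + 1 / ρ ^ 2 * N)) := by gcongr
    _ = (O.j * vol) * (2 ^ (Module.finrank ℝ Y + 1) * (2 * (√(2 * κ * H₀) + κ)) ^ 2 *
        (Real.exp H₀ ^ 2 * 2 * (1 / ρ * G + 1 / ρ ^ 2 * N))) := by ring
    _ ≤ (2 ^ Module.finrank ℝ Y * Wt) * (2 ^ (Module.finrank ℝ Y + 1) *
        (2 * (√(2 * κ * H₀) + κ)) ^ 2 *
        (Real.exp H₀ ^ 2 * 2 * (1 / ρ * G + 1 / ρ ^ 2 * N))) := by gcongr
    _ = _ := by rw [cP]; ring

end COsc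

end Crest.Agent.R330

end
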