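import Crest.Agent.R330.BC3.B

/-! # Row 330, BC3/C: variance bound for the abstract oscillator. -/

set_option autoImplicit false
set_option linter.unusedSectionVars false

noncomputable section

open MeasureTheory Filter Topology
open scoped InnerProductSpace ContDiff Matrix Pointwise

namespace Crest.Agent.R330

variable {Y W F : Type} [NormedAddCommGroup Y] [InnerProductSpace ℝ Y] [FiniteDimensional ℝ Y]
  [MeasurableSpace Y] [BorelSpace Y] [NormedAddCommGroup W] [InnerProductSpace ℝ W]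
  [NormedAddCommGroup F] [InnerProductSpace ℂ F] [FiniteDimensional ℂ F]

theorem bc3_norm_sub_sq_le (a b : F) : ‖a - b‖ ^ 2 ≤ 2 * ‖a‖ ^ 2 + 2 * ‖b‖ ^ 2 := by
  have h4 : ‖a - b‖ ^ 2 ≤ (‖a‖ + ‖b‖) ^ 2 := by gcongr; exact norm_sub_le _ _
  nlinarith [sq_nonneg (‖a‖ - ‖b‖)]

namespace COsc

variable {O : COsc Y W} {κ ρ : ℝ}

theorem Sc.var_aux (hS : O.Sc κ ρ) {H₀ m₀ : ℝ} (hH : 0 < H₀) (hm₀ : 0 ≤ m₀) (hmH : 2 * m₀ ≤ H₀)
    (hi1 : Integrable fun y => O.w y * Real.exp (-2 * O.h y))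
    (hi2 : Integrable fun y => O.w y * Real.exp (-2 * O.h y) * O.h y)
    (hm : ∫ y, O.w y * Real.exp (-2 * O.h y) * O.h y ≤ m₀ * ∫ y, O.w y * Real.exp (-2 * O.h y))
    {U : Y → F} (hU : ContDiff ℝ 1 U) (hc : HasCompactSupport U) (c : F) :
    (Integrable fun y => O.w y * ‖U y - Real.exp (-O.h y) • c‖ ^ 2) ∧
    ∫ y, O.w y * ‖U y - Real.exp (-O.h y) • c‖ ^ 2 ≤
      5 * (∫ y in O.K H₀, O.w y * ‖Real.exp (O.h y) • U y - c‖ ^ 2) +
        κ / H₀ / ρ * (∫ y, O.w y * (‖O.S y‖ ^ 2 * ‖U y‖ ^ 2)) +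
        8 * m₀ / H₀ * ∫ y, O.w y * ‖U y‖ ^ 2 := by
  have hK := hS.isCompact_K hH.le
  have hρ := hS.ρ_pos
  have hκ := hS.κ_pos
  have cw := O.continuous_w
  have ch := O.continuous_h
  have cU := hU.continuous
  have i0 := O.integrable_sq hU hc
  have iV := O.integrable_mul hU hc (f := fun y => ‖O.S y‖ ^ 2) (O.S.continuous.norm.pow 2)
  have hE : ∀ y, Real.exp (-O.h y) ^ 2 = Real.exp (-2 * O.h y) := fun y => by
    rw [← Real.exp_nat_mul]; congr 1; push_cast; ring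
  have hE1 : ∀ y, Real.exp (-2 * O.h y) ≤ 1 := fun y =>
    Real.exp_le_one_iff.2 (by linarith [O.h_nonneg y])
  have hn : ∀ y, ‖Real.exp (-O.h y) • c‖ ^ 2 = Real.exp (-2 * O.h y) * ‖c‖ ^ 2 := fun y => by
    rw [norm_smul, mul_pow, Real.norm_eq_abs, sq_abs, hE]
  have hd : ∀ y, ‖U y - Real.exp (-O.h y) • c‖ ^ 2 ≤ ‖Real.exp (O.h y) • U y - c‖ ^ 2 := fun y => by
    have : U y - Real.exp (-O.h y) • c = Real.exp (-O.h y) • (Real.exp (O.h y) • U y - c) := by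
      rw [smul_sub, smul_smul, ← Real.exp_add]; simp
    rw [this, norm_smul, mul_pow, Real.norm_eq_abs, sq_abs, hE]
    exact mul_le_of_le_one_left (sq_nonneg _) (hE1 y)
  have iD : Integrable fun y => O.w y * ‖U y - Real.exp (-O.h y) • c‖ ^ 2 := by
    refine ((i0.const_mul 2).fun_add ((hi1.mul_const (‖c‖ ^ 2)).const_mul 2)).mono'
      (Continuous.aestronglyMeasurable (by fun_prop)) (Eventually.of_forall fun y => ?_)
    have := O.w_nonneg y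
    rw [Real.norm_of_nonneg (by positivity)]
    have h1 := bc3_norm_sub_sq_le (U y) (Real.exp (-O.h y) • c)
    rw [hn] at h1
    nlinarith
  refine ⟨iD, ?_⟩
  set p : Y → ℝ := (O.K H₀).indicator fun y => O.w y * ‖Real.exp (O.h y) • U y - c‖ ^ 2 with hp
  have iP : Integrable p := by
    rw [hp, integrable_indicator_iff hK.measurableSet]
    exact (Continuous.continuousOn (by fun_prop)).integrableOn_compact hK
  rw [← integral_indicator hK.measurableSet]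
  have out : ∀ y, y ∉ O.K H₀ → O.w y ≤ O.w y * O.h y / H₀ := by
    intro y hy
    by_cases h1 : ‖O.Φ y‖ ≤ 1
    · have h2 : H₀ < O.h y := lt_of_not_ge fun h2 => hy ⟨h2, h1⟩
      rw [le_div_iff₀ hH]
      exact mul_le_mul_of_nonneg_left h2.le (O.w_nonneg y)
    · rw [O.w_zero (le_of_not_ge h1)]; simp
  have hV : ∀ y, 2 * (O.w y * O.h y / H₀) * ‖U y‖ ^ 2 ≤
      κ / H₀ / ρ * (O.w y * (‖O.S y‖ ^ 2 * ‖U y‖ ^ 2)) := fun y => by
    have h1 : 2 * O.h y ≤ κ / ρ * ‖O.S y‖ ^ 2 := by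
      rw [div_mul_eq_mul_div, le_div_iff₀ hρ, h]; linarith [hS.h2 y]
    have := O.w_nonneg y
    calc _ = (2 * O.h y) * (O.w y * ‖U y‖ ^ 2 / H₀) := by ring
      _ ≤ (κ / ρ * ‖O.S y‖ ^ 2) * (O.w y * ‖U y‖ ^ 2 / H₀) := by gcongr
      _ = _ := by ring
  have b1 : ∀ y, O.w y * ‖U y - Real.exp (-O.h y) • c‖ ^ 2 ≤ p y +
      κ / H₀ / ρ * (O.w y * (‖O.S y‖ ^ 2 * ‖U y‖ ^ 2)) +
      2 * ‖c‖ ^ 2 / H₀ * (O.w y * Real.exp (-2 * O.h y) * O.h y) := by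
    intro y
    have w0 := O.w_nonneg y
    have h0 := O.h_nonneg y
    by_cases hy : y ∈ O.K H₀
    · rw [hp, Set.indicator_of_mem hy]
      have := mul_le_mul_of_nonneg_left (hd y) w0
      have a1 : 0 ≤ κ / H₀ / ρ * (O.w y * (‖O.S y‖ ^ 2 * ‖U y‖ ^ 2)) := by positivity
      have a2 : 0 ≤ 2 * ‖c‖ ^ 2 / H₀ * (O.w y * Real.exp (-2 * O.h y) * O.h y) := by positivity
      linarith
    · rw [hp, Set.indicator_of_notMem hy, zero_add]
      have h1 := bc3_norm_sub_sq_le (U y) (Real.exp (-O.h y) • c)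
      rw [hn] at h1
      calc _ ≤ O.w y * O.h y / H₀ * (2 * ‖U y‖ ^ 2 + 2 * (Real.exp (-2 * O.h y) * ‖c‖ ^ 2)) :=
            mul_le_mul (out y hy) h1 (sq_nonneg _) (by positivity)
        _ = 2 * (O.w y * O.h y / H₀) * ‖U y‖ ^ 2 +
            2 * ‖c‖ ^ 2 / H₀ * (O.w y * Real.exp (-2 * O.h y) * O.h y) := by ring
        _ ≤ _ := add_le_add (hV y) le_rfl
  have b2 : ∀ y, ‖c‖ ^ 2 * (O.w y * Real.exp (-2 * O.h y)) ≤ 2 * p y + 2 * (O.w y * ‖U y‖ ^ 2) +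
      ‖c‖ ^ 2 / H₀ * (O.w y * Real.exp (-2 * O.h y) * O.h y) := by
    intro y
    have w0 := O.w_nonneg y
    have h0 := O.h_nonneg y
    by_cases hy : y ∈ O.K H₀
    · rw [hp, Set.indicator_of_mem hy]
      have h1 := bc3_norm_sub_sq_le (U y) (U y - Real.exp (-O.h y) • c)
      rw [sub_sub_cancel, hn] at h1
      have a2 : 0 ≤ ‖c‖ ^ 2 / H₀ * (O.w y * Real.exp (-2 * O.h y) * O.h y) := by positivity
      have a3 := mul_le_mul_of_nonneg_left (h1.trans (add_le_add le_rfl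
        (mul_le_mul_of_nonneg_left (hd y) zero_le_two))) w0
      nlinarith
    · rw [hp, Set.indicator_of_notMem hy]
      have a1 : 0 ≤ 2 * (O.w y * ‖U y‖ ^ 2) := by positivity
      have a2 := mul_le_mul_of_nonneg_left (out y hy)
        (show 0 ≤ ‖c‖ ^ 2 * Real.exp (-2 * O.h y) by positivity)
      calc _ = ‖c‖ ^ 2 * Real.exp (-2 * O.h y) * O.w y := by ring
        _ ≤ _ := a2
        _ = ‖c‖ ^ 2 / H₀ * (O.w y * Real.exp (-2 * O.h y) * O.h y) := by ring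
        _ ≤ _ := by linarith
  have I1 := integral_mono iD ((iP.fun_add (iV.const_mul _)).fun_add (hi2.const_mul _)) b1
  have I2 := integral_mono (hi1.const_mul _)
    (((iP.const_mul 2).fun_add (i0.const_mul 2)).fun_add (hi2.const_mul _)) b2
  rw [integral_add (iP.fun_add (iV.const_mul _)) (hi2.const_mul _),
    integral_add iP (iV.const_mul _), integral_const_mul, integral_const_mul] at I1
  rw [integral_add ((iP.const_mul 2).fun_add (i0.const_mul 2)) (hi2.const_mul _),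
    integral_add (iP.const_mul 2) (i0.const_mul 2), integral_const_mul, integral_const_mul,
    integral_const_mul, integral_const_mul] at I2
  have hP : 0 ≤ ∫ y, p y := integral_nonneg fun y =>
    Set.indicator_nonneg (fun y _ => mul_nonneg (O.w_nonneg y) (sq_nonneg _)) y
  have hm0 : 0 ≤ ∫ y, O.w y * ‖U y‖ ^ 2 :=
    integral_nonneg fun y => mul_nonneg (O.w_nonneg y) (sq_nonneg _)
  have hν : 0 ≤ ∫ y, O.w y * Real.exp (-2 * O.h y) :=
    integral_nonneg fun y => mul_nonneg (O.w_nonneg y) (Real.exp_pos _).le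
  set Pp := ∫ y, p y
  set m := ∫ y, O.w y * ‖U y‖ ^ 2
  set ν := ∫ y, O.w y * Real.exp (-2 * O.h y)
  set μ := ∫ y, O.w y * Real.exp (-2 * O.h y) * O.h y
  have hδ : m₀ / H₀ ≤ 1 / 2 := by rw [div_le_iff₀ hH]; linarith
  have hδ0 : 0 ≤ m₀ / H₀ := by positivity
  have hcν : 0 ≤ ‖c‖ ^ 2 * ν := by positivity
  have e1 : ‖c‖ ^ 2 / H₀ * μ ≤ m₀ / H₀ * (‖c‖ ^ 2 * ν) := by
    calc _ ≤ ‖c‖ ^ 2 / H₀ * (m₀ * ν) := by gcongr
      _ = _ := by ring
  have e2 : ‖c‖ ^ 2 * ν ≤ 4 * Pp + 4 * m := by nlinarith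
  have e3 : 2 * ‖c‖ ^ 2 / H₀ * μ = 2 * (‖c‖ ^ 2 / H₀ * μ) := by ring
  have e4 : 8 * m₀ / H₀ * m = 8 * (m₀ / H₀ * m) := by ring
  have e5 := mul_le_mul_of_nonneg_left e2 hδ0
  rw [e3] at I1
  rw [e4]
  nlinarith

/-- The variance bound. -/
theorem var (Y W F : Type) [NormedAddCommGroup Y] [InnerProductSpace ℝ Y] [FiniteDimensional ℝ Y]
    [MeasurableSpace Y] [BorelSpace Y] [NormedAddCommGroup W] [InnerProductSpace ℝ W]
    [NormedAddCommGroup F] [InnerProductSpace ℂ F] [FiniteDimensional ℂ F]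
    {κ m₀ η : ℝ} (hκ : 0 < κ) (hm₀ : 0 ≤ m₀) (hη : 0 < η) : ∃ c₁ : ℝ, κ ≤ c₁ ∧
    ∀ (O : COsc Y W) (ρ : ℝ), O.Sc κ ρ → (Integrable fun y => O.w y * Real.exp (-2 * O.h y)) →
      (Integrable fun y => O.w y * Real.exp (-2 * O.h y) * O.h y) →
      ∫ y, O.w y * Real.exp (-2 * O.h y) * O.h y ≤ m₀ * ∫ y, O.w y * Real.exp (-2 * O.h y) →
      ∀ U : Y → F, ContDiff ℝ 1 U → HasCompactSupport U → ∃ c : F,
        (Integrable fun y => O.w y * ‖U y - Real.exp (-O.h y) • c‖ ^ 2) ∧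
        ∫ y, O.w y * ‖U y - Real.exp (-O.h y) • c‖ ^ 2 ≤
          c₁ / ρ * (∫ y, O.w y * O.gd U y) + c₁ / ρ ^ 2 * (∫ y, O.w y * gsq U y) +
            η / ρ * (∫ y, O.w y * (‖O.S y‖ ^ 2 * ‖U y‖ ^ 2)) + η * ∫ y, O.w y * ‖U y‖ ^ 2 := by
  set H₀ := 2 * m₀ + (κ + 8 * m₀) / η with hH₀
  have h1 : 0 < (κ + 8 * m₀) / η := by positivity
  have hH : 0 < H₀ := by positivity
  have h2 : κ + 8 * m₀ ≤ η * H₀ := by
    have : η * ((κ + 8 * m₀) / η) = κ + 8 * m₀ := by field_simp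
    rw [hH₀, mul_add, this]; nlinarith
  refine ⟨max κ (5 * cP (Module.finrank ℝ Y) κ H₀), le_max_left _ _,
    fun O ρ hS hi1 hi2 hm U hU hc => ?_⟩
  obtain ⟨c, hc'⟩ := hS.poincare hH hU hc
  obtain ⟨i, hi⟩ := hS.var_aux hH hm₀ (by linarith) hi1 hi2 hm hU hc c
  refine ⟨c, i, hi.trans ?_⟩
  have hρ := hS.ρ_pos
  have hG : 0 ≤ ∫ y, O.w y * O.gd U y :=
    integral_nonneg fun y => mul_nonneg (O.w_nonneg y) (O.gd_nonneg U y)
  have hN : 0 ≤ ∫ y, O.w y * gsq U y :=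
    integral_nonneg fun y => mul_nonneg (O.w_nonneg y) (bc3_gsq_nonneg U y)
  have hV : 0 ≤ ∫ y, O.w y * (‖O.S y‖ ^ 2 * ‖U y‖ ^ 2) :=
    integral_nonneg fun y => mul_nonneg (O.w_nonneg y) (by positivity)
  have hm0 : 0 ≤ ∫ y, O.w y * ‖U y‖ ^ 2 :=
    integral_nonneg fun y => mul_nonneg (O.w_nonneg y) (sq_nonneg _)
  have a1 : κ / H₀ ≤ η := by rw [div_le_iff₀ hH]; linarith
  have a2 : 8 * m₀ / H₀ ≤ η := by rw [div_le_iff₀ hH]; linarith
  refine add_le_add (add_le_add ?_ (by gcongr)) (by gcongr)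
  calc _ ≤ 5 * (cP (Module.finrank ℝ Y) κ H₀ *
        (1 / ρ * (∫ y, O.w y * O.gd U y) + 1 / ρ ^ 2 * ∫ y, O.w y * gsq U y)) := by gcongr
    _ = (5 * cP (Module.finrank ℝ Y) κ H₀) / ρ * (∫ y, O.w y * O.gd U y) +
        (5 * cP (Module.finrank ℝ Y) κ H₀) / ρ ^ 2 * (∫ y, O.w y * gsq U y) := by ring
    _ ≤ _ := by gcongr <;> exact le_max_right _ _

end COsc

end Crest.Agent.R330

end
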