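import Crest.Agent.R330.BC3.B

/-! # Row 330, BC3/M0: Gaussian integrals for the abstract oscillator, determinants. -/

set_option autoImplicit false
set_option linter.unusedSectionVars false

noncomputable section

open MeasureTheory Filter Topology
open scoped InnerProductSpace ContDiff Matrix Pointwise

namespace Crest.Agent.R330

theorem bc3_det_scale {V : Type} [AddCommGroup V] [Module ℝ V] [FiniteDimensional ℝ V]
    {Q : V →ₗ[ℝ] V} (hQ : ∀ v, Q (Q v) = Q v) {n : ℕ} (hn : LinearMap.trace ℝ V Q = n) (r : ℝ) :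
    LinearMap.det (LinearMap.id + (r - 1) • Q) = r ^ n := by
  have h : LinearMap.IsProj (LinearMap.range Q) Q :=
    LinearMap.IsIdempotentElem.isProj_range Q (LinearMap.ext hQ)
  have h1 : Module.finrank ℝ (LinearMap.range Q) = n := by
    have := h.trace
    rw [hn] at this
    exact_mod_cast this.symm
  set e := (LinearMap.range Q).prodEquivOfIsCompl (LinearMap.ker Q) h.isCompl
  have h2 : LinearMap.id + (r - 1) • Q =
      e.toLinearMap ∘ₗ (LinearMap.prodMap (r • LinearMap.id) LinearMap.id) ∘ₗ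
        e.symm.toLinearMap := by
    ext v
    obtain ⟨⟨a, b⟩, rfl⟩ := e.surjective v
    have ha : Q a = a := h.map_id a a.2
    have hb : Q b = 0 := b.2
    simp only [LinearMap.add_apply, LinearMap.id_apply, LinearMap.smul_apply, LinearMap.comp_apply,
      LinearEquiv.coe_coe, LinearEquiv.symm_apply_apply, LinearMap.prodMap_apply]
    simp only [e, Submodule.coe_prodEquivOfIsCompl', map_add, ha, hb, Submodule.coe_smul]
    module
  rw [h2, LinearMap.det_conj, LinearMap.det_prodMap, LinearMap.det_smul, LinearMap.det_id,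
    LinearMap.det_id, h1, mul_one, mul_one]

theorem bc3_det_sum {V ι : Type} [AddCommGroup V] [Module ℝ V] [FiniteDimensional ℝ V]
    (Q : ι → V →ₗ[ℝ] V) (hQ : ∀ i v, Q i (Q i v) = Q i v)
    (hO : ∀ i j, i ≠ j → ∀ v, Q i (Q j v) = 0) (n : ι → ℕ)
    (hn : ∀ i, LinearMap.trace ℝ V (Q i) = n i) (r : ι → ℝ) (s : Finset ι) :
    LinearMap.det (LinearMap.id + ∑ i ∈ s, (r i - 1) • Q i) = ∏ i ∈ s, r i ^ n i := by
  classical
  induction s using Finset.induction_on with
  | empty => simp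
  | insert a s ha ih =>
    rw [Finset.prod_insert ha, ← ih, ← bc3_det_scale (hQ a) (hn a), ← LinearMap.det_comp]
    congr 1
    ext v
    have : Q a (∑ i ∈ s, (r i - 1) • Q i v) = 0 := by
      rw [map_sum]
      exact Finset.sum_eq_zero fun i hi => by
        rw [map_smul, hO a i (fun h => ha (h ▸ hi)), smul_zero]
    simp only [Finset.sum_insert ha, LinearMap.add_apply, LinearMap.id_apply, LinearMap.smul_apply,
      LinearMap.comp_apply, LinearMap.sum_apply, map_add, this]
    module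

variable {Y W F : Type} [NormedAddCommGroup Y] [InnerProductSpace ℝ Y] [FiniteDimensional ℝ Y]
  [MeasurableSpace Y] [BorelSpace Y] [NormedAddCommGroup W] [InnerProductSpace ℝ W]
  [NormedAddCommGroup F] [InnerProductSpace ℂ F] [FiniteDimensional ℂ F]

theorem bc3_integral_lin (T : Y →ₗ[ℝ] Y) (hT : 0 < LinearMap.det T) {f : Y → ℝ}
    (hf : Continuous f) : ∫ y, f y = LinearMap.det T * ∫ y, f (T y) := by
  rw [← integral_map T.continuous_of_finiteDimensional.aemeasurable hf.aestronglyMeasurable,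
    Measure.map_linearMap_addHaar_eq_smul_addHaar _ hT.ne', integral_smul_measure,
    ENNReal.toReal_ofReal (abs_nonneg _), abs_of_pos (inv_pos.2 hT), smul_eq_mul,
    mul_inv_cancel_left₀ hT.ne']

theorem bc3_integrable_gauss {b : ℝ} (hb : 0 < b) (n : ℕ) :
    Integrable fun y : Y => Real.exp (-b * ‖y‖ ^ 2) * ‖y‖ ^ n := by
  have h1 : Integrable fun y : Y => Real.exp (-(b / 2) * ‖y‖ ^ 2) := by
    have := (GaussianFourier.integrable_cexp_neg_mul_sq_norm_add (V := Y) (b := ((b / 2 : ℝ) : ℂ))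
      (by simpa using hb) 0 0).norm
    refine this.congr (Eventually.of_forall fun y => ?_)
    simp only [Complex.norm_exp, zero_mul, add_zero]
    congr 1
    rw [← Complex.ofReal_pow, ← Complex.ofReal_neg, ← Complex.ofReal_mul, Complex.ofReal_re]
  refine (h1.const_mul (1 + n.factorial / (b / 2) ^ n)).mono'
    (Continuous.aestronglyMeasurable (by fun_prop)) (Eventually.of_forall fun y => ?_)
  rw [Real.norm_of_nonneg (by positivity)]
  have h2 : ‖y‖ ^ n ≤ 1 + (‖y‖ ^ 2) ^ n := by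
    rcases le_total ‖y‖ 1 with h | h
    · exact (pow_le_one₀ (norm_nonneg _) h).trans (le_add_of_nonneg_right (by positivity))
    · rw [← pow_mul]
      exact (pow_le_pow_right₀ h (by omega)).trans (le_add_of_nonneg_left zero_le_one)
  have h3 := Real.pow_div_factorial_le_exp (b / 2 * ‖y‖ ^ 2) (by positivity) n
  have h4 : (‖y‖ ^ 2) ^ n ≤ n.factorial / (b / 2) ^ n * Real.exp (b / 2 * ‖y‖ ^ 2) := by
    rw [div_le_iff₀ (by positivity), mul_pow] at h3
    rw [div_mul_eq_mul_div, le_div_iff₀ (by positivity)]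
    linarith
  have h5 : 1 ≤ Real.exp (b / 2 * ‖y‖ ^ 2) := Real.one_le_exp (by positivity)
  calc _ ≤ Real.exp (-b * ‖y‖ ^ 2) *
        ((1 + n.factorial / (b / 2) ^ n) * Real.exp (b / 2 * ‖y‖ ^ 2)) := by
        gcongr; linarith
    _ = _ := by
        rw [mul_left_comm, ← Real.exp_add]; congr 2; ring

/-- Cauchy–Schwarz with a weight -/
theorem bc3_cs {w a g : Y → ℝ} (hw : ∀ y, 0 ≤ w y) (ha : Integrable fun y => w y * a y ^ 2)
    (hg : Integrable fun y => w y * g y ^ 2)
    (hm : AEStronglyMeasurable (fun y => w y * (a y * g y)) volume) :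
    (Integrable fun y => w y * (a y * g y)) ∧
      (∫ y, w y * (a y * g y)) ^ 2 ≤ (∫ y, w y * a y ^ 2) * ∫ y, w y * g y ^ 2 := by
  have hi : Integrable fun y => w y * (a y * g y) := by
    refine (ha.fun_add hg).mono' hm (Eventually.of_forall fun y => ?_)
    rw [norm_mul, Real.norm_of_nonneg (hw y), ← mul_add, Real.norm_eq_abs]
    refine mul_le_mul_of_nonneg_left (abs_le.2 ⟨?_, ?_⟩) (hw y) <;>
      nlinarith [sq_nonneg (a y + g y), sq_nonneg (a y - g y), sq_nonneg (a y), sq_nonneg (g y)]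
  refine ⟨hi, ?_⟩
  have key : ∀ t : ℝ, 0 ≤ (∫ y, w y * a y ^ 2) * (t * t) + (-2 * ∫ y, w y * (a y * g y)) * t +
      ∫ y, w y * g y ^ 2 := by
    intro t
    have h0 : 0 ≤ ∫ y, (t * t * (w y * a y ^ 2) + (-2 * t) * (w y * (a y * g y)) +
        w y * g y ^ 2) := integral_nonneg fun y => by
      have := mul_nonneg (hw y) (sq_nonneg (t * a y - g y))
      simp only [Pi.zero_apply]
      linarith
    rw [integral_add ((ha.const_mul _).fun_add (hi.const_mul _)) hg,
      integral_add (ha.const_mul _) (hi.const_mul _), integral_const_mul, integral_const_mul] at h0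
    linarith
  have := discrim_le_zero key
  rw [discrim] at this
  nlinarith

namespace COsc

variable {O : COsc Y W} {κ ρ : ℝ}

theorem Sc.norm_sq (hS : O.Sc κ ρ) (v : Y) : ‖v‖ ^ 2 = ‖O.Pr v‖ ^ 2 + ‖v - O.Pr v‖ ^ 2 := by
  have h1 : ⟪O.Pr v, v - O.Pr v⟫_ℝ = 0 := by
    rw [O.Pr_sym, map_sub, hS.idem, sub_self, inner_zero_right]
  have := norm_add_sq_real (O.Pr v) (v - O.Pr v)
  rw [h1, add_sub_cancel] at this; linarith

theorem Sc.integrable (hS : O.Sc κ ρ) {a : ℝ} (ha : 0 < a) (n : ℕ) :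
    Integrable fun y => O.w y * Real.exp (-a * O.h y) * ‖y‖ ^ n := by
  have hρ := hS.ρ_pos
  have hκ := hS.κ_pos
  have cw := O.continuous_w
  have ch := O.continuous_h
  set b := a * ρ / (2 * κ) with hb
  have hb0 : 0 < b := by positivity
  refine ((bc3_integrable_gauss (Y := Y) hb0 n).const_mul
    (O.j * Real.exp (b * (κ / ρ) ^ 2))).mono'
    (Continuous.aestronglyMeasurable (by fun_prop)) (Eventually.of_forall fun y => ?_)
  have w0 := O.w_nonneg y
  have hj := O.j_pos
  rw [Real.norm_of_nonneg (by positivity)]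
  by_cases h1 : ‖O.Φ y‖ ≤ 1
  · have h2 : ‖y - O.Pr y‖ ≤ κ / ρ := by
      rw [le_div_iff₀ hρ]; nlinarith [hS.h3 y]
    have h3 : ‖y‖ ^ 2 ≤ ‖O.Pr y‖ ^ 2 + (κ / ρ) ^ 2 := by
      rw [hS.norm_sq y]; gcongr
    have h4 : b * ‖O.Pr y‖ ^ 2 ≤ a * O.h y := by
      rw [hb, h, div_mul_eq_mul_div, div_le_iff₀ (by positivity)]
      nlinarith [hS.h1 y]
    have h5 : Real.exp (-a * O.h y) ≤ Real.exp (b * (κ / ρ) ^ 2) * Real.exp (-b * ‖y‖ ^ 2) := by
      rw [← Real.exp_add]
      exact Real.exp_le_exp.2 (by nlinarith)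
    calc _ ≤ O.j * (Real.exp (b * (κ / ρ) ^ 2) * Real.exp (-b * ‖y‖ ^ 2)) * ‖y‖ ^ n := by
          gcongr; exact O.w_le y
      _ = _ := by ring
  · rw [O.w_zero (le_of_not_ge h1)]
    simp only [zero_mul]
    positivity

theorem Sc.integrable_le (hS : O.Sc κ ρ) {a : ℝ} (ha : 0 < a) (n : ℕ) {f : Y → ℝ}
    (hf : Continuous f) (c : ℝ) (h : ∀ y, |f y| ≤ c * ‖y‖ ^ n) :
    Integrable fun y => O.w y * Real.exp (-a * O.h y) * f y := by
  have cw := O.continuous_w
  have ch := O.continuous_h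
  refine ((hS.integrable ha n).const_mul c).mono'
    (Continuous.aestronglyMeasurable (by fun_prop)) (Eventually.of_forall fun y => ?_)
  have w0 := O.w_nonneg y
  rw [norm_mul, Real.norm_of_nonneg (by positivity), Real.norm_eq_abs, mul_left_comm]
  exact mul_le_mul_of_nonneg_left (h y) (by positivity)

theorem Sc.integrable_inner (hS : O.Sc κ ρ) (a b : Y) :
    Integrable fun y => O.w y * Real.exp (-2 * O.h y) * (⟪a, y⟫_ℝ * ⟪b, y⟫_ℝ) :=
  hS.integrable_le two_pos 2 (by fun_prop) (‖a‖ * ‖b‖) fun y => by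
    rw [abs_mul]
    calc _ ≤ (‖a‖ * ‖y‖) * (‖b‖ * ‖y‖) := by gcongr <;> exact abs_real_inner_le_norm _ _
      _ = _ := by ring

/-- Stein's identity -/
theorem Sc.stein (hS : O.Sc κ ρ) (a b : Y) :
    ∫ y, O.w y * Real.exp (-2 * O.h y) * (⟪O.S a, y⟫_ℝ * ⟪b, y⟫_ℝ) =
      (∫ y, O.w y * Real.exp (-2 * O.h y)) / 2 * ⟪b, O.Pr a⟫_ℝ := by
  have hd : ∀ y, HasFDerivAt (fun y => O.w y * Real.exp (-2 * O.h y))
      (O.w y • Real.exp (-2 * O.h y) • (-2 : ℝ) • innerSL ℝ (O.S y) +
        Real.exp (-2 * O.h y) • fderiv ℝ O.w y) y := fun y =>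
    (O.contDiff_w.differentiable one_ne_zero y).hasFDerivAt.mul
      ((O.hasFDerivAt_h y).const_mul (-2)).exp
  have e1 : ∀ y, fderiv ℝ (fun y => O.w y * Real.exp (-2 * O.h y)) y (O.Pr a) =
      -2 * (O.w y * Real.exp (-2 * O.h y) * ⟪O.S a, y⟫_ℝ) := fun y => by
    rw [(hd y).fderiv]
    simp only [add_apply, smul_apply, innerSL_apply_apply, O.fderiv_w_Pr, smul_eq_mul]
    rw [O.S_sym, O.S_Pr, real_inner_comm]; ring
  have e2 : ∀ y, fderiv ℝ (fun y => ⟪b, y⟫_ℝ) y (O.Pr a) = ⟪b, O.Pr a⟫_ℝ := fun y => by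
    rw [show (fun y => ⟪b, y⟫_ℝ) = innerSL ℝ b from rfl, ContinuousLinearMap.fderiv]; rfl
  have i0 : Integrable fun y => O.w y * Real.exp (-2 * O.h y) := by
    simpa using hS.integrable two_pos 0
  have key := integral_mul_fderiv_eq_neg_fderiv_mul_of_integrable (μ := volume)
    (f := fun y => O.w y * Real.exp (-2 * O.h y)) (g := fun y => ⟪b, y⟫_ℝ) (v := O.Pr a)
    (by
      simp only [e1, mul_assoc (-2 : ℝ), mul_assoc (O.w _ * _)]
      exact (hS.integrable_inner _ _).const_mul _)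
    (by simp only [e2]; exact i0.mul_const _)
    (hS.integrable_le two_pos 1 (by fun_prop) ‖b‖ fun y => by
      simpa using abs_real_inner_le_norm b y)
    (fun y _ => (hd y).differentiableAt) (fun y _ => (innerSL ℝ b).differentiableAt)
  simp only [e1, e2, mul_assoc (-2 : ℝ), mul_assoc (O.w _ * _)] at key
  rw [integral_const_mul, integral_mul_const] at key
  linarith

end COsc

end Crest.Agent.R330

end
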