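import Crest.Agent.R330.IB0
import Crest.Agent.R330.BC3.M0

/-! # Row 330, BC3/D0: the oscillator of a fibre. -/

set_option autoImplicit false
set_option linter.unusedSectionVars false

noncomputable section

open MeasureTheory Filter Topology
open scoped InnerProductSpace ContDiff Matrix
open Crest.MathPhysics.MatrixQM (GammaNine)

namespace Crest.Agent.R330

variable {E Z L H F : Type}
  [NormedAddCommGroup E] [InnerProductSpace ℝ E] [FiniteDimensional ℝ E]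
  [NormedAddCommGroup Z] [InnerProductSpace ℝ Z] [FiniteDimensional ℝ Z]
  [NormedAddCommGroup L] [InnerProductSpace ℝ L] [FiniteDimensional ℝ L]
  [NormedAddCommGroup H] [InnerProductSpace ℝ H] [FiniteDimensional ℝ H]
  [NormedAddCommGroup F] [InnerProductSpace ℂ F] [FiniteDimensional ℂ F]
  [MeasurableSpace E] [BorelSpace E] [MeasurableSpace Z] [BorelSpace Z]
  [MeasurableSpace L] [BorelSpace L] [MeasurableSpace H] [BorelSpace H]
  {P : Type} [Fintype P] {𝔤 : Lie E} (D : Levi 𝔤 Z L H P) (C : Cl (Th E) F) (σ : Spn)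

namespace Levi

theorem c3_lift_Mop (z : X Z) (v : X H) :
    lift 9 (D.Mop z) v = ∑ p, D.M p z • lift 9 (D.pr p) v := by
  ext i
  simp [Mop, LinearMap.sum_apply]

theorem c3_inner_pr (p : P) (u v : X H) :
    ⟪lift 9 (D.pr p) u, v⟫_ℝ = ⟪u, lift 9 (D.pr p) v⟫_ℝ := by
  simp only [PiLp.inner_apply, lift_apply, D.pr_sym]

theorem c3_pr_pr (p : P) (v : X H) : lift 9 (D.pr p) (lift 9 (D.pr p) v) = lift 9 (D.pr p) v := by
  ext i; simp [D.pr_idem]

theorem c3_pr_orth {p q : P} (h : p ≠ q) (v : X H) : lift 9 (D.pr p) (lift 9 (D.pr q) v) = 0 := by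
  ext i; simp [D.pr_orth p q h]

theorem c3_sum_pr (v : X H) : ∑ p, lift 9 (D.pr p) v = v := by
  ext i
  simp [D.pr_sum]

theorem c3_inner_self (p : P) (v : X H) :
    ⟪lift 9 (D.pr p) v, v⟫_ℝ = ‖lift 9 (D.pr p) v‖ ^ 2 := by
  conv_lhs => rw [← D.c3_pr_pr, D.c3_inner_pr]
  exact real_inner_self_eq_norm_sq _

theorem c3_inner_sum (a : P → ℝ) (v : X H) :
    ⟪∑ p, a p • lift 9 (D.pr p) v, v⟫_ℝ = ∑ p, a p * ‖lift 9 (D.pr p) v‖ ^ 2 := by
  simp only [sum_inner, inner_smul_left, RCLike.conj_to_real, D.c3_inner_self]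

theorem c3_norm_sum (a : P → ℝ) (v : X H) :
    ‖∑ p, a p • lift 9 (D.pr p) v‖ ^ 2 = ∑ p, a p ^ 2 * ‖lift 9 (D.pr p) v‖ ^ 2 := by
  classical
  rw [← real_inner_self_eq_norm_sq, sum_inner]
  refine Finset.sum_congr rfl fun p _ => ?_
  rw [inner_smul_left, D.c3_inner_pr, map_sum, Finset.sum_eq_single p]
  · rw [map_smul, D.c3_pr_pr, inner_smul_right, real_inner_comm, D.c3_inner_self]
    simp; ring
  · intro q _ hq
    rw [map_smul, D.c3_pr_orth (Ne.symm hq), smul_zero]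
  · simp

theorem c3_norm_sq (v : X H) : ‖v‖ ^ 2 = ∑ p, ‖lift 9 (D.pr p) v‖ ^ 2 := by
  have := D.c3_inner_sum (fun _ => 1) v
  simp only [one_smul, one_mul, D.c3_sum_pr] at this
  rw [← this, real_inner_self_eq_norm_sq]

theorem c3_norm_sq_H (t : H) : ‖t‖ ^ 2 = ∑ p, ‖D.pr p t‖ ^ 2 := by
  rw [← real_inner_self_eq_norm_sq]
  conv_lhs => rw [← D.pr_sum t, sum_inner]
  refine Finset.sum_congr rfl fun p _ => ?_
  rw [D.pr_sum]
  conv_lhs => rw [← D.pr_idem, D.pr_sym]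
  exact real_inner_self_eq_norm_sq _

/-- `perp z` as a linear map -/
def c3A (z : X Z) : X H →ₗ[ℝ] X H := (D.exists_perp_lin z).choose

theorem c3A_apply (z : X Z) (y : X H) : D.c3A z y = D.perp z y := (D.exists_perp_lin z).choose_spec.1 y

theorem c3A_sym (z : X Z) (u v : X H) : ⟪D.c3A z u, v⟫_ℝ = ⟪u, D.c3A z v⟫_ℝ :=
  (D.exists_perp_lin z).choose_spec.2.1 u v

theorem c3A_idem {z : X Z} (hz : z ∈ D.reg) (y : X H) : D.c3A z (D.c3A z y) = D.c3A z y :=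
  (D.exists_perp_lin z).choose_spec.2.2.1 hz y

theorem c3A_pr (z : X Z) (p : P) (y : X H) :
    D.c3A z (lift 9 (D.pr p) y) = lift 9 (D.pr p) (D.c3A z y) :=
  LinearMap.congr_fun ((D.exists_perp_lin z).choose_spec.2.2.2.1 p) y

theorem c3A_trace {z : X Z} (hz : z ∈ D.reg) (p : P) :
    LinearMap.trace ℝ (X H) (lift 9 (D.pr p) ∘ₗ D.c3A z) = 8 * D.m p :=
  (D.exists_perp_lin z).choose_spec.2.2.2.2.2.2 hz p

theorem c3_inner_S {z : X Z} (hz : z ∈ D.reg) (y : X H) :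
    ⟪lift 9 (D.Mop z) (D.c3A z y), y⟫_ℝ = ∑ p, D.M p z * ‖lift 9 (D.pr p) (D.c3A z y)‖ ^ 2 := by
  rw [← D.c3_inner_sum, ← D.c3_lift_Mop, D.c3_lift_Mop, sum_inner, sum_inner]
  refine Finset.sum_congr rfl fun p _ => ?_
  rw [inner_smul_left, inner_smul_left, ← D.c3A_sym, D.c3A_pr, D.c3A_idem hz]

/-- `Phi z` as a linear map -/
def c3Phi (z : X Z) : X H →ₗ[ℝ] H where
  toFun := D.Phi z
  map_add' u v := by simp [Phi, Finset.sum_add_distrib]
  map_smul' r v := by simp [Phi, Finset.smul_sum]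

/-- the oscillator of a fibre -/
def cosc {z : X Z} (hz : z ∈ D.reg) : COsc (X H) H where
  Pr := LinearMap.toContinuousLinearMap (D.c3A z)
  S := LinearMap.toContinuousLinearMap (lift 9 (D.Mop z) ∘ₗ D.c3A z)
  Φ := LinearMap.toContinuousLinearMap (D.c3Phi z)
  j := D.jac z
  j_pos := Finset.prod_pos fun p _ => pow_pos (hz p) _
  Pr_sym := D.c3A_sym z
  S_sym u v := by
    show ⟪lift 9 (D.Mop z) (D.c3A z u), v⟫_ℝ = ⟪u, lift 9 (D.Mop z) (D.c3A z v)⟫_ℝ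
    rw [D.c3_lift_Mop, D.c3_lift_Mop, sum_inner, inner_sum]
    refine Finset.sum_congr rfl fun p _ => ?_
    rw [inner_smul_left, inner_smul_right, D.c3_inner_pr, D.c3A_sym, D.c3A_pr]; rfl
  S_Pr v := by
    show lift 9 (D.Mop z) (D.c3A z (D.c3A z v)) = lift 9 (D.Mop z) (D.c3A z v)
    rw [D.c3A_idem hz]
  Φ_Pr v := by
    show D.Phi z (D.c3A z v) = 0
    rw [D.c3A_apply, D.Phi_perp hz]
  S_nonneg v := by
    show 0 ≤ ⟪lift 9 (D.Mop z) (D.c3A z v), v⟫_ℝ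
    rw [D.c3_inner_S hz]
    exact Finset.sum_nonneg fun p _ => mul_nonneg (hz p).le (sq_nonneg _)

variable {z : X Z} (hz : z ∈ D.reg)

theorem cosc_Pr (y : X H) : (D.cosc hz).Pr y = D.perp z y := D.c3A_apply z y

theorem cosc_S (y : X H) : (D.cosc hz).S y = lift 9 (D.Mop z) (D.perp z y) := by
  rw [← D.c3A_apply]; rfl

theorem cosc_w (y : X H) : (D.cosc hz).w y = D.wt z y := rfl

theorem cosc_inner (y : X H) :
    ⟪(D.cosc hz).S y, y⟫_ℝ = ∑ p, D.M p z * ‖lift 9 (D.pr p) (D.perp z y)‖ ^ 2 := by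
  rw [← D.c3A_apply]; exact D.c3_inner_S hz y

theorem cosc_h (y : X H) : (D.cosc hz).h y = D.hq z y := by
  rw [COsc.h, cosc_inner, hq]

theorem cosc_tr : (D.cosc hz).tr = 2 * (4 * ∑ p, D.m p * D.M p z) := by
  have : (D.cosc hz).S.toLinearMap = ∑ p, D.M p z • (lift 9 (D.pr p) ∘ₗ D.c3A z) := by
    ext1 y
    rw [LinearMap.sum_apply]
    exact D.c3_lift_Mop z _
  rw [COsc.tr, this, map_sum, Finset.mul_sum, Finset.mul_sum]
  refine Finset.sum_congr rfl fun p _ => ?_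
  rw [map_smul, D.c3A_trace hz, smul_eq_mul]; ring

theorem cosc_sc' {κ ρ : ℝ} (hκ : 0 < κ) (h0 : 0 < ρ) (hM : ∀ p, ρ ≤ κ * D.M p z) :
    (D.cosc hz).Sc κ ρ where
  κ_pos := hκ
  ρ_pos := h0
  idem := D.c3A_idem hz
  h1 y := by
    rw [cosc_inner, cosc_Pr, D.c3_norm_sq, Finset.mul_sum, Finset.mul_sum]
    refine Finset.sum_le_sum fun p _ => ?_
    rw [← mul_assoc]
    exact mul_le_mul_of_nonneg_right (hM p) (sq_nonneg _)
  h2 y := by
    rw [cosc_inner, cosc_S, D.c3_lift_Mop, D.c3_norm_sum, Finset.mul_sum, Finset.mul_sum]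
    refine Finset.sum_le_sum fun p _ => ?_
    have := mul_le_mul_of_nonneg_right (hM p)
      (mul_nonneg (hz p).le (sq_nonneg ‖lift 9 (D.pr p) (D.perp z y)‖))
    nlinarith
  h3 y := by
    have e : y - (D.cosc hz).Pr y = D.lam z (D.Phi z y) := by rw [cosc_Pr, perp, sub_sub_cancel]
    rw [e]
    show _ ≤ κ * ‖D.Phi z y‖
    refine (abs_le_of_sq_le_sq' ?_ (by positivity)).2
    rw [mul_pow, mul_pow, D.norm_lam_sq hz, D.c3_norm_sq_H, Finset.mul_sum, Finset.mul_sum]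
    refine Finset.sum_le_sum fun p _ => ?_
    have h1 : ρ ^ 2 ≤ (κ * D.M p z) ^ 2 := by gcongr; exact hM p
    have h2 := hz p
    rw [← mul_div_assoc, div_le_iff₀ (by positivity)]
    nlinarith [sq_nonneg ‖D.pr p (D.Phi z y)‖]

theorem cosc_sc {κ : ℝ} (hκ : 0 < κ) (h0 : z ≠ 0) (hM : ∀ p, ‖z‖ ≤ κ * D.M p z) :
    (D.cosc hz).Sc κ ‖z‖ := D.cosc_sc' hz hκ (norm_pos_iff.2 h0) hM

theorem cosc_sc1 : (D.cosc hz).Sc (1 + ∑ p, (D.M p z)⁻¹) 1 := by
  have h0 : ∀ p, 0 ≤ (D.M p z)⁻¹ := fun p => (inv_pos.2 (hz p)).le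
  refine D.cosc_sc' hz (add_pos_of_pos_of_nonneg one_pos (Finset.sum_nonneg fun p _ => h0 p))
    one_pos fun p => ?_
  have h1 := Finset.single_le_sum (fun p _ => h0 p) (Finset.mem_univ p)
  have h2 := mul_inv_cancel₀ (hz p).ne'
  nlinarith [hz p]

end Levi

end Crest.Agent.R330

end
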