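import Crest.Agent.R330.BC.C
import Crest.Agent.R330.BC3.C
import Crest.Agent.R330.BC3.D0

/-! # Row 330, BC3/D: moments of the oscillator of a fibre. -/

set_option autoImplicit false
set_option linter.unusedSectionVars false

noncomputable section

open MeasureTheory Filter Topology
open scoped InnerProductSpace ContDiff Matrix
open Crest.MathPhysics.MatrixQM (GammaNine)

namespace Crest.Agent.R330

variable {E Z L H F : Type}
  [NormedAddCommGroup E] [InnerProductSpace ℝ E] [FiniteDimensional ℝ E]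
  [NormedAddCommGroup Z] [InnerProductSpace ℝ Z] [FiniteDimensional ℝ Z]
  [NormedAddCommGroup L] [InnerProductSpace ℝ L] [FiniteDimensional ℝ L]
  [NormedAddCommGroup H] [InnerProductSpace ℝ H] [FiniteDimensional ℝ H]
  [NormedAddCommGroup F] [InnerProductSpace ℂ F] [FiniteDimensional ℂ F]
  [MeasurableSpace E] [BorelSpace E] [MeasurableSpace Z] [BorelSpace Z]
  [MeasurableSpace L] [BorelSpace L] [MeasurableSpace H] [BorelSpace H]
  {P : Type} [Fintype P] {𝔤 : Lie E} (D : Levi 𝔤 Z L H P) (C : Cl (Th E) F) (σ : Spn)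

namespace Levi

variable {z : X Z} (hz : z ∈ D.reg)

theorem cosc_int1 : Integrable fun y => (D.cosc hz).w y * Real.exp (-2 * (D.cosc hz).h y) := by
  simpa only [cosc_w, cosc_h, pow_zero, mul_one] using D.integrable_moment hz (a := 2) two_pos 0

include hz in
theorem cosc_int_p (p : P) : Integrable fun y =>
    D.wt z y * Real.exp (-2 * D.hq z y) * ‖lift 9 (D.pr p) (D.perp z y)‖ ^ 2 := by
  refine (D.integrable_moment hz (a := 2) two_pos 2).mono' ?_ (Eventually.of_forall fun y => ?_)
  · have c1 := (D.cosc hz).continuous_w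
    have c2 := (D.cosc hz).continuous_h
    have c3 : Continuous fun y => lift 9 (D.pr p) ((D.cosc hz).Pr y) :=
      (LinearMap.continuous_of_finiteDimensional _).comp (D.cosc hz).Pr.continuous
    simp only [← D.cosc_w hz, ← D.cosc_h hz, ← D.cosc_Pr hz]
    exact Continuous.aestronglyMeasurable (by fun_prop)
  · have := D.wt_nonneg z y
    rw [Real.norm_of_nonneg (by positivity)]
    refine mul_le_mul_of_nonneg_left ?_ (by positivity)
    have h1 : ‖lift 9 (D.pr p) (D.perp z y)‖ ^ 2 ≤ ‖D.perp z y‖ ^ 2 := by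
      rw [D.c3_norm_sq (D.perp z y)]
      exact Finset.single_le_sum (f := fun p => ‖lift 9 (D.pr p) (D.perp z y)‖ ^ 2)
        (fun _ _ => sq_nonneg _) (Finset.mem_univ p)
    rw [D.norm_sq_perp_lam hz y]
    nlinarith [sq_nonneg ‖D.lam z (D.Phi z y)‖]

theorem cosc_h_eq (y : X H) : (D.cosc hz).w y * Real.exp (-2 * (D.cosc hz).h y) * (D.cosc hz).h y =
    ∑ p, D.M p z / 2 *
      (D.wt z y * Real.exp (-2 * D.hq z y) * ‖lift 9 (D.pr p) (D.perp z y)‖ ^ 2) := by
  rw [cosc_w, cosc_h]
  conv_lhs => rw [show D.wt z y * Real.exp (-2 * D.hq z y) * D.hq z y =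
    D.wt z y * Real.exp (-2 * D.hq z y) *
      (1 / 2 * ∑ p, D.M p z * ‖lift 9 (D.pr p) (D.perp z y)‖ ^ 2) from rfl]
  rw [Finset.mul_sum, Finset.mul_sum]
  exact Finset.sum_congr rfl fun p _ => by ring

theorem cosc_int2 :
    Integrable fun y => (D.cosc hz).w y * Real.exp (-2 * (D.cosc hz).h y) * (D.cosc hz).h y := by
  simp only [cosc_h_eq]
  exact integrable_finsetSum _ fun p _ => (D.cosc_int_p hz p).const_mul _

theorem cosc_moment : ∫ y, (D.cosc hz).w y * Real.exp (-2 * (D.cosc hz).h y) * (D.cosc hz).h y ≤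
    (2 * ∑ p, (D.m p : ℝ)) * ∫ y, (D.cosc hz).w y * Real.exp (-2 * (D.cosc hz).h y) := by
  simp only [cosc_h_eq]
  rw [integral_finsetSum _ fun p _ => (D.cosc_int_p hz p).const_mul _]
  simp only [cosc_w, cosc_h, ← D.nu_sq, integral_const_mul, D.moment_norm hz]
  rw [Finset.mul_sum, Finset.sum_mul]
  refine le_of_eq (Finset.sum_congr rfl fun p _ => ?_)
  have := (hz p).ne'
  field_simp; ring

end Levi

end Crest.Agent.R330

end
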