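import Crest.Agent.R330.BC.A

/-! # Row 330, BC3/E0: restriction to a fibre. -/

set_option autoImplicit false
set_option linter.unusedSectionVars false

noncomputable section

open MeasureTheory Filter Topology
open scoped InnerProductSpace ContDiff Matrix
open Crest.MathPhysics.MatrixQM (GammaNine)

namespace Crest.Agent.R330

variable {E Z L H F : Type}
  [NormedAddCommGroup E] [InnerProductSpace ℝ E] [FiniteDimensional ℝ E]
  [NormedAddCommGroup Z] [InnerProductSpace ℝ Z] [FiniteDimensional ℝ Z]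
  [NormedAddCommGroup L] [InnerProductSpace ℝ L] [FiniteDimensional ℝ L]
  [NormedAddCommGroup H] [InnerProductSpace ℝ H] [FiniteDimensional ℝ H]
  [NormedAddCommGroup F] [InnerProductSpace ℂ F] [FiniteDimensional ℂ F]
  [MeasurableSpace E] [BorelSpace E] [MeasurableSpace Z] [BorelSpace Z]
  [MeasurableSpace L] [BorelSpace L] [MeasurableSpace H] [BorelSpace H]
  {P : Type} [Fintype P] {𝔤 : Lie E} (D : Levi 𝔤 Z L H P) (C : Cl (Th E) F) (σ : Spn)

namespace Levi

theorem c3_contDiff_asm (z : X Z) (l : X L) : ContDiff ℝ ∞ (D.asm z l) :=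
  contDiff_const.add (liftI 9 D.iH).toContinuousLinearMap.contDiff

theorem c3_hasFDerivAt_asm (z : X Z) (l : X L) (y : X H) :
    HasFDerivAt (D.asm z l) (liftI 9 D.iH).toContinuousLinearMap y :=
  (liftI 9 D.iH).toContinuousLinearMap.hasFDerivAt.const_add _

theorem c3_isometry_asm (z : X Z) (l : X L) : Isometry (D.asm z l) :=
  (isometry_add_left _).comp (liftI 9 D.iH).isometry

variable {u : X E → F}

theorem c3_fib_contDiff (hu : Core u) (z : X Z) (l : X L) :
    ContDiff ℝ 1 fun y => u (D.asm z l y) :=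
  (hu.1.comp (D.c3_contDiff_asm z l)).of_le (by simp)

theorem c3_fib_supp (hu : Core u) (z : X Z) (l : X L) :
    HasCompactSupport fun y => u (D.asm z l y) :=
  hu.2.comp_isClosedEmbedding (D.c3_isometry_asm z l).isClosedEmbedding

theorem c3_fib_fderiv (hu : Core u) (z : X Z) (l : X L) (y v : X H) :
    fderiv ℝ (fun y => u (D.asm z l y)) y v = fderiv ℝ u (D.asm z l y) (liftI 9 D.iH v) := by
  have h1 := ((hu.1.differentiable (by simp)) (D.asm z l y)).hasFDerivAt.comp y
    (D.c3_hasFDerivAt_asm z l y)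
  rw [show (fun y => u (D.asm z l y)) = u ∘ D.asm z l from rfl, h1.fderiv]; rfl

theorem c3_fib_gp (hu : Core u) {z : X Z} (hz : z ∈ D.reg) (l : X L) (y : X H) :
    (D.cosc hz).gp (fun y => u (D.asm z l y)) y = D.gperp u (D.asm z l y) := by
  simp only [COsc.gp, gperp, D.c3_fib_fderiv hu, cosc_Pr, zc_asm]

theorem c3_fib_gsq (hu : Core u) (z : X Z) (l : X L) (y : X H) :
    gsq (fun y => u (D.asm z l y)) y ≤ gsq u (D.asm z l y) := by
  have := sum_fderiv_map_sq_le u (D.asm z l y) (liftI 9 D.iH).toLinearMap 1 fun v => by simp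
  simpa [gsq, D.c3_fib_fderiv hu] using this

theorem c3_norm_Pi_le (G : GammaNine) {z : X Z} (hz : z ∈ D.reg) (v : F) :
    ‖D.Pi C G z v‖ ≤ ‖v‖ := by
  have h1 := (D.CH C).vac_sa (D.isCx_J G hz)
  have h2 := (D.CH C).vac_idem (D.isCx_J G hz)
  have h3 : ⟪D.Pi C G z v, D.Pi C G z v⟫_ℂ = ⟪v, D.Pi C G z v⟫_ℂ := by
    have := h1.isSymmetric v (D.Pi C G z v)
    have h4 : (D.CH C).vac (D.J G z) ((D.CH C).vac (D.J G z) v) = (D.CH C).vac (D.J G z) v :=
      DFunLike.congr_fun h2 v
    simpa [Pi, h4] using this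
  have h5 : ‖D.Pi C G z v‖ ^ 2 ≤ ‖v‖ * ‖D.Pi C G z v‖ := by
    rw [← inner_self_eq_norm_sq (𝕜 := ℂ), h3]
    exact re_inner_le_norm _ _
  rcases (norm_nonneg (D.Pi C G z v)).eq_or_lt with h | h
  · rw [← h]; exact norm_nonneg _
  · nlinarith

end Levi

end Crest.Agent.R330

end
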