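import Crest.Agent.R330.BC3.D
import Crest.Agent.R330.BC3.E0

/-! # Row 330, BC3/E: inequalities on a fibre. -/

set_option autoImplicit false
set_option linter.unusedSectionVars false

noncomputable section

open MeasureTheory Filter Topology
open scoped InnerProductSpace ContDiff Matrix
open Crest.MathPhysics.MatrixQM (GammaNine)

namespace Crest.Agent.R330

variable {E Z L H F : Type}
  [NormedAddCommGroup E] [InnerProductSpace ℝ E] [FiniteDimensional ℝ E]
  [NormedAddCommGroup Z] [InnerProductSpace ℝ Z] [FiniteDimensional ℝ Z]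
  [NormedAddCommGroup L] [InnerProductSpace ℝ L] [FiniteDimensional ℝ L]
  [NormedAddCommGroup H] [InnerProductSpace ℝ H] [FiniteDimensional ℝ H]
  [NormedAddCommGroup F] [InnerProductSpace ℂ F] [FiniteDimensional ℂ F]
  [MeasurableSpace E] [BorelSpace E] [MeasurableSpace Z] [BorelSpace Z]
  [MeasurableSpace L] [BorelSpace L] [MeasurableSpace H] [BorelSpace H]
  {P : Type} [Fintype P] {𝔤 : Lie E} (D : Levi 𝔤 Z L H P) (C : Cl (Th E) F) (σ : Spn)

namespace Levi

variable {u : X E → F}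

/-- The oscillator bound on a fibre. -/
theorem c3_fib_osc (hu : Core u) {z : X Z} (hz : z ∈ D.reg) (l : X L) {g₁ g₂ : X H → ℝ} {a : ℝ}
    (ha : 0 ≤ a) (h₁ : Integrable fun y => D.wt z y * g₁ y)
    (h₂ : Integrable fun y => D.wt z y * g₂ y)
    (h : ∀ y, D.wt z y ≠ 0 → g₁ y + a * (D.gperp u (D.asm z l y) +
      ‖lift 9 (D.Mop z) (D.perp z y)‖ ^ 2 * ‖u (D.asm z l y)‖ ^ 2 -
      2 * (4 * ∑ p, D.m p * D.M p z) * ‖u (D.asm z l y)‖ ^ 2) ≤ g₂ y) :
    ∫ y, D.wt z y * g₁ y ≤ ∫ y, D.wt z y * g₂ y := by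
  have hU := D.c3_fib_contDiff hu z l
  have hc := D.c3_fib_supp hu z l
  have key := (D.cosc hz).ground hU hc
  have h0 : 0 ≤ ∫ y, (D.cosc hz).w y * (D.cosc hz).gd (fun y => u (D.asm z l y)) y :=
    integral_nonneg fun y => mul_nonneg ((D.cosc hz).w_nonneg y) ((D.cosc hz).gd_nonneg _ y)
  have i1 := (D.cosc hz).integrable_gp hU hc
  have i2 := (D.cosc hz).integrable_mul hU hc (f := fun y => ‖(D.cosc hz).S y‖ ^ 2)
    ((D.cosc hz).S.continuous.norm.pow 2)
  have i3 := (D.cosc hz).integrable_sq hU hc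
  rw [key] at h0
  simp only [cosc_w, D.c3_fib_gp hu, cosc_S, cosc_tr] at h0 i1 i2 i3
  have := integral_mono (h₁.fun_add (((i1.fun_add i2).sub'
    (i3.const_mul (2 * (4 * ∑ p, D.m p * D.M p z)))).const_mul a)) h₂ fun y => by
      by_cases hy : D.wt z y = 0
      · simp [hy]
      · have := mul_le_mul_of_nonneg_left (h y hy) (D.wt_nonneg z y)
        refine le_trans (le_of_eq ?_) this
        ring
  rw [integral_add h₁ (((i1.fun_add i2).sub' (i3.const_mul _)).const_mul a), integral_const_mul,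
    integral_sub (i1.fun_add i2) (i3.const_mul _), integral_add i1 i2, integral_const_mul] at this
  nlinarith [mul_nonneg ha h0]

/-- Minimality of the projection. -/
theorem c3_fib_min (hu : Core u) {z : X Z} (hz : z ∈ D.reg) (l : X L) (c : F)
    (hi : Integrable fun y => D.wt z y * ‖u (D.asm z l y) - Real.exp (-D.hq z y) • c‖ ^ 2) :
    (∫ y, D.wt z y * ‖u (D.asm z l y)‖ ^ 2) - ‖D.red C σ.G u (z, l)‖ ^ 2 ≤
      (∫ y, D.wt z y * ‖u (D.asm z l y) - Real.exp (-D.hq z y) • c‖ ^ 2) +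
        ∫ y, D.wt z y * (‖u (D.asm z l y)‖ ^ 2 - ‖D.Pi C σ.G z (u (D.asm z l y))‖ ^ 2) := by
  have hU := D.c3_fib_contDiff hu z l
  have hc := D.c3_fib_supp hu z l
  have cw : Continuous (D.wt z) := (D.cosc hz).continuous_w
  have ch : Continuous (D.hq z) := by
    have := (D.cosc hz).continuous_h
    rwa [show (D.cosc hz).h = D.hq z from funext (D.cosc_h hz)] at this
  have cU := hU.continuous
  set U := fun y => u (D.asm z l y) with hUdef
  set Pi := D.Pi C σ.G z with hPi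
  have cP := Pi.continuous
  have i0 : Integrable fun y => D.wt z y * ‖U y‖ ^ 2 := (D.cosc hz).integrable_sq hU hc
  have i1 : Integrable fun y => D.wt z y * Real.exp (-2 * D.hq z y) := by
    simpa only [cosc_w, cosc_h] using D.cosc_int1 hz
  have i2 : Integrable fun y => ((D.wt z y * Real.exp (-D.hq z y) : ℝ) : ℂ) • Pi (U y) :=
    bc3_integrable hc (by fun_prop) fun y hy => by simp [image_eq_zero_of_notMem_tsupport hy]
  have i3 : Integrable fun y => D.wt z y * (‖U y‖ ^ 2 - ‖Pi (U y)‖ ^ 2) :=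
    bc3_integrable hc (by fun_prop) fun y hy => by simp [image_eq_zero_of_notMem_tsupport hy]
  have i4 : Integrable fun y =>
      (⟪Pi c, ((D.wt z y * Real.exp (-D.hq z y) : ℝ) : ℂ) • Pi (U y)⟫_ℂ).re :=
    (i2.const_inner (𝕜 := ℂ) (Pi c)).re
  set T := ∫ y, ((D.wt z y * Real.exp (-D.hq z y) : ℝ) : ℂ) • Pi (U y) with hT
  have e4 : ∫ y, (⟪Pi c, ((D.wt z y * Real.exp (-D.hq z y) : ℝ) : ℂ) • Pi (U y)⟫_ℂ).re =
      (⟪Pi c, T⟫_ℂ).re := by
    rw [hT, ← integral_inner i2]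
    exact integral_re (i2.const_inner (𝕜 := ℂ) (Pi c))
  have key := integral_mono ((i0.sub' (i4.const_mul 2)).fun_add (i1.mul_const (‖Pi c‖ ^ 2)))
    (hi.fun_add i3) fun y => by
      have h1 : ‖Pi (U y - Real.exp (-D.hq z y) • c)‖ ^ 2 ≤ ‖U y - Real.exp (-D.hq z y) • c‖ ^ 2 := by
        gcongr; exact D.c3_norm_Pi_le C σ.G hz _
      have h2 : Pi (U y - Real.exp (-D.hq z y) • c) =
          Pi (U y) + (-Real.exp (-D.hq z y)) • Pi c := by
        rw [map_sub, neg_smul, ← sub_eq_add_neg, ContinuousLinearMap.map_smul_of_tower]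
      have hE : Real.exp (-D.hq z y) ^ 2 = Real.exp (-2 * D.hq z y) := by
        rw [← Real.exp_nat_mul]; congr 1; push_cast; ring
      rw [h2, bc3_norm_add_smul_sq, neg_sq, hE] at h1
      have h3 := mul_le_mul_of_nonneg_left h1 (D.wt_nonneg z y)
      simp only [inner_smul_right, Complex.re_ofReal_mul]
      show _ ≤ D.wt z y * ‖U y - Real.exp (-D.hq z y) • c‖ ^ 2 + _
      nlinarith
  rw [integral_add (i0.sub' (i4.const_mul 2)) (i1.mul_const _), integral_sub i0 (i4.const_mul 2),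
    integral_const_mul, integral_mul_const, e4, ← D.nu_sq, integral_add hi i3] at key
  refine le_trans ?_ key
  have hν := D.nu_pos hz
  have e5 : ‖T‖ = D.nu z * ‖D.red C σ.G u (z, l)‖ := by
    have : D.red C σ.G u (z, l) = (((D.nu z)⁻¹ : ℝ) : ℂ) • T := rfl
    rw [this, norm_smul, Complex.norm_real, Real.norm_of_nonneg (inv_nonneg.2 hν.le)]
    field_simp
  have h6 : (⟪Pi c, T⟫_ℂ).re ≤ ‖Pi c‖ * ‖T‖ := re_inner_le_norm (𝕜 := ℂ) _ _
  rw [e5] at h6
  nlinarith [sq_nonneg (‖D.red C σ.G u (z, l)‖ - D.nu z * ‖Pi c‖)]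

/-- Completeness on a fibre. -/
theorem c3_fib_complete {κ η : ℝ} (hκ : 1 ≤ κ) (hη : 0 < η) : ∃ c₁ : ℝ, κ ≤ c₁ ∧
    ∀ (θ R : ℝ) (u : X E → F), 0 < θ → θ ≤ 1 / 2 → 0 < R → D.Loc C σ.G ∅ κ θ R u →
      ∀ (z : X Z) (l : X L), z ≠ 0 → (∀ p, ‖z‖ ≤ κ * D.M p z) → ∀ g : X H → ℝ,
      (Integrable fun y => D.wt z y * g y) →
      (∀ y, D.wt z y ≠ 0 → c₁ / ‖z‖ * (gsq u (D.asm z l y) +
        ‖lift 9 (D.Mop z) (D.perp z y)‖ ^ 2 * ‖u (D.asm z l y)‖ ^ 2 -
        2 * (4 * ∑ p, D.m p * D.M p z) * ‖u (D.asm z l y)‖ ^ 2) +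
        c₁ / ‖z‖ ^ 2 * gsq u (D.asm z l y) +
        η / ‖z‖ * (‖lift 9 (D.Mop z) (D.perp z y)‖ ^ 2 * ‖u (D.asm z l y)‖ ^ 2) +
        η * ‖u (D.asm z l y)‖ ^ 2 +
        (‖u (D.asm z l y)‖ ^ 2 - ‖D.Pi C σ.G z (u (D.asm z l y))‖ ^ 2) ≤ g y) →
      ∫ y, D.wt z y * ‖D.dfc C σ.G u (D.asm z l y)‖ ^ 2 ≤ ∫ y, D.wt z y * g y := by
  have hκ0 : 0 < κ := by linarith
  obtain ⟨c₁, hc₁, H1⟩ := COsc.var (X H) H F (κ := κ) (m₀ := 2 * ∑ p, (D.m p : ℝ)) hκ0
    (by positivity) hη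
  refine ⟨c₁, hc₁, fun θ R u hθ hθ' hR hu z l h0 hM g hg h => ?_⟩
  have hρ : 0 < ‖z‖ := norm_pos_iff.2 h0
  have hz : z ∈ D.reg := fun p => by
    have := hM p
    by_contra h1
    nlinarith
  have hU := D.c3_fib_contDiff hu.1 z l
  have hc := D.c3_fib_supp hu.1 z l
  obtain ⟨c, hi, hv⟩ := H1 (D.cosc hz) ‖z‖ (D.cosc_sc hz hκ0 h0 hM) (D.cosc_int1 hz) (D.cosc_int2 hz)
    (D.cosc_moment hz) _ hU hc
  rw [(D.cosc hz).ground hU hc] at hv
  have i1 := (D.cosc hz).integrable_gp hU hc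
  have i2 := (D.cosc hz).integrable_mul hU hc (f := fun y => ‖(D.cosc hz).S y‖ ^ 2)
    ((D.cosc hz).S.continuous.norm.pow 2)
  have i3 := (D.cosc hz).integrable_sq hU hc
  have i4 := (D.cosc hz).integrable_gsq hU hc
  have cw : Continuous (D.wt z) := (D.cosc hz).continuous_w
  have cU := hU.continuous
  have cP := (D.Pi C σ.G z).continuous
  have i5 : Integrable fun y =>
      D.wt z y * (‖u (D.asm z l y)‖ ^ 2 - ‖D.Pi C σ.G z (u (D.asm z l y))‖ ^ 2) :=
    bc3_integrable hc (cw.mul ((cU.norm.pow 2).sub ((cP.comp cU).norm.pow 2))) fun y hy => by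
      have : u (D.asm z l y) = 0 :=
        image_eq_zero_of_notMem_tsupport (f := fun y => u (D.asm z l y)) hy
      simp [this]
  simp only [cosc_w, cosc_h, D.c3_fib_gp hu.1, cosc_S, cosc_tr] at hv hi i1 i2 i3 i4
  have hmin := D.c3_fib_min C σ hu.1 hz l c hi
  have hp := (D.pyth_fibre C σ hκ hθ hθ' hR hu z l).2
  have hc0 : 0 ≤ c₁ := by linarith
  have := integral_mono (((((((i1.fun_add i2).sub'
    (i3.const_mul (2 * (4 * ∑ p, D.m p * D.M p z)))).const_mul (c₁ / ‖z‖)).fun_add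
    (i4.const_mul (c₁ / ‖z‖ ^ 2))).fun_add (i2.const_mul (η / ‖z‖))).fun_add
    (i3.const_mul η)).fun_add i5) hg fun y => by
      by_cases hy : D.wt z y = 0
      · simp [hy]
      · have a1 := h y hy
        have a2 := D.c3_fib_gsq hu.1 z l y
        have a3 := D.gperp_add_glight_le u (x := D.asm z l y) (by rwa [zc_asm])
        have a4 : 0 ≤ D.glight u (D.asm z l y) := add_nonneg
          (Finset.sum_nonneg fun _ _ => sq_nonneg _) (Finset.sum_nonneg fun _ _ => sq_nonneg _)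
        have a5 : c₁ / ‖z‖ * D.gperp u (D.asm z l y) ≤ c₁ / ‖z‖ * gsq u (D.asm z l y) :=
          mul_le_mul_of_nonneg_left (by linarith) (by positivity)
        have a6 := mul_le_mul_of_nonneg_left a2 (show 0 ≤ c₁ / ‖z‖ ^ 2 by positivity)
        have a7 : c₁ / ‖z‖ * (D.gperp u (D.asm z l y) +
            ‖lift 9 (D.Mop z) (D.perp z y)‖ ^ 2 * ‖u (D.asm z l y)‖ ^ 2 -
            2 * (4 * ∑ p, D.m p * D.M p z) * ‖u (D.asm z l y)‖ ^ 2) +
            c₁ / ‖z‖ ^ 2 * gsq (fun y => u (D.asm z l y)) y +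
            η / ‖z‖ * (‖lift 9 (D.Mop z) (D.perp z y)‖ ^ 2 * ‖u (D.asm z l y)‖ ^ 2) +
            η * ‖u (D.asm z l y)‖ ^ 2 +
            (‖u (D.asm z l y)‖ ^ 2 - ‖D.Pi C σ.G z (u (D.asm z l y))‖ ^ 2) ≤ g y := by
          linarith
        refine le_trans (le_of_eq ?_) (mul_le_mul_of_nonneg_left a7 (D.wt_nonneg z y))
        ring
  rw [integral_add _ i5, integral_add _ (i3.const_mul _), integral_add _ (i2.const_mul _),
    integral_add _ (i4.const_mul _), integral_const_mul, integral_const_mul, integral_const_mul,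
    integral_const_mul, integral_sub (i1.fun_add i2) (i3.const_mul _), integral_add i1 i2,
    integral_const_mul] at this
  · linarith
  · exact ((i1.fun_add i2).sub' (i3.const_mul _)).const_mul _
  · exact (((i1.fun_add i2).sub' (i3.const_mul _)).const_mul _).fun_add (i4.const_mul _)
  · exact ((((i1.fun_add i2).sub' (i3.const_mul _)).const_mul _).fun_add
      (i4.const_mul _)).fun_add (i2.const_mul _)
  · exact (((((i1.fun_add i2).sub' (i3.const_mul _)).const_mul _).fun_add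
      (i4.const_mul _)).fun_add (i2.const_mul _)).fun_add (i3.const_mul _)

end Levi

end Crest.Agent.R330

end
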