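import Crest.Agent.R330.BC3.E0

/-! # Row 330, BC3/F: integrals over configuration space. -/

set_option autoImplicit false
set_option linter.unusedSectionVars false

noncomputable section

open MeasureTheory Filter Topology
open scoped InnerProductSpace ContDiff Matrix
open Crest.MathPhysics.MatrixQM (GammaNine)

namespace Crest.Agent.R330

variable {E Z L H F : Type}
  [NormedAddCommGroup E] [InnerProductSpace ℝ E] [FiniteDimensional ℝ E]
  [NormedAddCommGroup Z] [InnerProductSpace ℝ Z] [FiniteDimensional ℝ Z]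
  [NormedAddCommGroup L] [InnerProductSpace ℝ L] [FiniteDimensional ℝ L]
  [NormedAddCommGroup H] [InnerProductSpace ℝ H] [FiniteDimensional ℝ H]
  [NormedAddCommGroup F] [InnerProductSpace ℂ F] [FiniteDimensional ℂ F]
  [MeasurableSpace E] [BorelSpace E] [MeasurableSpace Z] [BorelSpace Z]
  [MeasurableSpace L] [BorelSpace L] [MeasurableSpace H] [BorelSpace H]
  {P : Type} [Fintype P] {𝔤 : Lie E} (D : Levi 𝔤 Z L H P) (C : Cl (Th E) F) (σ : Spn)

namespace Levi

variable {u : X E → F} {κ θ R : ℝ}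

theorem c3_Phi_lt {z : X Z} {y : X H} (h : D.wt z y ≠ 0) : ‖D.Phi z y‖ < 1 := by
  by_contra h1
  exact h (D.wt_eq_zero (by nlinarith [not_lt.1 h1]))

/-- geometric facts at a point of the support -/
structure CPt (κ θ R : ℝ) (x : X E) : Prop where
  tube : x ∈ D.tube κ θ
  far : R ≤ ‖x‖
  phi : ‖D.Phi (D.zc x) (D.yc x)‖ < 1

variable {D C σ}

theorem Loc.cpt (hu : D.Loc C σ.G ∅ κ θ R u) {x : X E} (hx : x ∈ tsupport u)
    (h : ‖D.Phi (D.zc x) (D.yc x)‖ < 1) : D.CPt κ θ R x :=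
  ⟨((hu.2 x h).1 hx).1, ((hu.2 x h).1 hx).2, h⟩

theorem CPt.half {x : X E} (h : D.CPt κ θ R x) (hθ : θ ≤ 1 / 2) : ‖x‖ ≤ 2 * ‖D.zc x‖ := by
  have := D.tube_norm_zc h.tube
  nlinarith [norm_nonneg x]

theorem CPt.pos {x : X E} (h : D.CPt κ θ R x) (hθ : θ ≤ 1 / 2) (hR : 0 < R) : 0 < ‖D.zc x‖ := by
  linarith [h.half hθ, h.far]

theorem CPt.cone {x : X E} (h : D.CPt κ θ R x) (p : P) : ‖D.zc x‖ ≤ κ * D.M p (D.zc x) :=
  (D.norm_zc_le x).trans (h.tube.1 p)

variable (D) in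
/-- functions continuous off `z = 0` and vanishing off the support of `u` -/
structure CGd (u : X E → F) (h : X E → ℝ) : Prop where
  cont : ContinuousOn h {x | D.zc x ≠ 0}
  zero : ∀ x, x ∉ tsupport u → h x = 0

theorem CGd.integrable (hu : D.Loc C σ.G ∅ κ θ R u) (hθ : θ ≤ 1 / 2) (hR : 0 < R) {h : X E → ℝ}
    (hh : D.CGd u h) : Integrable fun x => D.wtX x * h x := by
  have hK : IsCompact (tsupport u ∩ {x | ‖D.Phi (D.zc x) (D.yc x)‖ ^ 2 ≤ 1 / 2}) :=
    hu.1.2.isCompact.inter_right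
      (isClosed_le (D.contDiff_PhiX.continuous.norm.pow 2) continuous_const)
  refine IntegrableOn.integrable_of_forall_notMem_eq_zero
    ((D.continuous_wtX.continuousOn.mul (hh.cont.mono fun x hx => ?_)).integrableOn_compact hK)
    fun x hx => ?_
  · have h1 : ‖D.Phi (D.zc x) (D.yc x)‖ < 1 := by
      have := hx.2
      simp only [Set.mem_ofPred_eq] at this
      nlinarith [norm_nonneg (D.Phi (D.zc x) (D.yc x))]
    exact norm_pos_iff.1 ((hu.cpt hx.1 h1).pos hθ hR)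
  · by_cases h1 : x ∈ tsupport u
    · have h2 : D.wtX x = 0 := D.wt_eq_zero (le_of_not_ge fun h3 => hx ⟨h1, h3⟩)
      simp [h2]
    · simp [hh.zero x h1]

theorem CGd.add {h₁ h₂ : X E → ℝ} (a : D.CGd u h₁) (b : D.CGd u h₂) : D.CGd u fun x => h₁ x + h₂ x :=
  ⟨a.cont.add b.cont, fun x hx => by simp [a.zero x hx, b.zero x hx]⟩

theorem CGd.mul {f h : X E → ℝ} (hf : ContinuousOn f {x | D.zc x ≠ 0}) (a : D.CGd u h) :
    D.CGd u fun x => f x * h x :=
  ⟨hf.mul a.cont, fun x hx => by simp [a.zero x hx]⟩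

theorem CGd.cmul {h : X E → ℝ} (a : D.CGd u h) (c : ℝ) : D.CGd u fun x => c * h x :=
  a.mul continuousOn_const

variable (D)

theorem c3gd_sq (hu : Core u) : D.CGd u fun x => ‖u x‖ ^ 2 :=
  ⟨(hu.1.continuous.norm.pow 2).continuousOn, fun x hx => by
    simp [image_eq_zero_of_notMem_tsupport hx]⟩

theorem c3gd_gsq (hu : Core u) : D.CGd u (gsq u) :=
  ⟨(bc3_continuous_gsq (hu.1.of_le (by simp))).continuousOn, fun _ hx => bc3_gsq_eq_zero hx⟩

theorem c3gd_glight (hu : Core u) : D.CGd u (D.glight u) := by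
  have h1 : ContDiff ℝ 1 u := hu.1.of_le (by simp)
  refine ⟨Continuous.continuousOn ?_, fun x hx => ?_⟩
  · exact (continuous_finsetSum _ fun _ _ => (bc3_continuous_fderiv_apply h1 _).norm.pow 2).add
      (continuous_finsetSum _ fun _ _ => (bc3_continuous_fderiv_apply h1 _).norm.pow 2)
  · simp [glight, fderiv_of_notMem_tsupport ℝ hx]

variable (C σ)

theorem c3gd_Q (hu : Core u) (ε : ℝ) : D.CGd u fun x => ‖Qe 𝔤 C σ ε u x‖ ^ 2 := by
  have h1 : Core (Qe 𝔤 C σ ε u) := Core.dirac C _ (contDiff_wd 𝔤 σ ε contDiff_const) hu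
  refine ⟨(h1.1.continuous.norm.pow 2).continuousOn, fun x hx => ?_⟩
  have : Qe 𝔤 C σ ε u x = 0 :=
    image_eq_zero_of_notMem_tsupport fun h => hx (tsupport_dirac_subset C _ _ u h)
  simp [this]

theorem c3_continuous_yuk (ε : ℝ) (e : Th E) :
    Continuous fun x : X E => yuk 𝔤 σ ε (fun _ => 0) x e := by
  have h1 : ∀ i, Continuous fun x : X E => lift 16 (𝔤.br (x i)) e := fun i =>
    (PiLp.continuous_toLp 2 _).comp (continuous_pi fun a =>
      (𝔤.br.flip (e a)).continuous_of_finiteDimensional.comp (by fun_prop))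
  simp only [yuk, fderiv_fun_const, Pi.zero_apply, LinearMap.add_apply, LinearMap.sub_apply,
    LinearMap.sum_apply, LinearMap.comp_apply]
  exact ((continuous_finsetSum _ fun i _ =>
    (mat (σ.G.γ i)).continuous_of_finiteDimensional.comp (h1 i)).sub continuous_const).add
    continuous_const

theorem c3gd_edens (hu : Core u) (ε κ' : ℝ) : D.CGd u (edens 𝔤 C σ ε (fun _ => 0) κ' u) := by
  refine ⟨Continuous.continuousOn ?_, fun x hx => ?_⟩
  · have c1 := bc3_continuous_gsq (show ContDiff ℝ 1 u from hu.1.of_le (by simp))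
    have c2 := (contDiff_wd 𝔤 σ ε (f := fun _ => 0) contDiff_const).continuous
    have c3 := hu.1.continuous
    have c4 : Continuous fun x : X E => C.iS (yuk 𝔤 σ ε (fun _ => 0) x) := by
      unfold Cl.iS Cl.S
      exact (((continuous_finsetSum _ fun i _ => (C.contDiff_θ.continuous.comp
        (c3_continuous_yuk σ ε _)).mul continuous_const).const_smul (1 / 2 : ℂ)).const_smul Complex.I)
    exact ((continuous_const.mul c1).add ((continuous_const.mul (c2.norm.pow 2)).mul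
      (c3.norm.pow 2))).add (Complex.continuous_re.comp (c3.inner (c4.clm_apply c3)))
  · simp [edens, bc3_gsq_eq_zero hx, image_eq_zero_of_notMem_tsupport hx]

variable {C σ}

theorem c3_cont_zc : Continuous D.zc := D.zc.continuous_of_finiteDimensional
theorem c3_cont_lc : Continuous D.lc := D.lc.continuous_of_finiteDimensional

theorem c3_on_wl {wl : X Z × X L → ℝ} (hw : ContinuousOn wl {q | q.1 ≠ 0}) :
    ContinuousOn (fun x => wl (D.zc x, D.lc x)) {x | D.zc x ≠ 0} :=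
  hw.comp (D.c3_cont_zc.prodMk D.c3_cont_lc).continuousOn fun _ hx => hx

theorem c3_norm_ne {x : X E} (hx : D.zc x ≠ 0) : ‖x‖ ≠ 0 :=
  ((norm_pos_iff.2 hx).trans_le (D.norm_zc_le x)).ne'

theorem c3_on_div {f : X E → ℝ} (hf : ContinuousOn f {x | D.zc x ≠ 0}) (n : ℕ) :
    ContinuousOn (fun x => f x / ‖x‖ ^ n) {x | D.zc x ≠ 0} :=
  hf.div (continuous_norm.pow n).continuousOn fun _ hx => pow_ne_zero _ (D.c3_norm_ne hx)

theorem c3_on_div1 {f : X E → ℝ} (hf : ContinuousOn f {x | D.zc x ≠ 0}) :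
    ContinuousOn (fun x => f x / ‖x‖) {x | D.zc x ≠ 0} :=
  hf.div continuous_norm.continuousOn fun _ hx => D.c3_norm_ne hx

theorem c3_on_divz {f : X E → ℝ} (hf : ContinuousOn f {x | D.zc x ≠ 0}) (n : ℕ) :
    ContinuousOn (fun x => f x / ‖D.zc x‖ ^ n) {x | D.zc x ≠ 0} :=
  hf.div (D.c3_cont_zc.norm.pow n).continuousOn fun _ hx => pow_ne_zero _ (norm_ne_zero_iff.2 hx)

variable {D}

theorem c3_PI_add (hu : D.Loc C σ.G ∅ κ θ R u) (hθ : θ ≤ 1 / 2) (hR : 0 < R) {h₁ h₂ : X E → ℝ}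
    (a : D.CGd u h₁) (b : D.CGd u h₂) : D.PI (fun x => h₁ x + h₂ x) = D.PI h₁ + D.PI h₂ := by
  simp only [PI, mul_add]
  exact integral_add (a.integrable hu hθ hR) (b.integrable hu hθ hR)

theorem c3_PI_cmul (c : ℝ) (h : X E → ℝ) : D.PI (fun x => c * h x) = c * D.PI h := by
  simp only [PI, mul_left_comm _ c]
  exact integral_const_mul _ _

theorem c3_PI_mono (hu : D.Loc C σ.G ∅ κ θ R u) (hθ : θ ≤ 1 / 2) (hR : 0 < R) {h₁ h₂ : X E → ℝ}
    (a : D.CGd u h₁) (b : D.CGd u h₂) (h : ∀ x, D.CPt κ θ R x → h₁ x ≤ h₂ x) : D.PI h₁ ≤ D.PI h₂ := by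
  refine integral_mono (a.integrable hu hθ hR) (b.integrable hu hθ hR) fun x => ?_
  by_cases h1 : D.wtX x = 0
  · simp [h1]
  by_cases h2 : x ∈ tsupport u
  · exact mul_le_mul_of_nonneg_left (h x (hu.cpt h2 (D.c3_Phi_lt h1))) (D.wt_nonneg _ _)
  · simp [a.zero x h2, b.zero x h2]

theorem c3_PI_nonneg (hu : D.Loc C σ.G ∅ κ θ R u) {h : X E → ℝ}
    (a : D.CGd u h) (h0 : ∀ x, D.CPt κ θ R x → 0 ≤ h x) : 0 ≤ D.PI h := by
  refine integral_nonneg fun x => ?_
  by_cases h1 : D.wtX x = 0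
  · simp [h1]
  by_cases h2 : x ∈ tsupport u
  · exact mul_nonneg (D.wt_nonneg _ _) (h0 x (hu.cpt h2 (D.c3_Phi_lt h1)))
  · simp [a.zero x h2]

theorem c3_wtX_asm (z : X Z) (l : X L) (y : X H) : D.wtX (D.asm z l y) = D.wt z y := by
  rw [wtX, zc_asm, yc_asm]

theorem c3_PI_fibre {h₁ h₂ : X E → ℝ} (a : Integrable fun x => D.wtX x * h₁ x)
    (b : Integrable fun x => D.wtX x * h₂ x)
    (h : ∀ z l, ∫ y, D.wt z y * h₁ (D.asm z l y) ≤ ∫ y, D.wt z y * h₂ (D.asm z l y)) :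
    D.PI h₁ ≤ D.PI h₂ := by
  rw [PI, PI, D.integral_eq_fibre a, D.integral_eq_fibre b]
  refine integral_mono (D.measurePreserving_asm.integrable_comp_of_integrable a).integral_prod_left
    (D.measurePreserving_asm.integrable_comp_of_integrable b).integral_prod_left fun q => ?_
  simpa only [c3_wtX_asm] using h q.1 q.2

/-- restriction of a good function to a fibre -/
theorem CGd.fibre (hu : Core u) {h : X E → ℝ} (a : D.CGd u h) {z : X Z} (hz : z ∈ D.reg) (h0 : z ≠ 0)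
    (l : X L) : Integrable fun y => D.wt z y * h (D.asm z l y) := by
  have hc := (D.c3_isometry_asm z l).continuous
  have hK : IsCompact (D.asm z l ⁻¹' tsupport u) :=
    (D.c3_isometry_asm z l).isClosedEmbedding.isCompact_preimage hu.2.isCompact
  refine Continuous.integrable_of_hasCompactSupport ((D.cosc hz).continuous_w.mul
    (a.cont.comp_continuous hc fun y => by simpa using h0)) (HasCompactSupport.intro hK
      fun y hy => by simp [a.zero _ hy])

theorem c3_adm_one : Adm (Z := Z) (L := L) 0 fun _ => 1 :=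
  ⟨contDiffOn_const, fun q _ => ⟨one_pos, by
    rw [fderiv_fun_const, Pi.zero_apply, ContinuousLinearMap.opNorm_zero]; simp⟩⟩

theorem Adm.c3div {Ω : ℝ} {wl : X Z × X L → ℝ} (h : Adm Ω wl) :
    Adm (Ω + 1) fun q => wl q / ‖q.1‖ := by
  have ho : IsOpen {q : X Z × X L | q.1 ≠ 0} := isOpen_ne_fun continuous_fst continuous_const
  have hN : ContDiffOn ℝ ∞ (fun q : X Z × X L => ‖q.1‖) {q | q.1 ≠ 0} :=
    contDiffOn_fst.norm ℝ fun _ hq => hq
  refine ⟨h.1.div hN fun q hq => norm_ne_zero_iff.2 hq, fun q hq => ?_⟩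
  have hp : 0 < ‖q.1‖ := norm_pos_iff.2 hq
  obtain ⟨h1, h2⟩ := h.2 q hq
  refine ⟨div_pos h1 hp, ?_⟩
  have d1 : DifferentiableAt ℝ wl q :=
    (h.1.contDiffAt (ho.mem_nhds hq)).differentiableAt (by simp)
  have d2 : DifferentiableAt ℝ (fun q : X Z × X L => ‖q.1‖) q :=
    (hN.contDiffAt (ho.mem_nhds hq)).differentiableAt (by simp)
  have d3 : ‖fderiv ℝ (fun q : X Z × X L => ‖q.1‖) q‖ ≤ 1 := by
    have : LipschitzWith (1 * 1) fun q : X Z × X L => ‖q.1‖ :=
      lipschitzWith_one_norm.comp LipschitzWith.prod_fst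
    simpa using norm_fderiv_le_of_lipschitz ℝ this
  have d4 := d1.hasFDerivAt.mul ((hasDerivAt_inv hp.ne').comp_hasFDerivAt q d2.hasFDerivAt)
  have e : (fun q : X Z × X L => wl q / ‖q.1‖) = wl * ((fun y => y⁻¹) ∘ fun q : X Z × X L => ‖q.1‖) := by
    funext q; simp [div_eq_mul_inv]
  rw [e, d4.fderiv]
  refine (ContinuousLinearMap.opNorm_add_le _ _).trans ?_
  refine (add_le_add ((ContinuousLinearMap.opNorm_smul_le _ _).trans (mul_le_mul_of_nonneg_left
    (ContinuousLinearMap.opNorm_smul_le _ _) (norm_nonneg _)))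
    (ContinuousLinearMap.opNorm_smul_le _ _)).trans ?_
  simp only [Function.comp, norm_neg, norm_inv, norm_pow, norm_norm,
    Real.norm_of_nonneg h1.le, Pi.mul_apply]
  calc _ ≤ wl q * ((‖q.1‖ ^ 2)⁻¹ * 1) + ‖q.1‖⁻¹ * (Ω * wl q / ‖q.1‖) := by gcongr
    _ = _ := by field_simp; ring

theorem c3_adm_pow (n : ℕ) : Adm (Z := Z) (L := L) n fun q => 1 / ‖q.1‖ ^ n := by
  induction n with
  | zero => simpa using c3_adm_one (Z := Z) (L := L)
  | succ n ih =>
    have := ih.c3div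
    simp only [div_div, ← pow_succ] at this
    exact_mod_cast this

/-- dichotomy for fibres -/
theorem c3_fibre_cases {κ θ R : ℝ} {u : X E → F} (hu : D.Loc C σ.G ∅ κ θ R u) (hθ : θ ≤ 1 / 2)
    (hR : 0 < R) (z : X Z) (l : X L) :
    (z ≠ 0 ∧ (∀ p, ‖z‖ ≤ κ * D.M p z) ∧ R ≤ 2 * ‖z‖) ∨
      ∀ y, D.wt z y = 0 ∨ D.asm z l y ∉ tsupport u := by
  by_cases h : ∃ y, D.wt z y ≠ 0 ∧ D.asm z l y ∈ tsupport u
  · obtain ⟨y, h1, h2⟩ := h
    have hp := hu.cpt h2 (by rw [zc_asm, yc_asm]; exact D.c3_Phi_lt h1)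
    have a1 := hp.pos hθ hR
    have a2 := hp.cone
    have a3 := hp.far.trans (hp.half hθ)
    rw [zc_asm] at a1 a2 a3
    exact Or.inl ⟨norm_pos_iff.1 a1, a2, a3⟩
  · refine Or.inr fun y => ?_
    by_contra h'
    push Not at h'
    exact h ⟨y, h'⟩

variable (D) in
theorem c3_reg {κ : ℝ} {z : X Z} (hκ : 1 ≤ κ) (h0 : z ≠ 0) (hM : ∀ p, ‖z‖ ≤ κ * D.M p z) :
    z ∈ D.reg := fun p => by
  have := hM p
  have hρ : 0 < ‖z‖ := norm_pos_iff.2 h0
  by_contra h1
  nlinarith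

end Levi

end Crest.Agent.R330

end
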