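import Crest.Agent.R330.BC3.E
import Crest.Agent.R330.BC3.F

/-! # Row 330, BC3/G: completeness. -/

set_option autoImplicit false
set_option linter.unusedSectionVars false

noncomputable section

open MeasureTheory Filter Topology
open scoped InnerProductSpace ContDiff Matrix
open Crest.MathPhysics.MatrixQM (GammaNine)

namespace Crest.Agent.R330

variable {E Z L H F : Type}
  [NormedAddCommGroup E] [InnerProductSpace ℝ E] [FiniteDimensional ℝ E]
  [NormedAddCommGroup Z] [InnerProductSpace ℝ Z] [FiniteDimensional ℝ Z]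
  [NormedAddCommGroup L] [InnerProductSpace ℝ L] [FiniteDimensional ℝ L]
  [NormedAddCommGroup H] [InnerProductSpace ℝ H] [FiniteDimensional ℝ H]
  [NormedAddCommGroup F] [InnerProductSpace ℂ F] [FiniteDimensional ℂ F]
  [MeasurableSpace E] [BorelSpace E] [MeasurableSpace Z] [BorelSpace Z]
  [MeasurableSpace L] [BorelSpace L] [MeasurableSpace H] [BorelSpace H]
  {P : Type} [Fintype P] {𝔤 : Lie E} (D : Levi 𝔤 Z L H P) (C : Cl (Th E) F) (σ : Spn)

namespace Levi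

theorem c3_E0_le : ∃ e : ℝ, 0 ≤ e ∧ ∀ z : X Z, 0 ≤ 4 * ∑ p, D.m p * D.M p z ∧
    4 * ∑ p, D.m p * D.M p z ≤ e * ‖z‖ := by
  obtain ⟨b, hb, h⟩ := D.exists_M_le
  refine ⟨4 * ∑ p, (D.m p : ℝ) * b, by positivity, fun z => ⟨?_, ?_⟩⟩
  · exact mul_nonneg (by norm_num) (Finset.sum_nonneg fun p _ =>
      mul_nonneg (Nat.cast_nonneg _) (Real.sqrt_nonneg _))
  · rw [mul_assoc, Finset.sum_mul]
    refine mul_le_mul_of_nonneg_left (Finset.sum_le_sum fun p _ => ?_) (by norm_num)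
    rw [mul_assoc]
    exact mul_le_mul_of_nonneg_left (h p z) (Nat.cast_nonneg _)

variable {D C σ}

/-- (E1) with a nonnegative constant -/
theorem c3_E1 {κ θ R ε τ Ω : ℝ} {B₁ : ℝ → ℝ → ℝ} {u : X E → F} (hu : D.Loc C σ.G ∅ κ θ R u)
    (hθ : θ ≤ 1 / 2) (hR : 0 < R) (hE : D.E1 C σ ε B₁ u) (hτ : 0 < τ) (hτ' : τ < 1 / 2) (hΩ : 0 ≤ Ω)
    {wl : X Z × X L → ℝ} (hw : Adm Ω wl) :
    D.PI (fun x => wl (D.zc x, D.lc x) * edens 𝔤 C σ ε (fun _ => 0) (1 / 2 - τ) u x) ≤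
      2 * D.PI (fun x => wl (D.zc x, D.lc x) * ‖Qe 𝔤 C σ ε u x‖ ^ 2) +
        |B₁ τ Ω| * D.PI (fun x => wl (D.zc x, D.lc x) / ‖x‖ ^ 2 * ‖u x‖ ^ 2) := by
  refine (hE τ Ω hτ hτ' hΩ wl hw).trans (add_le_add le_rfl
    (mul_le_mul_of_nonneg_right (le_abs_self _) ?_))
  refine c3_PI_nonneg hu ((D.c3gd_sq hu.1).mul (D.c3_on_div (D.c3_on_wl hw.1.continuousOn) 2))
    fun x hx => ?_
  have := (hw.2 (D.zc x, D.lc x) (norm_pos_iff.1 (hx.pos hθ hR))).1
  positivity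

theorem CGd.fibre_zero {u : X E → F} {h : X E → ℝ} (a : D.CGd u h) {z : X Z} {l : X L}
    (hz : ∀ y, D.wt z y = 0 ∨ D.asm z l y ∉ tsupport u) :
    ∫ y, D.wt z y * h (D.asm z l y) = 0 := by
  refine integral_eq_zero_of_ae (Eventually.of_forall fun y => ?_)
  rcases hz y with h1 | h1
  · simp [h1]
  · simp [a.zero _ h1]

theorem c3_alg_complete {c₁ η e τ b κ r ρ E₀ gs V a Fd ed : ℝ} (hκ : 1 ≤ κ) (hc : κ ≤ c₁)
    (hη : 0 < η) (hτ : (2 * c₁ + 4 * η) * τ = η) (hb : (2 * c₁ + 4 * η) * b ≤ η)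
    (hr : 0 < r) (h1 : r ≤ ρ) (h2 : ρ ≤ 2 * r) (h3 : c₁ ≤ η * r) (h5 : E₀ ≤ e * r)
    (hgs : 0 ≤ gs) (hV : 0 ≤ V) (ha : 0 ≤ a) (hF : 0 ≤ Fd)
    (hed : (1 / 2 - τ) * gs + (1 - b) / 2 * V * a - (E₀ + b * ρ) * a + ρ / κ * Fd ≤ ed) :
    c₁ / r * (gs + V * a - 2 * E₀ * a) + c₁ / r ^ 2 * gs + η / r * (V * a) + η * a + Fd ≤
      (2 * c₁ + 4 * η) * (1 / r * ed) + (4 * e + 3) * η * a := by
  set C' := 2 * c₁ + 4 * η with hC'
  have hC0 : 0 < C' := by linarith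
  have hρ : 0 < ρ := by linarith
  have hVa : 0 ≤ V * a := mul_nonneg hV ha
  have k1 : c₁ / r * gs ≤ η * gs := by
    gcongr; rw [div_le_iff₀ hr]; exact h3
  have k2 : r * Fd ≤ C' * (ρ / κ * Fd) := by
    rw [← mul_assoc]
    gcongr
    rw [← mul_div_assoc, le_div_iff₀ (by linarith)]
    nlinarith
  have k3 : C' * b * (V * a) ≤ η * (V * a) := by gcongr
  have k4 : C' * b * (ρ * a) ≤ η * (2 * r * a) := by gcongr
  have k5 : η * (E₀ * a) ≤ η * (e * r * a) := by gcongr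
  have k6 := mul_le_mul_of_nonneg_left hed hC0.le
  have k7 : C' * τ * gs = η * gs := by rw [hτ]
  have main : c₁ * (gs + V * a - 2 * E₀ * a) + c₁ / r * gs + η * (V * a) + η * r * a + r * Fd ≤
      C' * ed + (4 * e + 3) * η * r * a := by
    have e1 : C' * ((1 / 2 - τ) * gs + (1 - b) / 2 * V * a - (E₀ + b * ρ) * a + ρ / κ * Fd) =
        (c₁ + 2 * η) * gs - C' * τ * gs + (c₁ + 2 * η) * (V * a) - C' * b * (V * a) / 2 -
          2 * c₁ * (E₀ * a) - 4 * (η * (E₀ * a)) - C' * b * (ρ * a) + C' * (ρ / κ * Fd) := by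
      rw [hC']; ring
    nlinarith [mul_nonneg hη.le hVa]
  calc _ = (c₁ * (gs + V * a - 2 * E₀ * a) + c₁ / r * gs + η * (V * a) + η * r * a + r * Fd) / r := by
        field_simp
    _ ≤ (C' * ed + (4 * e + 3) * η * r * a) / r := by gcongr
    _ = _ := by field_simp

theorem c3_dfc_zero {u : X E → F} {z : X Z} {l : X L}
    (hz : ∀ y, D.wt z y = 0 ∨ D.asm z l y ∉ tsupport u) (c : ℝ) :
    ∫ y, D.wt z y * (c * ‖D.dfc C σ.G u (D.asm z l y)‖ ^ 2) = 0 := by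
  have h0 : D.red C σ.G u (z, l) = 0 := by
    rw [red, integral_eq_zero_of_ae (Eventually.of_forall fun y => ?_), smul_zero]
    rcases hz y with h1 | h1
    · simp [h1]
    · simp [image_eq_zero_of_notMem_tsupport h1]
  refine integral_eq_zero_of_ae (Eventually.of_forall fun y => ?_)
  rcases hz y with h1 | h1
  · simp [h1]
  · simp [dfc, h0, image_eq_zero_of_notMem_tsupport h1]

variable (D C σ)

theorem c3_complete {κ η : ℝ} (hκ : 1 ≤ κ) (hη : 0 < η) (B₁ : ℝ → ℝ → ℝ) :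
    ∃ θ₀ B : ℝ, 0 < θ₀ ∧ 0 < B ∧
    ∀ θ, 0 < θ → θ ≤ θ₀ → ∀ Ω, 0 ≤ Ω → ∃ R₀ : ℝ, ∀ R, R₀ ≤ R → ∀ ε, 0 ≤ ε → ε ≤ 1 → ∀ u,
      D.Loc C σ.G ∅ κ θ R u → D.E1 C σ ε B₁ u → ∀ wl, Adm Ω wl →
        D.PI (fun x => wl (D.zc x, D.lc x) * ‖D.dfc C σ.G u x‖ ^ 2) ≤
          η * D.PI (fun x => wl (D.zc x, D.lc x) * ‖u x‖ ^ 2) +
            B * D.PI fun x => wl (D.zc x, D.lc x) / ‖x‖ * ‖Qe 𝔤 C σ ε u x‖ ^ 2 := by
  obtain ⟨θ₁, Bl, hθ₁, hBl, Hl⟩ := D.edens_lower C σ hκ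
  obtain ⟨e, he, He⟩ := D.c3_E0_le
  set η₁ := η / (4 * e + 4) with hη₁
  have hη₁0 : 0 < η₁ := by positivity
  obtain ⟨c₁, hc₁, Hc⟩ := D.c3_fib_complete C σ hκ hη₁0
  set C' := 2 * c₁ + 4 * η₁ with hC'
  have hC0 : 0 < C' := by linarith
  set τ := η₁ / C' with hτ
  have hτ0 : 0 < τ := by positivity
  have hτ1 : τ < 1 / 2 := by rw [hτ, div_lt_iff₀ hC0]; linarith
  have hτ2 : C' * τ = η₁ := by rw [hτ]; field_simp
  refine ⟨min (min θ₁ (1 / 2)) (η₁ / (C' * Bl)), 4 * C', by positivity, by positivity,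
    fun θ hθ hθ' Ω hΩ => ?_⟩
  have t1 : θ ≤ θ₁ := hθ'.trans ((min_le_left _ _).trans (min_le_left _ _))
  have t2 : θ ≤ 1 / 2 := hθ'.trans ((min_le_left _ _).trans (min_le_right _ _))
  have t3 : C' * (Bl * θ) ≤ η₁ := by
    have := hθ'.trans (min_le_right _ _)
    rw [le_div_iff₀ (by positivity)] at this
    linarith
  obtain ⟨R₁, HR⟩ := Hl θ hθ t1
  refine ⟨max (max R₁ 1) (max (2 * c₁ / η₁) (2 * C' * |B₁ τ (Ω + 1)| / η₁)),
    fun R hR ε hε hε' u hu hE wl hw => ?_⟩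
  have r1 : R₁ ≤ R := (le_max_left _ _).trans ((le_max_left _ _).trans hR)
  have r2 : 1 ≤ R := (le_max_right _ _).trans ((le_max_left _ _).trans hR)
  have r3 : 2 * c₁ ≤ R * η₁ :=
    (div_le_iff₀ hη₁0).1 ((le_max_left _ _).trans ((le_max_right _ _).trans hR))
  have r4 : 2 * C' * |B₁ τ (Ω + 1)| ≤ R * η₁ :=
    (div_le_iff₀ hη₁0).1 ((le_max_right _ _).trans ((le_max_right _ _).trans hR))
  have hR0 : 0 < R := by linarith
  have cw := D.c3_on_wl hw.1.continuousOn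
  have cw' := D.c3_on_wl hw.c3div.1.continuousOn
  have g1 := (D.c3gd_edens C σ hu.1 ε (1 / 2 - τ)).mul cw'
  have g2 := (D.c3gd_sq hu.1).mul cw
  have g3 := (D.c3gd_Q C σ hu.1 ε).mul cw'
  have g4 := (D.c3gd_sq hu.1).mul (D.c3_on_div cw' 2)
  have g5 := (D.c3gd_Q C σ hu.1 ε).mul (D.c3_on_div1 cw)
  have step1 := c3_PI_fibre (D.pyth C σ hκ hθ t2 hR0 hu hw.1.continuousOn).1
    (((g1.cmul C').add (g2.cmul ((4 * e + 3) * η₁))).integrable hu t2 hR0) fun z l => by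
      rcases c3_fibre_cases hu t2 hR0 z l with ⟨h0, hM, hz⟩ | hz
      · have hreg := D.c3_reg hκ h0 hM
        have hr : 0 < ‖z‖ := norm_pos_iff.2 h0
        have hwl := (hw.2 (z, l) h0).1
        have gg := (((D.c3gd_edens C σ hu.1 ε (1 / 2 - τ)).cmul (1 / ‖z‖)).cmul C').add
          ((D.c3gd_sq hu.1).cmul ((4 * e + 3) * η₁))
        have key := Hc θ R u hθ t2 hR0 hu z l h0 hM _ (gg.fibre hu.1 hreg h0 l) fun y hy => by
          by_cases hx : D.asm z l y ∈ tsupport u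
          · have hp := hu.cpt hx (by rw [zc_asm, yc_asm]; exact D.c3_Phi_lt hy)
            have a1 := HR ε hε hε' _ hp.tube (r1.trans hp.far) hp.phi (1 / 2 - τ) u
            have a2 := hp.half t2
            have a3 := D.norm_zc_le (D.asm z l y)
            simp only [zc_asm, yc_asm] at a1 a2 a3
            have a4 := D.c3_norm_Pi_le C σ.G hreg (u (D.asm z l y))
            exact c3_alg_complete hκ hc₁ hη₁0 hτ2 t3 hr a3 a2 (by nlinarith) (He z).2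
              (bc3_gsq_nonneg _ _) (sq_nonneg _) (sq_nonneg _)
              (sub_nonneg.2 (by gcongr)) a1
          · rw [gg.zero _ hx]
            simp [bc3_gsq_eq_zero hx, image_eq_zero_of_notMem_tsupport hx]
        simp only [zc_asm, lc_asm]
        have := mul_le_mul_of_nonneg_left key hwl.le
        rw [← integral_const_mul, ← integral_const_mul] at this
        refine le_trans (le_of_eq ?_) (this.trans (le_of_eq ?_))
        · exact integral_congr_ae (Eventually.of_forall fun y => by ring)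
        · exact integral_congr_ae (Eventually.of_forall fun y => by ring)
      · rw [((g1.cmul C').add (g2.cmul ((4 * e + 3) * η₁))).fibre_zero hz]
        simp only [zc_asm, lc_asm]
        exact (c3_dfc_zero hz _).le
  rw [c3_PI_add hu t2 hR0 (g1.cmul _) (g2.cmul _), c3_PI_cmul, c3_PI_cmul] at step1
  have step2 := c3_E1 hu t2 hR0 hE hτ0 hτ1 (by linarith : 0 ≤ Ω + 1) hw.c3div
  have step3 := c3_PI_mono hu t2 hR0 g3 (g5.cmul 2) fun x hx => by
    have a1 := hx.pos t2 hR0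
    have a2 := hx.half t2
    have a3 := (hw.2 (D.zc x, D.lc x) (norm_pos_iff.1 a1)).1
    have a4 : 0 < ‖x‖ := hR0.trans_le hx.far
    rw [← mul_assoc]
    gcongr
    rw [← mul_div_assoc, div_le_div_iff₀ a1 a4]
    nlinarith
  have step4 := c3_PI_mono hu t2 hR0 g4 (g2.cmul (2 / R)) fun x hx => by
    have a1 := hx.pos t2 hR0
    have a2 := hx.half t2
    have a3 := (hw.2 (D.zc x, D.lc x) (norm_pos_iff.1 a1)).1
    have a4 := hx.far
    have a5 : 0 < ‖x‖ := hR0.trans_le a4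
    rw [← mul_assoc]
    gcongr
    rw [div_div, div_mul_eq_mul_div, div_le_div_iff₀ (mul_pos a1 (by positivity)) hR0]
    have a6 : 1 ≤ ‖x‖ ^ 2 := by nlinarith
    have : R ≤ 2 * (‖D.zc x‖ * ‖x‖ ^ 2) := by nlinarith
    nlinarith
  rw [c3_PI_cmul] at step3 step4
  have hA := c3_PI_nonneg hu g2 fun x hx => by
    have a3 := (hw.2 (D.zc x, D.lc x) (norm_pos_iff.1 (hx.pos t2 hR0))).1
    positivity
  have k1 : C' * (|B₁ τ (Ω + 1)| * (2 / R)) ≤ η₁ := by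
    rw [← mul_div_assoc, ← mul_div_assoc, div_le_iff₀ hR0]; linarith
  have k2 : η = (4 * e + 4) * η₁ := by rw [hη₁]; field_simp
  have k3 := mul_le_mul_of_nonneg_left step4 (abs_nonneg (B₁ τ (Ω + 1)))
  have k4 := mul_le_mul_of_nonneg_left (step2.trans (add_le_add
    (mul_le_mul_of_nonneg_left step3 zero_le_two) k3)) hC0.le
  have k5 := mul_le_mul_of_nonneg_right k1 hA
  rw [k2]
  nlinarith

end Levi

end Crest.Agent.R330

end
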