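import Crest.Agent.R330.BC3.G

/-! # Row 330, BC3/H: defect inequality, crude gradient bound. -/

set_option autoImplicit false
set_option linter.unusedSectionVars false

noncomputable section

open MeasureTheory Filter Topology
open scoped InnerProductSpace ContDiff Matrix
open Crest.MathPhysics.MatrixQM (GammaNine)

namespace Crest.Agent.R330

variable {E Z L H F : Type}
  [NormedAddCommGroup E] [InnerProductSpace ℝ E] [FiniteDimensional ℝ E]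
  [NormedAddCommGroup Z] [InnerProductSpace ℝ Z] [FiniteDimensional ℝ Z]
  [NormedAddCommGroup L] [InnerProductSpace ℝ L] [FiniteDimensional ℝ L]
  [NormedAddCommGroup H] [InnerProductSpace ℝ H] [FiniteDimensional ℝ H]
  [NormedAddCommGroup F] [InnerProductSpace ℂ F] [FiniteDimensional ℂ F]
  [MeasurableSpace E] [BorelSpace E] [MeasurableSpace Z] [BorelSpace Z]
  [MeasurableSpace L] [BorelSpace L] [MeasurableSpace H] [BorelSpace H]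
  {P : Type} [Fintype P] {𝔤 : Lie E} (D : Levi 𝔤 Z L H P) (C : Cl (Th E) F) (σ : Spn)

namespace Levi

theorem c3_grad_crude {κ : ℝ} (B₁ : ℝ → ℝ → ℝ) : ∃ B : ℝ, 0 < B ∧
    ∀ θ R, 0 < θ → θ ≤ 1 / 2 → 1 ≤ R → ∀ ε, 0 ≤ ε → ε ≤ 1 → ∀ u,
      D.Loc C σ.G ∅ κ θ R u → D.E1 C σ ε B₁ u →
        D.PI (fun x => 1 / ‖x‖ ^ 3 * gsq u x) ≤
          B * (D.PI (fun x => ‖Qe 𝔤 C σ ε u x‖ ^ 2) + D.PI fun x => 1 / ‖x‖ ^ 2 * ‖u x‖ ^ 2) := by
  obtain ⟨b, hb, Hb⟩ := exists_norm_yuk 𝔤 C σ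
  refine ⟨64 + 32 * |B₁ (1 / 4) (3 : ℕ)| + 64 * b, by positivity,
    fun θ R hθ t2 r2 ε hε hε' u hu hE => ?_⟩
  have hR0 : 0 < R := by linarith
  have hw := c3_adm_pow (Z := Z) (L := L) 3
  have cw := D.c3_on_wl hw.1.continuousOn
  have g0 := (D.c3gd_gsq hu.1).mul (D.c3_on_div (f := fun _ => 1) continuousOn_const 3)
  have g1 := (D.c3gd_edens C σ hu.1 ε (1 / 2 - 1 / 4)).mul cw
  have g2 := (D.c3gd_sq hu.1).mul (D.c3_on_div (f := fun _ => 1) continuousOn_const 2)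
  have g3 := (D.c3gd_Q C σ hu.1 ε).mul cw
  have g4 := (D.c3gd_sq hu.1).mul (D.c3_on_div cw 2)
  have g5 := D.c3gd_Q C σ hu.1 ε
  have hz : ∀ x, D.CPt κ θ R x → 1 / ‖D.zc x‖ ^ 3 ≤ 8 / ‖x‖ ^ 3 ∧ 8 / ‖x‖ ^ 3 ≤ 8 := fun x hx => by
    have a1 := hx.pos t2 hR0
    have a2 := hx.half t2
    have a4 : 1 ≤ ‖x‖ := r2.trans hx.far
    constructor
    · rw [div_le_div_iff₀ (by positivity) (by positivity)]
      calc 1 * ‖x‖ ^ 3 ≤ 1 * (2 * ‖D.zc x‖) ^ 3 := by gcongr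
        _ = _ := by ring
    · exact div_le_self (by norm_num) (one_le_pow₀ a4)
  have step1 := c3_PI_mono hu t2 hR0 g0 ((g1.cmul 4).add (g2.cmul (64 * b))) fun x hx => by
    have a1 := hx.pos t2 hR0
    have a3 := D.norm_zc_le x
    have a4 : 1 ≤ ‖x‖ := r2.trans hx.far
    have a5 := bc3_gsq_nonneg u x
    have a6 : |(⟪u x, C.iS (yuk 𝔤 σ ε (fun _ => 0) x) (u x)⟫_ℂ).re| ≤ b * (2 * ‖x‖) * ‖u x‖ ^ 2 := by
      have h1 := Hb ε (fun _ => 0) x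
      rw [fderiv_fun_const, Pi.zero_apply, ContinuousLinearMap.opNorm_zero, abs_of_nonneg hε] at h1
      have h2 : ‖C.iS (yuk 𝔤 σ ε (fun _ => 0) x)‖ ≤ b * (2 * ‖x‖) :=
        h1.trans (mul_le_mul_of_nonneg_left (by linarith) hb.le)
      calc _ ≤ ‖⟪u x, C.iS (yuk 𝔤 σ ε (fun _ => 0) x) (u x)⟫_ℂ‖ := Complex.abs_re_le_norm _
        _ ≤ ‖u x‖ * ‖C.iS (yuk 𝔤 σ ε (fun _ => 0) x) (u x)‖ := norm_inner_le_norm _ _
        _ ≤ ‖u x‖ * (b * (2 * ‖x‖) * ‖u x‖) := by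
            gcongr; exact (ContinuousLinearMap.le_opNorm _ _).trans (by gcongr)
        _ = _ := by ring
    have a7 : gsq u x ≤ 4 * edens 𝔤 C σ ε (fun _ => 0) (1 / 2 - 1 / 4) u x +
        8 * b * ‖x‖ * ‖u x‖ ^ 2 := by
      have := (abs_le.1 a6).1
      have h3 : 0 ≤ 1 / 2 * ‖wd 𝔤 σ ε (fun _ => 0) x‖ ^ 2 * ‖u x‖ ^ 2 := by positivity
      rw [edens]; linarith
    calc 1 / ‖x‖ ^ 3 * gsq u x ≤ 1 / ‖D.zc x‖ ^ 3 * gsq u x := by gcongr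
      _ ≤ 1 / ‖D.zc x‖ ^ 3 * (4 * edens 𝔤 C σ ε (fun _ => 0) (1 / 2 - 1 / 4) u x +
          8 * b * ‖x‖ * ‖u x‖ ^ 2) := by gcongr
      _ = 4 * (1 / ‖D.zc x‖ ^ 3 * edens 𝔤 C σ ε (fun _ => 0) (1 / 2 - 1 / 4) u x) +
          1 / ‖D.zc x‖ ^ 3 * (8 * b * ‖x‖ * ‖u x‖ ^ 2) := by ring
      _ ≤ 4 * (1 / ‖D.zc x‖ ^ 3 * edens 𝔤 C σ ε (fun _ => 0) (1 / 2 - 1 / 4) u x) +
          8 / ‖x‖ ^ 3 * (8 * b * ‖x‖ * ‖u x‖ ^ 2) :=
            add_le_add le_rfl (mul_le_mul_of_nonneg_right (hz x hx).1 (by positivity))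
      _ = _ := by field_simp; ring
  rw [c3_PI_add hu t2 hR0 (g1.cmul _) (g2.cmul _), c3_PI_cmul, c3_PI_cmul] at step1
  have step2 := c3_E1 hu t2 hR0 hE (τ := 1 / 4) (by norm_num) (by norm_num) (Nat.cast_nonneg 3) hw
  have step3 := c3_PI_mono hu t2 hR0 g3 (g5.cmul 8) fun x hx =>
    mul_le_mul_of_nonneg_right ((hz x hx).1.trans (hz x hx).2) (sq_nonneg _)
  have step4 := c3_PI_mono hu t2 hR0 g4 (g2.cmul 8) fun x hx => by
    rw [← mul_assoc, ← mul_div_assoc, mul_one]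
    gcongr
    exact (hz x hx).1.trans (hz x hx).2
  rw [c3_PI_cmul] at step3 step4
  have hA := c3_PI_nonneg hu g2 fun x hx => by positivity
  have hQ := c3_PI_nonneg hu g5 fun x hx => by positivity
  have k3 := mul_le_mul_of_nonneg_left step4 (abs_nonneg (B₁ (1 / 4) (3 : ℕ)))
  have k4 := mul_nonneg (abs_nonneg (B₁ (1 / 4) (3 : ℕ))) hQ
  have k5 := mul_nonneg hb.le hQ
  nlinarith

theorem c3_alg_light {γ e τ b κ r ρ E₀ gs gp gl V a Fd ed : ℝ} (hκ : 1 ≤ κ) (hγ : γ ≤ 1 / 2)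
    (hτ : 2 * τ = γ) (hb : b ≤ γ) (hγ0 : 0 ≤ γ) (hr : 0 < r) (h1 : r ≤ ρ) (h2 : ρ ≤ 2 * r)
    (h5 : E₀ ≤ e * r) (hg : gp + gl ≤ gs) (hgl : 0 ≤ gl) (hV : 0 ≤ V) (ha : 0 ≤ a) (hF : 0 ≤ Fd)
    (hed : (1 / 2 - τ) * gs + (1 - b) / 2 * V * a - (E₀ + b * ρ) * a + ρ / κ * Fd ≤ ed) :
    1 / r ^ 3 * gl + 2 * (1 - γ) / r ^ 3 * (gp + V * a - 2 * E₀ * a) ≤
      4 * (1 / r ^ 3 * ed) + 4 * γ * (e + 2) * (1 / r ^ 2 * a) := by
  have hρ : 0 < ρ := by linarith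
  have hVa : 0 ≤ V * a := mul_nonneg hV ha
  have k2 : 0 ≤ ρ / κ * Fd := by positivity
  have k3 : b * (V * a) ≤ γ * (V * a) := by gcongr
  have k4 : b * (ρ * a) ≤ γ * (2 * r * a) := by gcongr
  have k5 : γ * (E₀ * a) ≤ γ * (e * r * a) := by gcongr
  have k6 : (1 - γ) * (gp + gl) ≤ (1 - γ) * gs := by gcongr; linarith
  have k7 : γ * gl ≤ 1 / 2 * gl := by gcongr
  have main : gl + 2 * (1 - γ) * (gp + V * a - 2 * E₀ * a) ≤ 4 * ed + 4 * γ * (e + 2) * r * a := by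
    obtain rfl : τ = γ / 2 := by linarith
    nlinarith
  calc _ = (gl + 2 * (1 - γ) * (gp + V * a - 2 * E₀ * a)) / r ^ 3 := by field_simp
    _ ≤ (4 * ed + 4 * γ * (e + 2) * r * a) / r ^ 3 := by gcongr
    _ = _ := by field_simp

theorem c3_light {κ δ : ℝ} (hκ : 1 ≤ κ) (hδ : 0 < δ) (B₁ : ℝ → ℝ → ℝ) : ∃ θ₀ : ℝ, 0 < θ₀ ∧
    θ₀ ≤ 1 / 2 ∧ ∀ θ, 0 < θ → θ ≤ θ₀ → ∃ R₀ : ℝ, 1 ≤ R₀ ∧ ∀ R, R₀ ≤ R → ∀ ε, 0 ≤ ε → ε ≤ 1 → ∀ u,
      D.Loc C σ.G ∅ κ θ R u → D.E1 C σ ε B₁ u →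
        D.PI (fun x => 1 / ‖D.zc x‖ ^ 3 * D.glight u x) ≤
          δ * (D.PI (fun x => ‖Qe 𝔤 C σ ε u x‖ ^ 2) + D.PI fun x => 1 / ‖x‖ ^ 2 * ‖u x‖ ^ 2) := by
  obtain ⟨θ₁, Bl, hθ₁, hBl, Hl⟩ := D.edens_lower C σ hκ
  obtain ⟨e, he, He⟩ := D.c3_E0_le
  set γ := min (1 / 2) (δ / (32 * (e + 2))) with hγ
  have hγ0 : 0 < γ := by positivity
  have hγ1 : γ ≤ 1 / 2 := min_le_left _ _
  have hγ2 : γ * (32 * (e + 2)) ≤ δ := (le_div_iff₀ (by positivity)).1 (min_le_right _ _)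
  refine ⟨min (min θ₁ (1 / 2)) (γ / Bl), by positivity, (min_le_left _ _).trans (min_le_right _ _),
    fun θ hθ hθ' => ?_⟩
  have t1 : θ ≤ θ₁ := hθ'.trans ((min_le_left _ _).trans (min_le_left _ _))
  have t2 : θ ≤ 1 / 2 := hθ'.trans ((min_le_left _ _).trans (min_le_right _ _))
  have t3 : Bl * θ ≤ γ := by
    have := hθ'.trans (min_le_right _ _)
    rw [le_div_iff₀ hBl] at this
    linarith
  obtain ⟨R₁, HR⟩ := Hl θ hθ t1
  refine ⟨max (max R₁ 1) (max (64 / δ) (64 * |B₁ (γ / 2) (3 : ℕ)| / δ)),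
    (le_max_right _ _).trans (le_max_left _ _), fun R hR ε hε hε' u hu hE => ?_⟩
  have r1 : R₁ ≤ R := (le_max_left _ _).trans ((le_max_left _ _).trans hR)
  have r2 : 1 ≤ R := (le_max_right _ _).trans ((le_max_left _ _).trans hR)
  have r3 : 64 ≤ R * δ :=
    (div_le_iff₀ hδ).1 ((le_max_left _ _).trans ((le_max_right _ _).trans hR))
  have r4 : 64 * |B₁ (γ / 2) (3 : ℕ)| ≤ R * δ :=
    (div_le_iff₀ hδ).1 ((le_max_right _ _).trans ((le_max_right _ _).trans hR))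
  have hR0 : 0 < R := by linarith
  have hw := c3_adm_pow (Z := Z) (L := L) 3
  have cw := D.c3_on_wl hw.1.continuousOn
  have g0 := (D.c3gd_glight hu.1).mul cw
  have g1 := (D.c3gd_edens C σ hu.1 ε (1 / 2 - γ / 2)).mul cw
  have g2 := (D.c3gd_sq hu.1).mul (D.c3_on_div (f := fun _ => 1) continuousOn_const 2)
  have g2' := (D.c3gd_sq hu.1).mul (D.c3_on_divz (f := fun _ => 1) continuousOn_const 2)
  have g3 := (D.c3gd_Q C σ hu.1 ε).mul cw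
  have g4 := (D.c3gd_sq hu.1).mul (D.c3_on_div cw 2)
  have g5 := D.c3gd_Q C σ hu.1 ε
  have gR := (g1.cmul 4).add (g2'.cmul (4 * γ * (e + 2)))
  have step1 := c3_PI_fibre (g0.integrable hu t2 hR0) (gR.integrable hu t2 hR0) fun z l => by
    rcases c3_fibre_cases hu t2 hR0 z l with ⟨h0, hM, hz⟩ | hz
    · have hreg := D.c3_reg hκ h0 hM
      have hr : 0 < ‖z‖ := norm_pos_iff.2 h0
      refine D.c3_fib_osc hu.1 hreg l (a := 2 * (1 - γ) / ‖z‖ ^ 3)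
        (div_nonneg (by linarith) (by positivity)) (g0.fibre hu.1 hreg h0 l)
        (gR.fibre hu.1 hreg h0 l) fun y hy => ?_
      by_cases hx : D.asm z l y ∈ tsupport u
      · have hp := hu.cpt hx (by rw [zc_asm, yc_asm]; exact D.c3_Phi_lt hy)
        have a1 := HR ε hε hε' _ hp.tube (r1.trans hp.far) hp.phi (1 / 2 - γ / 2) u
        have a2 := hp.half t2
        have a3 := D.norm_zc_le (D.asm z l y)
        have a5 := D.gperp_add_glight_le u (x := D.asm z l y) (by rwa [zc_asm])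
        simp only [zc_asm, yc_asm] at a1 a2 a3 ⊢
        have a4 := D.c3_norm_Pi_le C σ.G hreg (u (D.asm z l y))
        exact c3_alg_light hκ hγ1 (by ring) t3 hγ0.le hr a3 a2 (He z).2 a5 (add_nonneg
          (Finset.sum_nonneg fun _ _ => sq_nonneg _) (Finset.sum_nonneg fun _ _ => sq_nonneg _))
          (sq_nonneg _) (sq_nonneg _) (sub_nonneg.2 (by gcongr)) a1
      · rw [gR.zero _ hx, g0.zero _ hx]
        simp [gperp, fderiv_of_notMem_tsupport ℝ hx, image_eq_zero_of_notMem_tsupport hx]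
    · rw [gR.fibre_zero hz, g0.fibre_zero hz]
  rw [c3_PI_add hu t2 hR0 (g1.cmul _) (g2'.cmul _), c3_PI_cmul, c3_PI_cmul] at step1
  have hz : ∀ x, D.CPt κ θ R x → 1 / ‖D.zc x‖ ^ 3 ≤ 8 / R := fun x hx => by
    have a1 := hx.pos t2 hR0
    have a2 := hx.far.trans (hx.half t2)
    rw [div_le_div_iff₀ (by positivity) hR0]
    calc 1 * R ≤ R ^ 3 := by nlinarith [mul_pos hR0 hR0]
      _ ≤ (2 * ‖D.zc x‖) ^ 3 := by gcongr
      _ = _ := by ring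
  have step2 := c3_E1 hu t2 hR0 hE (τ := γ / 2) (by positivity) (by linarith) (Nat.cast_nonneg 3) hw
  have step3 := c3_PI_mono hu t2 hR0 g3 (g5.cmul (8 / R)) fun x hx =>
    mul_le_mul_of_nonneg_right (hz x hx) (sq_nonneg _)
  have step4 := c3_PI_mono hu t2 hR0 g4 (g2.cmul (8 / R)) fun x hx => by
    rw [← mul_assoc, ← mul_div_assoc, mul_one]
    gcongr ?_ / _ * _
    exact hz x hx
  have step5 := c3_PI_mono hu t2 hR0 g2' (g2.cmul 4) fun x hx => by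
    have a1 := hx.pos t2 hR0
    have a2 := hx.half t2
    have a4 : 0 < ‖x‖ := hR0.trans_le hx.far
    rw [← mul_assoc, ← mul_div_assoc, mul_one]
    gcongr ?_ * _
    rw [div_le_div_iff₀ (by positivity) (by positivity)]
    nlinarith
  rw [c3_PI_cmul] at step3 step4 step5
  have hA := c3_PI_nonneg hu g2 fun x hx => by positivity
  have hQ := c3_PI_nonneg hu g5 fun x hx => by positivity
  have k1 : 8 * (8 / R) ≤ δ := by
    rw [← mul_div_assoc, div_le_iff₀ hR0]; linarith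
  have k2 : 4 * (|B₁ (γ / 2) (3 : ℕ)| * (8 / R)) ≤ δ / 2 := by
    rw [← mul_div_assoc, ← mul_div_assoc, div_le_iff₀ hR0]; linarith
  have k3 := mul_le_mul_of_nonneg_left step4 (abs_nonneg (B₁ (γ / 2) (3 : ℕ)))
  have k4 := mul_le_mul_of_nonneg_right k1 hQ
  have k5 := mul_le_mul_of_nonneg_right k2 hA
  have k6 := mul_le_mul_of_nonneg_left step5 (show 0 ≤ 4 * γ * (e + 2) by positivity)
  have k7 := mul_le_mul_of_nonneg_right hγ2 hA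
  nlinarith

theorem c3_defIneq {κ δ : ℝ} (hκ : 1 ≤ κ) (hδ : 0 < δ) (B₁ : ℝ → ℝ → ℝ) : ∃ θ₀ : ℝ, 0 < θ₀ ∧
    ∀ θ, 0 < θ → θ ≤ θ₀ → ∃ R₀ : ℝ, ∀ R, R₀ ≤ R → ∀ ε, 0 ≤ ε → ε ≤ 1 → ∀ u,
      D.Loc C σ.G ∅ κ θ R u → D.E1 C σ ε B₁ u → D.DefIneq C σ ε δ u := by
  obtain ⟨θ₁, B, hθ₁, hB, H1⟩ := D.c3_complete C σ hκ (η := δ / 8) (by positivity) B₁
  obtain ⟨θ₂, hθ₂, hθ₂', H2⟩ := D.c3_light C σ hκ (δ := δ / 2) (by positivity) B₁
  refine ⟨min θ₁ θ₂, by positivity, fun θ hθ hθ' => ?_⟩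
  obtain ⟨R₁, H1⟩ := H1 θ hθ (hθ'.trans (min_le_left _ _)) (2 : ℕ) (Nat.cast_nonneg 2)
  obtain ⟨R₂, hR₂, H2⟩ := H2 θ hθ (hθ'.trans (min_le_right _ _))
  have t2 : θ ≤ 1 / 2 := hθ'.trans ((min_le_right _ _).trans hθ₂')
  refine ⟨max (max R₁ R₂) (8 * B / δ), fun R hR ε hε hε' u hu hE => ?_⟩
  have r1 : R₁ ≤ R := (le_max_left _ _).trans ((le_max_left _ _).trans hR)
  have r2 : R₂ ≤ R := (le_max_right _ _).trans ((le_max_left _ _).trans hR)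
  have r3 : 8 * B ≤ R * δ := (div_le_iff₀ hδ).1 ((le_max_right _ _).trans hR)
  have r4 : 1 ≤ R := hR₂.trans r2
  have hR0 : 0 < R := by linarith
  have hw := c3_adm_pow (Z := Z) (L := L) 2
  have cw := D.c3_on_wl hw.1.continuousOn
  have s1 := H1 R r1 ε hε hε' u hu hE _ hw
  have s2 := H2 R r2 ε hε hε' u hu hE
  have g0 := (D.c3gd_glight hu.1).mul (D.c3_on_divz (f := fun _ => 1) continuousOn_const 3)
  have g2 := (D.c3gd_sq hu.1).mul (D.c3_on_div (f := fun _ => 1) continuousOn_const 2)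
  have g2' := (D.c3gd_sq hu.1).mul cw
  have g3 := (D.c3gd_Q C σ hu.1 ε).mul (D.c3_on_div1 cw)
  have g5 := D.c3gd_Q C σ hu.1 ε
  have step3 := c3_PI_mono hu t2 hR0 g3 (g5.cmul (4 / R)) fun x hx => by
    have a1 := hx.pos t2 hR0
    have a2 := hx.half t2
    have a3 := hx.far
    have a4 : 0 < ‖x‖ := hR0.trans_le hx.far
    gcongr ?_ * _
    rw [div_div, div_le_div_iff₀ (mul_pos (pow_pos a1 2) a4) hR0]
    have : 1 ≤ 4 * ‖D.zc x‖ ^ 2 := by nlinarith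
    show 1 * R ≤ 4 * (‖D.zc x‖ ^ 2 * ‖x‖)
    nlinarith
  have step5 := c3_PI_mono hu t2 hR0 g2' (g2.cmul 4) fun x hx => by
    have a1 := hx.pos t2 hR0
    have a2 := hx.half t2
    have a4 : 0 < ‖x‖ := hR0.trans_le hx.far
    rw [← mul_assoc, ← mul_div_assoc, mul_one]
    gcongr ?_ * _
    rw [div_le_div_iff₀ (pow_pos a1 2) (by positivity)]
    show 1 * ‖x‖ ^ 2 ≤ 4 * ‖D.zc x‖ ^ 2
    nlinarith
  rw [c3_PI_cmul] at step3 step5
  have hA := c3_PI_nonneg hu g2 fun x hx => by positivity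
  have hQ := c3_PI_nonneg hu g5 fun x hx => by positivity
  have hsplit : D.PI (fun x => 1 / ‖D.zc x‖ ^ 2 * ‖D.dfc C σ.G u x‖ ^ 2 +
      1 / ‖D.zc x‖ ^ 3 * D.glight u x) = D.PI (fun x => 1 / ‖D.zc x‖ ^ 2 * ‖D.dfc C σ.G u x‖ ^ 2) +
      D.PI (fun x => 1 / ‖D.zc x‖ ^ 3 * D.glight u x) := by
    simp only [PI, mul_add]
    exact integral_add (D.pyth C σ hκ hθ t2 hR0 hu hw.1.continuousOn).1 (g0.integrable hu t2 hR0)
  rw [DefIneq, hsplit]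
  have k1 : B * (4 / R) ≤ δ / 2 := by
    rw [← mul_div_assoc, div_le_iff₀ hR0]; linarith
  have k3 := mul_le_mul_of_nonneg_left step3 hB.le
  have k4 := mul_le_mul_of_nonneg_right k1 hQ
  have k6 := mul_le_mul_of_nonneg_left step5 (show 0 ≤ δ / 8 by positivity)
  simp only at s1 k3 k6
  nlinarith

end Levi

end Crest.Agent.R330

end
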